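import Vale.Agent.P363.A.Chain

/-!
# P363 A/Trunc  (TASK)

`posPart`: `chain1` with `G ε t = √((t - c)₊² + ε²) - ε` (derivative `(t - c)₊ / √(..)`), `mem_of_dom`.  `g_zero`: `a = a₊ - (-a)₊` and `S.g_congr`.
`quot`: `H = 1/t` for `t ≥ c` extended to a bounded `C¹` function with bounded derivative (e.g. `1 / G t` with `G t = c + (t - c)` for `t ≥ c` and `G t = c/2 + (c/2) exp (2 (t-c)/c)` below, or any other
choice), `θ (H A - H 0) + θ H 0 ∈ S`, bounded; `θ' B` bounded where `θ'` is needed: use `mul_mem` with `a = θ H(A)` and `b = B`; on the set `θ = 0` where the bounds fail both `θ` and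
`fderiv θ` vanish (outside `tsupport θ`).
-/

open MeasureTheory Filter Topology Set
open scoped ContDiff

set_option linter.unusedSectionVars false

noncomputable section

namespace Vale.Agent.P363

variable {V : Type} [NormedAddCommGroup V] [NormedSpace ℝ V] [FiniteDimensional ℝ V]
  [MeasureSpace V] [BorelSpace V] [(volume : Measure V).IsAddHaarMeasure]
  {ι : Type} [Fintype ι] {e : ι → V}

theorem trunc_sq (t : ℝ) : HasDerivAt (fun s : ℝ => max s 0 ^ 2) (2 * max t 0) t := by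
  refine hasDerivAt_of_hasDerivAt_of_ne' (x := 0) (g := fun t => 2 * max t 0) (fun y hy => ?_)
    (by fun_prop) (by fun_prop) t
  rcases hy.lt_or_gt with h | h
  · rw [max_eq_right h.le, mul_zero]
    refine (hasDerivAt_const y (0 : ℝ)).congr_of_eventuallyEq ?_
    filter_upwards [Iio_mem_nhds h] with s hs
    rw [max_eq_right (le_of_lt hs), zero_pow two_ne_zero]
  · rw [max_eq_left h.le]
    refine ((hasDerivAt_pow 2 y).congr_deriv (by norm_num)).congr_of_eventuallyEq ?_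
    filter_upwards [Ioi_mem_nhds h] with s hs
    rw [max_eq_left (le_of_lt hs)]

theorem trunc_mem (a : S e) : (a.f, a.g) ∈ Sob e := mem_Sob.2 ⟨a.mem, a.gmem, a.wd⟩

theorem trunc_dom (a : S e) {h : ℕ → S e} {f : V → ℝ} {g : ι → V → ℝ}
    (h1 : ∀ m x, |(h m).f x| ≤ |a.f x|) (h2 : ∀ m k x, |(h m).g k x| ≤ |a.g k x|)
    (h3 : ∀ x, Tendsto (fun m => (h m).f x) atTop (𝓝 (f x)))
    (h4 : ∀ k x, Tendsto (fun m => (h m).g k x) atTop (𝓝 (g k x))) :
    ∃ b : S e, b.f = f ∧ (∀ k, b.g k = g k) ∧ Tendsto (fun m => hn (h m - b)) atTop (𝓝 0) := by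
  refine mem_of_dom (b := fun x => |a.f x| + ∑ k, |a.g k x|)
    (a.mem.abs.add (memLp_finsetSum _ fun k _ => (a.gmem k).abs))
    (fun m => ae_of_all _ fun x => ⟨(h1 m x).trans (le_add_of_nonneg_right (by positivity)),
      fun k => (h2 m k x).trans (le_add_of_nonneg_of_le (abs_nonneg _) ?_)⟩)
    (ae_of_all _ fun x => ⟨h3 x, fun k => h4 k x⟩)
  exact Finset.single_le_sum (f := fun k => |a.g k x|) (fun _ _ => abs_nonneg _)
    (Finset.mem_univ k)

theorem trunc_le {t c : ℝ} (hc : 0 ≤ c) : max (t - c) 0 ≤ |t| :=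
  max_le (by linarith [le_abs_self t]) (abs_nonneg t)

theorem trunc_G {p ε : ℝ} (hp : 0 ≤ p) (hε : 0 < ε) :
    |√(p ^ 2 + ε ^ 2) - ε| ≤ p ∧ |p / √(p ^ 2 + ε ^ 2)| ≤ 1 := by
  have h1 : ε ≤ √(p ^ 2 + ε ^ 2) := Real.le_sqrt_of_sq_le (by nlinarith)
  have h2 : p ≤ √(p ^ 2 + ε ^ 2) := Real.le_sqrt_of_sq_le (by nlinarith)
  have h3 : √(p ^ 2 + ε ^ 2) ≤ p + ε := Real.sqrt_le_iff.2 ⟨by positivity, by nlinarith⟩
  exact ⟨abs_le.2 ⟨by linarith, by linarith⟩, by
    rw [abs_of_nonneg (by positivity)]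
    exact div_le_one_of_le₀ h2 (Real.sqrt_nonneg _)⟩

theorem posPart (a : S e) {c : ℝ} (hc : 0 ≤ c) :
    ((fun x => max (a.f x - c) 0), fun k x => if c < a.f x then a.g k x else 0) ∈ Sob e := by
  have hε : ∀ m : ℕ, (0 : ℝ) < 1 / ((m : ℝ) + 1) := fun m => by positivity
  have h0 : Tendsto (fun m : ℕ => 1 / ((m : ℝ) + 1)) atTop (𝓝 0) :=
    tendsto_one_div_add_atTop_nhds_zero_nat
  have hs : ∀ p : ℝ, 0 ≤ p →
      Tendsto (fun m : ℕ => √(p ^ 2 + (1 / ((m : ℝ) + 1)) ^ 2)) atTop (𝓝 p) := fun p hp => by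
    have := ((h0.pow 2).const_add (p ^ 2)).sqrt
    rwa [zero_pow two_ne_zero, add_zero, Real.sqrt_sq hp] at this
  have hm := fun m : ℕ => chain1 a
    (G := fun t => √(max (t - c) 0 ^ 2 + (1 / ((m : ℝ) + 1)) ^ 2) - 1 / ((m : ℝ) + 1))
    (G' := fun t => max (t - c) 0 / √(max (t - c) 0 ^ 2 + (1 / ((m : ℝ) + 1)) ^ 2))
    (fun t => (((((trunc_sq (t - c)).comp_sub_const t c).add_const _).sqrt
      (by positivity)).sub_const _).congr_deriv (mul_div_mul_left _ _ two_ne_zero))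
    (Continuous.div (by fun_prop) (by fun_prop) fun t => by positivity) (C := 1)
    (fun t => (trunc_G (le_max_right _ _) (hε m)).2)
    (by rw [max_eq_right (by linarith), zero_pow two_ne_zero, zero_add, Real.sqrt_sq (hε m).le,
      sub_self])
  obtain ⟨b, b1, b2, -⟩ := trunc_dom a (h := fun m => S.of (hm m))
    (f := fun x => max (a.f x - c) 0) (g := fun k x => if c < a.f x then a.g k x else 0)
    (fun m x => (trunc_G (le_max_right _ _) (hε m)).1.trans (trunc_le hc))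
    (fun m k x => (abs_mul _ _).trans_le (mul_le_of_le_one_left (abs_nonneg _)
      (trunc_G (le_max_right _ _) (hε m)).2))
    (fun x => by simpa using (hs _ (le_max_right (a.f x - c) 0)).sub h0) fun k x => by
      simp only [S.of_g]
      split_ifs with h
      · have h1 : 0 < max (a.f x - c) 0 := lt_max_of_lt_left (sub_pos.2 h)
        have := ((tendsto_const_nhds (x := max (a.f x - c) 0)).div (hs _ h1.le) h1.ne').mul_const
          (a.g k x)
        rwa [div_self h1.ne', one_mul] at this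
      · rw [max_eq_right (by linarith)]
        simp
  rw [← b1, ← funext b2]
  exact trunc_mem b

theorem trunc_split (a : S e) :
    a.f =ᵐ[volume] (S.of (posPart a le_rfl) - S.of (posPart (-a) le_rfl)).f :=
  ae_of_all _ fun x => by
    simp only [S.sub_f, S.of_f, S.neg_f, sub_zero]
    exact (max_zero_sub_max_neg_zero_eq_self _).symm

theorem S.g_zero (a : S e) : ∀ᵐ x, a.f x = 0 → ∀ k, a.g k x = 0 := by
  filter_upwards [ae_all_iff.2 (S.g_congr (trunc_split a))] with x h h0 k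
  simp [h k, h0]

theorem trunc_disjoint (U : V → ℝ) {a b : S e} (h : ∀ᵐ x, a.f x = 0 ∨ b.f x = 0) :
    qf U a b = 0 := by
  have h1 : ∀ k, ∫ x, a.g k x * b.g k x = 0 := fun k => integral_eq_zero_of_ae (by
    filter_upwards [h, a.g_zero, b.g_zero] with x h0 ha hb
    exact mul_eq_zero.2 (h0.imp (ha · k) (hb · k)))
  have h2 : pot U a b = 0 := integral_eq_zero_of_ae (h.mono fun x h0 =>
    mul_eq_zero_of_right _ (mul_eq_zero.2 h0))
  simp [qf, kin, h1, h2]

theorem exists_pos (a : S e) : ∃ p m : S e, (∀ x, p.f x = max (a.f x) 0) ∧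
    (∀ x, m.f x = max (-a.f x) 0) ∧ (∀ U : V → ℝ, ∀ b : S e, FB e U → qf U a b = qf U p b - qf U m b) ∧
    (∀ U : V → ℝ, qf U p m = 0) ∧ (∀ k, ∀ᵐ x, p.g k x = if 0 < a.f x then a.g k x else 0) := by
  refine ⟨S.of (posPart a le_rfl), S.of (posPart (-a) le_rfl), fun x => by simp, fun x => by simp,
    fun U b hU => ?_, fun U => trunc_disjoint U (ae_of_all _ fun x => ?_),
    fun k => ae_of_all _ fun x => rfl⟩
  · rw [qf_congr U (trunc_split a), hU.bil_qf.sub_left]
  · simpa using le_total (a.f x) 0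

theorem exists_abs (a : S e) : ∃ b : S e, (∀ x, b.f x = |a.f x|) ∧
    ∀ U : V → ℝ, qf U b b = qf U a a := by
  have h0 : ∀ x, (S.of (posPart a le_rfl) + S.of (posPart (-a) le_rfl)).f x = |a.f x| := fun x => by
    simp only [S.add_f, S.of_f, S.neg_f, sub_zero]
    exact max_zero_add_max_neg_zero_eq_abs_self _
  refine ⟨_, h0, fun U => ?_⟩
  simp only [qf, pot, h0, abs_mul_abs_self, kin]
  congr 3
  funext k
  refine integral_congr_ae (a.g_zero.mono fun x hx => ?_)
  simp only [S.add_g, S.of_g, S.neg_f, S.neg_g, Left.neg_pos_iff]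
  rcases lt_trichotomy (a.f x) 0 with h | h | h
  · simp [h, h.not_gt]
  · simp [hx h k]
  · simp [h, h.not_gt]

theorem qf_disjoint (U : V → ℝ) {a b : S e} (h : ∀ᵐ x, a.f x = 0 ∨ b.f x = 0) : qf U a b = 0 :=
  trunc_disjoint U h

theorem minPart (a : S e) {M : ℝ} (hM : 0 ≤ M) :
    ((fun x => min (a.f x) M), fun k x => if a.f x ≤ M then a.g k x else 0) ∈ Sob e := by
  refine mem_congr (trunc_mem (a - S.of (posPart a hM))) (ae_of_all _ fun x => ?_)
    fun k => ae_of_all _ fun x => ?_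
  · simp only [S.sub_f, S.of_f]
    rcases le_total (a.f x) M with h | h
    · rw [max_eq_right (by linarith), min_eq_left h, sub_zero]
    · rw [max_eq_left (by linarith), min_eq_right h, sub_sub_cancel]
  · simp only [S.sub_g, S.of_g]
    rcases lt_or_ge M (a.f x) with h | h
    · simp [h, h.not_ge]
    · simp [h, h.not_gt]

theorem tendsto_posPart (a : S e) : ∃ (h : ℕ → S e) (p : S e), (∀ x, p.f x = max (a.f x) 0) ∧
    (∀ m x, (h m).f x = max (a.f x - 1 / ((m : ℝ) + 1)) 0) ∧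
    Tendsto (fun m => hn (h m - p)) atTop (𝓝 0) := by
  have hε : ∀ m : ℕ, (0 : ℝ) ≤ 1 / ((m : ℝ) + 1) := fun m => by positivity
  have h0 : Tendsto (fun m : ℕ => 1 / ((m : ℝ) + 1)) atTop (𝓝 0) :=
    tendsto_one_div_add_atTop_nhds_zero_nat
  obtain ⟨b, b1, -, b3⟩ := trunc_dom a (h := fun m => S.of (posPart a (hε m)))
    (f := fun x => max (a.f x) 0) (g := fun k x => if 0 < a.f x then a.g k x else 0)
    (fun m x => (abs_of_nonneg (le_max_right _ _)).trans_le (trunc_le (hε m)))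
    (fun m k x => by
      simp only [S.of_g]
      split_ifs <;> simp)
    (fun x => by simpa using (h0.const_sub (a.f x)).max (tendsto_const_nhds (x := (0 : ℝ))))
    fun k x => by
      simp only [S.of_g]
      split_ifs with h
      · exact tendsto_const_nhds.congr' ((h0.eventually_lt_const h).mono fun m hm =>
          (if_pos hm).symm)
      · exact tendsto_const_nhds.congr fun m => (if_neg fun h' => h ((hε m).trans_lt h')).symm
  exact ⟨_, b, fun x => congrFun b1 x, fun m x => rfl, b3⟩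

theorem trunc_H {c : ℝ} (hc : 0 < c) : ∃ H H' : ℝ → ℝ, (∀ t, HasDerivAt H (H' t) t) ∧
    Continuous H' ∧ (∀ t, |H' t| ≤ 4 / c ^ 2) ∧ H 0 = 0 ∧
    ∀ t, c ≤ t → H t = 1 / t ∧ H' t = -1 / t ^ 2 := by
  have h1 : ∀ t : ℝ, c ^ 2 / 2 ≤ t ^ 2 + max (c - t) 0 ^ 2 := fun t => by
    rcases le_total (c - t) 0 with h | h
    · rw [max_eq_right h]
      nlinarith
    · rw [max_eq_left h]
      nlinarith [sq_nonneg (c - 2 * t)]
  have h2 : ∀ t : ℝ, 0 < t ^ 2 + max (c - t) 0 ^ 2 := fun t => lt_of_lt_of_le (by positivity) (h1 t)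
  refine ⟨fun t => t / (t ^ 2 + max (c - t) 0 ^ 2), fun t => (max (c - t) 0 ^ 2 - t ^ 2 +
    2 * t * max (c - t) 0) / (t ^ 2 + max (c - t) 0 ^ 2) ^ 2, fun t => ?_,
    Continuous.div (by fun_prop) (by fun_prop) fun t => (pow_pos (h2 t) 2).ne', fun t => ?_,
    zero_div _, fun t ht => ?_⟩
  · refine ((hasDerivAt_id' t).fun_div ((hasDerivAt_pow 2 t).fun_add
      ((trunc_sq (c - t)).comp_const_sub c t)) (h2 t).ne').congr_deriv ?_
    congr 1
    norm_num
    ring
  · have h3 := h1 t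
    have h4 := h2 t
    simp only
    generalize max (c - t) 0 = p at h3 h4 ⊢
    have h5 : |p ^ 2 - t ^ 2 + 2 * t * p| ≤ 2 * (t ^ 2 + p ^ 2) :=
      abs_le.2 ⟨by nlinarith [sq_nonneg (t + p)], by nlinarith [sq_nonneg (t - p)]⟩
    rw [abs_div, abs_of_pos (pow_pos h4 2), div_le_div_iff₀ (pow_pos h4 2) (pow_pos hc 2)]
    nlinarith [mul_le_mul h5 h3 (by positivity) (by positivity)]
  · have : t ≠ 0 := (hc.trans_le ht).ne'
    simp only [max_eq_right (sub_nonpos.2 ht)]
    constructor <;> field_simp <;> ring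

/-- A localised quotient. -/
theorem quot (A B : S e) {θ : V → ℝ} (h1 : ContDiff ℝ 1 θ) (h2 : HasCompactSupport θ) {c C : ℝ}
    (hc : 0 < c) (h : ∀ᵐ x, x ∈ tsupport θ → c ≤ A.f x ∧ |B.f x| ≤ C) :
    ((fun x => θ x * (B.f x / A.f x)), fun k x =>
      θ x * ((A.f x * B.g k x - B.f x * A.g k x) / A.f x ^ 2) +
        fderiv ℝ θ x (e k) * (B.f x / A.f x)) ∈ Sob e := by
  obtain ⟨H, H', d1, d2, d3, d4, d5⟩ := trunc_H hc
  have hθ := mul1_of_compact h1 h2
  obtain ⟨K, hK⟩ := hθ.2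
  obtain ⟨a, a1, a2⟩ : ∃ a : S e, (∀ x, a.f x = θ x * H (A.f x)) ∧ ∀ k x, a.g k x =
      θ x * (H' (A.f x) * A.g k x) + fderiv ℝ θ x (e k) * H (A.f x) :=
    ⟨S.of (mul1 (S.of (chain1 A d1 d2 d3 d4)) hθ), fun _ => rfl, fun _ _ => rfl⟩
  have key : ∀ᵐ x, (θ x = 0 ∧ fderiv ℝ θ x = 0) ∨ (c ≤ A.f x ∧ |B.f x| ≤ C ∧
      H (A.f x) = 1 / A.f x ∧ H' (A.f x) = -1 / A.f x ^ 2) := h.mono fun x hx => by
    by_cases hx' : x ∈ tsupport θ
    · exact Or.inr ⟨(hx hx').1, (hx hx').2, d5 _ (hx hx').1⟩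
    · exact Or.inl ⟨image_eq_zero_of_notMem_tsupport hx', fderiv_of_notMem_tsupport ℝ hx'⟩
  have K0 : 0 ≤ K := (abs_nonneg _).trans (hK 0).1
  have i1 : ∀ x, c ≤ A.f x → |1 / A.f x| ≤ 1 / c := fun x hx => by
    rw [abs_of_pos (one_div_pos.2 (hc.trans_le hx))]
    exact one_div_le_one_div_of_le hc hx
  have b1 : ∀ {u : V → ℝ}, MemLp u 2 volume → MemLp (fun x => a.f x * u x) 2 volume :=
    fun {u} hu => hu.of_le_mul (c := K * (1 / c)) (a.mem.1.mul hu.1) (key.mono fun x hx => by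
      rw [norm_mul, a1]
      refine mul_le_mul_of_nonneg_right ?_ (norm_nonneg _)
      rcases hx with hx | hx
      · rw [hx.1, zero_mul, norm_zero]
        positivity
      · rw [hx.2.2.1, norm_mul]
        exact mul_le_mul (hK x).1 (i1 x hx.1) (norm_nonneg _) K0)
  have b2 : ∀ k, MemLp (fun x => a.g k x * B.f x) 2 volume := fun k =>
    (((A.gmem k).abs.const_mul (K * (4 / c ^ 2) * |C|)).add
      (B.mem.abs.const_mul (K * ‖e k‖ * (1 / c)))).mono' ((a.gmem k).1.mul B.mem.1)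
      (key.mono fun x hx => by
        rw [a2]
        simp only [Pi.add_apply, Pi.abs_apply]
        rcases hx with hx | hx
        · rw [hx.1, hx.2]
          simp only [zero_mul, zero_apply, add_zero, norm_zero]
          positivity
        · rw [add_mul, hx.2.2.1]
          refine norm_add_le_of_le ?_ ?_
          · rw [Real.norm_eq_abs, abs_mul, abs_mul, abs_mul, ← mul_assoc, mul_right_comm]
            exact mul_le_mul_of_nonneg_right (mul_le_mul (mul_le_mul (hK x).1 (d3 _)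
              (abs_nonneg _) K0) (hx.2.1.trans (le_abs_self C)) (abs_nonneg _) (by positivity))
              (abs_nonneg _)
          · rw [norm_mul, norm_mul]
            exact mul_le_mul_of_nonneg_right (mul_le_mul ((fderiv ℝ θ x).le_of_opNorm_le (hK x).2 _)
              (i1 x hx.1) (norm_nonneg _) (by positivity)) (norm_nonneg _))
  refine mem_congr (mul_mem a B (b1 B.mem) fun k => (b1 (B.gmem k)).add (b2 k))
    (key.mono fun x hx => ?_) fun k => key.mono fun x hx => ?_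
  · simp only [a1]
    rcases hx with hx | hx
    · simp [hx.1]
    · rw [hx.2.2.1]
      ring
  · simp only [a1, a2]
    rcases hx with hx | hx
    · simp [hx.1, hx.2]
    · have : A.f x ≠ 0 := (hc.trans_le hx.1).ne'
      rw [hx.2.2.1, hx.2.2.2]
      field_simp
      ring

end Vale.Agent.P363
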