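import Vale.Agent.P363.A.ApproxB

/-!
# P363 A/Approx  (TASK)

Port of `Vale/Agent/P349/HMoll.lean` and `HCut.lean` (mollify, then cut off) to real functions on a general `V`.
`of_C1`: `integral_mul_fderiv_eq_neg_fderiv_mul_of_integrable` (or `integral_bilinear_hasLineDerivAt_right_eq_neg_left_of_integrable`).
-/

open MeasureTheory Filter Topology Set Metric
open scoped ContDiff

set_option linter.unusedSectionVars false

noncomputable section

namespace Vale.Agent.P363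

variable {V : Type} [NormedAddCommGroup V] [NormedSpace ℝ V] [FiniteDimensional ℝ V]
  [MeasureSpace V] [BorelSpace V] [(volume : Measure V).IsAddHaarMeasure]
  {ι : Type} [Fintype ι] {e : ι → V}

theorem of_C1 {f : V → ℝ} (hf : ContDiff ℝ 1 f) (h0 : MemLp f 2 volume)
    (h1 : ∀ k, MemLp (fun x => fderiv ℝ f x (e k)) 2 volume) :
    (f, fun k x => fderiv ℝ f x (e k)) ∈ Sob e := by
  refine ⟨h0, h1, fun k φ p1 p2 => ?_⟩
  have h2 := integral_mul_fderiv_eq_neg_fderiv_mul_of_integrable (μ := volume) (f := φ) (g := f)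
    (v := e k) (int_test' _ p1 p2 h0) (int_test p1.continuous p2 (h1 k))
    (int_test p1.continuous p2 h0) (fun x _ => p1.differentiable (by simp) x)
    fun x _ => hf.differentiable one_ne_zero x
  exact neg_eq_iff_eq_neg.1 h2.symm

theorem of_C1c {f : V → ℝ} (hf : ContDiff ℝ 1 f) (hc : HasCompactSupport f) :
    (f, fun k x => fderiv ℝ f x (e k)) ∈ Sob e := by
  exact of_C1 hf (hf.continuous.memLp_of_hasCompactSupport hc) fun k =>
    ((hf.continuous_fderiv one_ne_zero).clm_apply continuous_const).memLp_of_hasCompactSupport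
      (hc.fderiv_apply ℝ _)

theorem apx_int_sq {u : V → ℝ} (hu : MemLp u 2 volume) :
    Integrable (fun X => ‖u X‖ ^ 2) := (memLp_two_iff_integrable_sq_norm hu.1).1 hu

theorem apx_sq_add_le (a b : ℝ) : ‖a + b‖ ^ 2 ≤ 2 * ‖a‖ ^ 2 + 2 * ‖b‖ ^ 2 := by
  have h := pow_le_pow_left₀ (norm_nonneg _) (norm_add_le a b) 2
  nlinarith [sq_nonneg (‖a‖ - ‖b‖)]

theorem apx_sq_tri {u v w : V → ℝ} (hu : MemLp u 2 volume) (hv : MemLp v 2 volume)
    (hw : MemLp w 2 volume) {ε : ℝ} (h1 : ∫ X, ‖u X - v X‖ ^ 2 ≤ ε / 4)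
    (h2 : ∫ X, ‖v X - w X‖ ^ 2 ≤ ε / 4) : ∫ X, ‖u X - w X‖ ^ 2 ≤ ε := by
  have i1 : Integrable (fun X => ‖u X - v X‖ ^ 2) := apx_int_sq (hu.sub hv)
  have i2 : Integrable (fun X => ‖v X - w X‖ ^ 2) := apx_int_sq (hv.sub hw)
  have h3 : ∫ X, ‖u X - w X‖ ^ 2 ≤ ∫ X, (2 * ‖u X - v X‖ ^ 2 + 2 * ‖v X - w X‖ ^ 2) :=
    integral_mono (apx_int_sq (hu.sub hw)) ((i1.const_mul 2).add (i2.const_mul 2)) fun X => by
      simpa using apx_sq_add_le (u X - v X) (v X - w X)
  rw [integral_add (i1.const_mul 2) (i2.const_mul 2), integral_const_mul,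
    integral_const_mul] at h3
  linarith

theorem apx_cut_tend {a c : ℕ → V → ℝ} {C : ℝ} (ha : ∀ m, Continuous (a m))
    (hc : ∀ m, Continuous (c m)) (ha1 : ∀ m X, |a m X| ≤ C) (hc1 : ∀ m X, |c m X| ≤ C)
    (ha2 : ∀ X, Tendsto (fun m => a m X) atTop (𝓝 0))
    (hc2 : ∀ X, Tendsto (fun m => c m X) atTop (𝓝 0)) {u v : V → ℝ} (hu : MemLp u 2 volume)
    (hv : MemLp v 2 volume) :
    Tendsto (fun m => ∫ X, ‖a m X • u X + c m X • v X‖ ^ 2) atTop (𝓝 0) := by
  have h := tendsto_integral_of_dominated_convergence (μ := volume)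
    (F := fun m X => ‖a m X • u X + c m X • v X‖ ^ 2) (f := fun _ => 0)
    (fun X => 2 * (C ^ 2 * ‖u X‖ ^ 2) + 2 * (C ^ 2 * ‖v X‖ ^ 2))
    (fun m => ((((ha m).aestronglyMeasurable.smul hu.1).add
      ((hc m).aestronglyMeasurable.smul hv.1)).norm.pow 2))
    ((((apx_int_sq hu).const_mul _).const_mul _).add (((apx_int_sq hv).const_mul _).const_mul _))
    (fun m => ae_of_all _ fun X => by
      rw [Real.norm_of_nonneg (sq_nonneg _)]
      refine (apx_sq_add_le _ _).trans ?_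
      rw [norm_smul, norm_smul, mul_pow, mul_pow, Real.norm_eq_abs, Real.norm_eq_abs]
      gcongr
      exacts [ha1 m X, hc1 m X])
    (ae_of_all _ fun X => by
      simpa using ((((ha2 X).smul_const (u X)).add ((hc2 X).smul_const (v X))).norm.pow 2))
  simpa using h

theorem apx_exists_chi : ∃ (χ : ℕ → V → ℝ) (C : ℝ),
    (∀ m, ContDiff ℝ (⊤ : ℕ∞) (χ m)) ∧ (∀ m, HasCompactSupport (χ m)) ∧
    (∀ m X, |χ m X - 1| ≤ 1) ∧ (∀ X, Tendsto (fun m => χ m X - 1) atTop (𝓝 0)) ∧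
    ∀ m X, ‖fderiv ℝ (χ m) X‖ ≤ 1 / ((m : ℝ) + 1) * C := by
  let b : ContDiffBump (0 : V) := ⟨1, 2, one_pos, one_lt_two⟩
  have hb : ContDiff ℝ (⊤ : ℕ∞) b := b.contDiff
  obtain ⟨C, hC⟩ := (hb.continuous_fderiv (by simp)).bounded_above_of_compact_support
    (b.hasCompactSupport.fderiv ℝ)
  refine ⟨fun m X => b ((1 / ((m : ℝ) + 1)) • X), C,
    fun m => hb.comp (contDiff_const_smul _), fun m => b.hasCompactSupport.comp_smul
      (by positivity), fun m X => abs_le.2 ⟨by linarith [b.nonneg (x := (1 / ((m : ℝ) + 1)) • X)],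
        by linarith [b.le_one (x := (1 / ((m : ℝ) + 1)) • X)]⟩, fun X => ?_, fun m X => ?_⟩
  · have h1 := tendsto_one_div_add_atTop_nhds_zero_nat (𝕜 := ℝ).smul_const X
    rw [zero_smul] at h1
    have h2 := ((hb.continuous.tendsto 0).comp h1).sub_const 1
    rwa [b.one_of_mem_closedBall (mem_closedBall_self zero_le_one), sub_self] at h2
  · rw [fderiv_comp_smul, norm_smul, Real.norm_of_nonneg (by positivity)]
    exact mul_le_mul_of_nonneg_left (hC _) (by positivity)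

theorem apx_exists_cut {F : V → ℝ} (hs : ContDiff ℝ (⊤ : ℕ∞) F) (hF : MemLp F 2 volume)
    (hD : ∀ k, MemLp (fun X => fderiv ℝ F X (e k)) 2 volume) {ε : ℝ} (he : 0 < ε) :
    ∃ h : V → ℝ, ContDiff ℝ (⊤ : ℕ∞) h ∧ HasCompactSupport h ∧ ∫ X, ‖h X - F X‖ ^ 2 ≤ ε ∧
      ∀ k, ∫ X, ‖fderiv ℝ h X (e k) - fderiv ℝ F X (e k)‖ ^ 2 ≤ ε := by
  obtain ⟨χ, C, h1, h2, h3, h4, h5⟩ := apx_exists_chi (V := V)
  have hC : 0 ≤ C := by simpa using (norm_nonneg _).trans (h5 0 0)
  have ha : ∀ m, Continuous fun X => χ m X - 1 := fun m => (h1 m).continuous.sub continuous_const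
  have t1 := apx_cut_tend (c := fun _ _ => 0) ha (fun _ => continuous_const) h3 (by simp) h4
    (fun _ => tendsto_const_nhds) hF hF
  have t2 : ∀ k, Tendsto (fun m => ∫ X, ‖(χ m X - 1) • fderiv ℝ F X (e k) +
      fderiv ℝ (χ m) X (e k) • F X‖ ^ 2) atTop (𝓝 0) := fun k => by
    have h6 : ∀ m X, |fderiv ℝ (χ m) X (e k)| ≤ 1 / ((m : ℝ) + 1) * (C * ‖e k‖) :=
      fun m X => ((fderiv ℝ (χ m) X).le_of_opNorm_le (h5 m X) _).trans_eq (mul_assoc _ _ _)
    refine apx_cut_tend (C := 1 + C * ‖e k‖) ha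
      (fun m => ((h1 m).continuous_fderiv (by simp)).clm_apply continuous_const)
      (fun m X => (h3 m X).trans (le_add_of_nonneg_right (by positivity))) (fun m X => ?_) h4
      (fun X => ?_) (hD k) hF
    · refine (h6 m X).trans ((mul_le_of_le_one_left (by positivity) ?_).trans (by linarith))
      rw [div_le_one (by positivity)]
      linarith [m.cast_nonneg (α := ℝ)]
    · refine squeeze_zero_norm (fun m => h6 m X) ?_
      simpa using tendsto_one_div_add_atTop_nhds_zero_nat (𝕜 := ℝ).mul_const (C * ‖e k‖)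
  obtain ⟨m, hm1, hm2⟩ := ((t1.eventually (ge_mem_nhds he)).and (eventually_all.2
    fun k => (t2 k).eventually (ge_mem_nhds he))).exists
  refine ⟨fun X => χ m X • F X, (h1 m).smul hs, (h2 m).smul_right, ?_, fun k => ?_⟩
  · simpa only [zero_smul, add_zero, sub_smul, one_smul] using hm1
  · refine le_of_eq_of_le (integral_congr_ae (ae_of_all _ fun X => ?_)) (hm2 k)
    dsimp only
    rw [fderiv_fun_smul ((h1 m).differentiable (by simp) X) (hs.differentiable (by simp) X)]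
    congr 2
    simp only [ContinuousLinearMap.add_apply, ContinuousLinearMap.smul_apply,
      ContinuousLinearMap.smulRight_apply, sub_smul, one_smul]
    abel

theorem S.approx (a : S e) :
    ∃ h : ℕ → S e, (∀ m, Sm (h m)) ∧ Tendsto (fun m => hn (h m - a)) atTop (𝓝 0) := by
  have H : ∀ m : ℕ, ∃ h : V → ℝ, ContDiff ℝ ∞ h ∧
      HasCompactSupport h ∧ ∫ X, ‖h X - a.f X‖ ^ 2 ≤ 1 / ((m : ℝ) + 1) ∧
      ∀ k, ∫ X, ‖fderiv ℝ h X (e k) - a.g k X‖ ^ 2 ≤ 1 / ((m : ℝ) + 1) := by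
    intro m
    have he : 0 < 1 / ((m : ℝ) + 1) / 4 := by positivity
    obtain ⟨F, f1, f2, f3, f4, f5⟩ := apx_exists_moll a.mem a.gmem a.wd he
    obtain ⟨h, h1, h2, h3, h4⟩ := apx_exists_cut f1 f2 f3 he
    have h5 := mem_Sob.1 (of_C1c (e := e) (h1.of_le (by simp)) h2)
    exact ⟨h, h1, h2, apx_sq_tri h5.1 f2 a.mem h3 f4,
      fun k => apx_sq_tri (h5.2.1 k) (f3 k) (a.gmem k) (h4 k) (f5 k)⟩
  choose h h1 h2 h3 h4 using H
  refine ⟨fun m => S.of (of_C1c ((h1 m).of_le (by simp)) (h2 m)),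
    fun m => ⟨h1 m, h2 m, fun _ => rfl⟩, ?_⟩
  have t1 := squeeze_zero (fun m => integral_nonneg fun X => sq_nonneg _) h3
    tendsto_one_div_add_atTop_nhds_zero_nat
  have t2 := (tendsto_finsetSum Finset.univ fun k _ =>
    squeeze_zero (fun m => integral_nonneg fun X => sq_nonneg _) (fun m => h4 m k)
      tendsto_one_div_add_atTop_nhds_zero_nat).const_mul (1 / 2 : ℝ)
  have t3 := t1.add t2
  rw [Finset.sum_const_zero, mul_zero, add_zero] at t3
  refine t3.congr fun m => ?_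
  simp only [hn, ip, kin, S.sub_f, S.sub_g, S.of_f, S.of_g, Real.norm_eq_abs, sq_abs, ← pow_two]


end Vale.Agent.P363
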