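import Vale.Agent.P363.A.Form

/-!
# P363 A/ApproxB: mollification of real `H¹` functions (port of `P349/HMoll.lean`)
-/

open MeasureTheory Filter Topology Set Metric
open scoped ContDiff

set_option linter.unusedSectionVars false

noncomputable section

namespace Vale.Agent.P363

variable {V : Type} [NormedAddCommGroup V] [NormedSpace ℝ V] [FiniteDimensional ℝ V]
  [MeasureSpace V] [BorelSpace V] [(volume : Measure V).IsAddHaarMeasure]
  {ι : Type} [Fintype ι] {e : ι → V}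

theorem apx_scheffe2 {F : ℕ → V → ℝ} {f : V → ℝ} (hF : ∀ m, MemLp (F m) 2 volume) (hf : MemLp f 2 volume)
    (hle : ∀ m, ∫ X, ‖F m X‖ ^ 2 ≤ ∫ X, ‖f X‖ ^ 2)
    (hae : ∀ᵐ X, Tendsto (fun m => F m X) atTop (𝓝 (f X))) :
    Tendsto (fun m => ∫ X, ‖F m X - f X‖ ^ 2) atTop (𝓝 0) := by
  have i0 : Integrable fun X => ‖f X‖ ^ 2 := hf.norm.integrable_sq
  have i1 : ∀ m, Integrable fun X => ‖F m X‖ ^ 2 := fun m => (hF m).norm.integrable_sq
  have i2 : ∀ m, Integrable fun X => ‖F m X - f X‖ ^ 2 := fun m =>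
    ((hF m).sub hf).norm.integrable_sq
  have i3 : ∀ m, Integrable fun X => 2 * ‖F m X‖ ^ 2 + 2 * ‖f X‖ ^ 2 := fun m =>
    ((i1 m).const_mul 2).add (i0.const_mul 2)
  have i4 : ∀ m, Integrable fun X => 2 * ‖F m X‖ ^ 2 + 2 * ‖f X‖ ^ 2 - ‖F m X - f X‖ ^ 2 :=
    fun m => (i3 m).sub (i2 m)
  have i5 : ∀ m, Integrable fun X =>
      min (2 * ‖F m X‖ ^ 2 + 2 * ‖f X‖ ^ 2 - ‖F m X - f X‖ ^ 2) (4 * ‖f X‖ ^ 2) :=
    fun m => (i4 m).inf (i0.const_mul 4)
  have h1 : Tendsto (fun m => ∫ X,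
      min (2 * ‖F m X‖ ^ 2 + 2 * ‖f X‖ ^ 2 - ‖F m X - f X‖ ^ 2) (4 * ‖f X‖ ^ 2)) atTop
      (𝓝 (∫ X, 4 * ‖f X‖ ^ 2)) := by
    refine tendsto_integral_of_dominated_convergence (fun X => 4 * ‖f X‖ ^ 2)
      (fun m => (i5 m).aestronglyMeasurable) (i0.const_mul 4)
      (fun m => Eventually.of_forall fun X => ?_) ?_
    · have h2 : ‖F m X - f X‖ ^ 2 ≤ (‖F m X‖ + ‖f X‖) ^ 2 :=
        pow_le_pow_left₀ (norm_nonneg _) (norm_sub_le _ _) 2
      rw [Real.norm_of_nonneg (le_min (by nlinarith [sq_nonneg (‖F m X‖ - ‖f X‖)]) (by positivity))]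
      exact min_le_right _ _
    · filter_upwards [hae] with X hX
      have h2 := ((((hX.norm.pow 2).const_mul 2).add_const (2 * ‖f X‖ ^ 2)).sub
        ((hX.sub_const (f X)).norm.pow 2)).min (tendsto_const_nhds (x := 4 * ‖f X‖ ^ 2))
      have h3 : 2 * ‖f X‖ ^ 2 + 2 * ‖f X‖ ^ 2 - ‖f X - f X‖ ^ 2 = 4 * ‖f X‖ ^ 2 := by
        rw [sub_self, norm_zero]
        ring
      rwa [h3, min_self] at h2
  have h2 := h1.const_sub (∫ X, 4 * ‖f X‖ ^ 2)
  rw [sub_self] at h2
  refine squeeze_zero (fun m => integral_nonneg fun X => by positivity) (fun m => ?_) h2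
  have h3 := integral_mono (i5 m) (i4 m) fun X => min_le_left _ _
  rw [integral_sub (i3 m) (i2 m), integral_add ((i1 m).const_mul 2) (i0.const_mul 2),
    integral_const_mul, integral_const_mul] at h3
  rw [integral_const_mul]
  linarith [hle m]

open scoped Convolution

/-- the bump functions used for the mollification -/
def apx_bump (V : Type) [NormedAddCommGroup V] (m : ℕ) : ContDiffBump (0 : V) :=
  ⟨1 / ((m : ℝ) + 1), 2 * (1 / ((m : ℝ) + 1)), by positivity, by
    have : (0 : ℝ) < 1 / ((m : ℝ) + 1) := by positivity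
    linarith⟩

theorem apx_conv_ae_H {f : V → ℝ} (hf : MemLp f 2 volume) : ∀ᵐ X, Tendsto (fun m =>
    ((apx_bump V m).normed volume ⋆[ContinuousLinearMap.lsmul ℝ ℝ, volume] f) X) atTop (𝓝 (f X)) := by
  refine ContDiffBump.ae_convolution_tendsto_right_of_locallyIntegrable (K := 2) ?_
    (Eventually.of_forall fun m => le_rfl) (hf.locallyIntegrable one_le_two)
  simpa [apx_bump] using tendsto_one_div_add_atTop_nhds_zero_nat.const_mul (2 : ℝ)

theorem apx_conv_sq_le {f : V → ℝ} (hf : MemLp f 2 volume) (φ : ContDiffBump (0 : V))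
    (X : V) : ‖(φ.normed volume ⋆[ContinuousLinearMap.lsmul ℝ ℝ, volume] f) X‖ ^ 2 ≤
      (φ.normed volume ⋆[ContinuousLinearMap.lsmul ℝ ℝ, volume] fun Y => ‖f Y‖ ^ 2) X := by
  have i1 : Integrable fun t => φ.normed volume t * ‖f (X - t)‖ :=
    (φ.hasCompactSupport_normed.convolutionExists_left (ContinuousLinearMap.lsmul ℝ ℝ)
      φ.continuous_normed (hf.norm.locallyIntegrable one_le_two) X).integrable
  have i2 : Integrable fun t => φ.normed volume t * ‖f (X - t)‖ ^ 2 :=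
    (φ.hasCompactSupport_normed.convolutionExists_left (ContinuousLinearMap.lsmul ℝ ℝ)
      φ.continuous_normed hf.norm.integrable_sq.locallyIntegrable X).integrable
  have h1 : ‖(φ.normed volume ⋆[ContinuousLinearMap.lsmul ℝ ℝ, volume] f) X‖ ≤
      ∫ t, φ.normed volume t * ‖f (X - t)‖ := by
    simp only [convolution_lsmul]
    refine (norm_integral_le_integral_norm _).trans_eq (integral_congr_ae
      (Eventually.of_forall fun t => ?_))
    simp only [norm_smul, Real.norm_of_nonneg (φ.nonneg_normed t)]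
  refine (pow_le_pow_left₀ (norm_nonneg _) h1 2).trans ?_
  obtain ⟨A, hA⟩ : ∃ A, A = ∫ t, φ.normed volume t * ‖f (X - t)‖ := ⟨_, rfl⟩
  have i3 : Integrable fun t => A ^ 2 * φ.normed volume t := φ.integrable_normed.const_mul _
  have h2 := integral_mono ((i1.const_mul (2 * A)).sub i3) i2 fun t => by
    have := mul_nonneg (φ.nonneg_normed (μ := volume) t) (sq_nonneg (‖f (X - t)‖ - A))
    simp only [Pi.sub_apply]
    nlinarith
  simp only [Pi.sub_apply] at h2
  rw [integral_sub (i1.const_mul (2 * A)) i3, integral_const_mul, integral_const_mul,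
    φ.integral_normed, ← hA] at h2
  simp only [convolution_lsmul, smul_eq_mul]
  rw [← hA]
  linarith

theorem apx_conv_L2 {f : V → ℝ} (hf : MemLp f 2 volume) (φ : ContDiffBump (0 : V)) :
    MemLp (φ.normed volume ⋆[ContinuousLinearMap.lsmul ℝ ℝ, volume] f) 2 volume ∧
      ∫ X, ‖(φ.normed volume ⋆[ContinuousLinearMap.lsmul ℝ ℝ, volume] f) X‖ ^ 2 ≤
        ∫ X, ‖f X‖ ^ 2 := by
  have i0 : Integrable fun X => ‖f X‖ ^ 2 := hf.norm.integrable_sq
  have i1 := φ.integrable_normed.integrable_convolution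
    (ContinuousLinearMap.lsmul ℝ ℝ : ℝ →L[ℝ] ℝ →L[ℝ] ℝ) i0
  have hc : Continuous (φ.normed volume ⋆[ContinuousLinearMap.lsmul ℝ ℝ, volume] f) :=
    φ.hasCompactSupport_normed.continuous_convolution_left _ φ.continuous_normed
      (hf.locallyIntegrable one_le_two)
  have i2 : Integrable fun X =>
      ‖(φ.normed volume ⋆[ContinuousLinearMap.lsmul ℝ ℝ, volume] f) X‖ ^ 2 :=
    i1.mono' (hc.norm.pow 2).aestronglyMeasurable (Eventually.of_forall fun X => by
      rw [Real.norm_of_nonneg (by positivity)]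
      exact apx_conv_sq_le hf φ X)
  refine ⟨(memLp_two_iff_integrable_sq_norm hc.aestronglyMeasurable).2 i2, ?_⟩
  have h1 := integral_convolution (ContinuousLinearMap.lsmul ℝ ℝ : ℝ →L[ℝ] ℝ →L[ℝ] ℝ)
    (φ.integrable_normed (μ := volume)) i0
  rw [φ.integral_normed, ContinuousLinearMap.lsmul_apply, one_smul] at h1
  rw [← h1]
  exact integral_mono i2 i1 fun X => apx_conv_sq_le hf φ X

theorem apx_conv_tendsto_H {f : V → ℝ} (hf : MemLp f 2 volume) : Tendsto (fun m => ∫ X,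
    ‖((apx_bump V m).normed volume ⋆[ContinuousLinearMap.lsmul ℝ ℝ, volume] f) X - f X‖ ^ 2)
      atTop (𝓝 0) :=
  apx_scheffe2 (fun _ => (apx_conv_L2 hf _).1) hf (fun _ => (apx_conv_L2 hf _).2) (apx_conv_ae_H hf)

theorem apx_conv_fderiv_H {f : V → ℝ} {g : ι → V → ℝ} (hf : MemLp f 2 volume)
    (hw : ∀ k, WD (e k) f (g k)) (φ : ContDiffBump (0 : V)) (k : ι) (X : V) :
    fderiv ℝ (φ.normed volume ⋆[ContinuousLinearMap.lsmul ℝ ℝ, volume] f) X (e k) =
      (φ.normed volume ⋆[ContinuousLinearMap.lsmul ℝ ℝ, volume] g k) X := by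
  set ρ := φ.normed volume with hρ
  have hl := hf.locallyIntegrable one_le_two
  have hc : HasCompactSupport ρ := φ.hasCompactSupport_normed
  have h1 : ContDiff ℝ 1 ρ := φ.contDiff_normed (n := 1)
  have h2 := hc.hasFDerivAt_convolution_right
    (ContinuousLinearMap.lsmul ℝ ℝ : ℝ →L[ℝ] ℝ →L[ℝ] ℝ).flip hl h1 X
  rw [convolution_flip] at h2
  rw [h2.fderiv, convolution_precompR_apply _ hl (hc.fderiv ℝ)
    (h1.continuous_fderiv one_ne_zero), convolution_def, convolution_lsmul_swap]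
  have h3 := hw k (fun Y => ρ (X - Y))
    ((φ.contDiff_normed (n := ⊤)).comp (contDiff_const.sub contDiff_id))
    (hc.comp_homeomorph (Homeomorph.subLeft X))
  have h4 : ∀ Y, fderiv ℝ (fun Y => ρ (X - Y)) Y (e k) = -fderiv ℝ ρ (X - Y) (e k) := by
    intro Y
    have h5 := ((h1.differentiable one_ne_zero (X - Y)).hasFDerivAt.comp Y
      ((hasFDerivAt_id Y).const_sub X)).fderiv
    have h6 := congrArg (fun L : V →L[ℝ] ℝ => L (e k)) h5
    simpa [Function.comp_def] using h6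
  simp only [h4, neg_mul, integral_neg, neg_inj] at h3
  simp only [ContinuousLinearMap.flip_apply, ContinuousLinearMap.lsmul_apply, smul_eq_mul]
  exact h3

theorem apx_exists_moll {f : V → ℝ} {g : ι → V → ℝ} (hf : MemLp f 2 volume)
    (hg : ∀ k, MemLp (g k) 2 volume) (hw : ∀ k, WD (e k) f (g k)) {ε : ℝ} (he : 0 < ε) :
    ∃ F : V → ℝ, ContDiff ℝ (⊤ : ℕ∞) F ∧ MemLp F 2 volume ∧
      (∀ k, MemLp (fun X => fderiv ℝ F X (e k)) 2 volume) ∧ ∫ X, ‖F X - f X‖ ^ 2 ≤ ε ∧
      ∀ k, ∫ X, ‖fderiv ℝ F X (e k) - g k X‖ ^ 2 ≤ ε := by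
  have h1 := (apx_conv_tendsto_H hf).eventually (ge_mem_nhds he)
  have h2 := eventually_all.2 fun k =>
    (apx_conv_tendsto_H (hg k)).eventually (ge_mem_nhds he)
  obtain ⟨m, h3, h4⟩ := (h1.and h2).exists
  refine ⟨(apx_bump V m).normed volume ⋆[ContinuousLinearMap.lsmul ℝ ℝ, volume] f,
    (apx_bump V m).hasCompactSupport_normed.contDiff_convolution_left (n := ⊤) _
      (apx_bump V m).contDiff_normed (hf.locallyIntegrable one_le_two), (apx_conv_L2 hf _).1,
    fun k => ?_, h3, fun k => ?_⟩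
  · simp only [apx_conv_fderiv_H hf hw]
    exact (apx_conv_L2 (hg k) _).1
  · simp only [apx_conv_fderiv_H hf hw]
    exact h4 k

end Vale.Agent.P363
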