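import Vale.Agent.P363.Basic

/-!
# P363 A/Bil  (TASK)

Pure algebra of symmetric bilinear functions.  `cs_on`: discriminant of `t ↦ B (a + t b) (a + t b) ≥ 0` (`discrim_le_zero`).
-/

open MeasureTheory Filter Topology Set
open scoped ContDiff

set_option linter.unusedSectionVars false

noncomputable section

namespace Vale.Agent.P363

variable {M : Type} [AddCommGroup M] [Module ℝ M] {B B' : M → M → ℝ}

theorem Bil.add_right (h : Bil B) (a b c : M) : B a (b + c) = B a b + B a c := by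
  rw [h.symm, h.add, h.symm b, h.symm c]

theorem Bil.smul_right (h : Bil B) (t : ℝ) (a b : M) : B a (t • b) = t * B a b := by
  rw [h.symm, h.smul, h.symm b]

theorem Bil.zero_left (h : Bil B) (a : M) : B 0 a = 0 := by
  have := h.smul 0 0 a
  rwa [zero_smul, zero_mul] at this

theorem Bil.zero_right (h : Bil B) (a : M) : B a 0 = 0 := by
  rw [h.symm, h.zero_left]

theorem Bil.neg_left (h : Bil B) (a b : M) : B (-a) b = -B a b := by
  have := h.smul (-1) a b
  rwa [neg_one_smul, neg_one_mul] at this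

theorem Bil.neg_right (h : Bil B) (a b : M) : B a (-b) = -B a b := by
  rw [h.symm, h.neg_left, h.symm b]

theorem Bil.sub_left (h : Bil B) (a b c : M) : B (a - b) c = B a c - B b c := by
  rw [sub_eq_add_neg, h.add, h.neg_left, sub_eq_add_neg]

theorem Bil.sub_right (h : Bil B) (a b c : M) : B a (b - c) = B a b - B a c := by
  rw [h.symm, h.sub_left, h.symm b, h.symm c]

theorem Bil.sum_left (h : Bil B) {κ : Type} (s : Finset κ) (a : κ → M) (b : M) :
    B (∑ j ∈ s, a j) b = ∑ j ∈ s, B (a j) b := by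
  classical
  induction s using Finset.induction_on with
  | empty => simp [h.zero_left]
  | insert j s hj ih => rw [Finset.sum_insert hj, Finset.sum_insert hj, h.add, ih]

theorem Bil.sum_right (h : Bil B) {κ : Type} (s : Finset κ) (a : M) (b : κ → M) :
    B a (∑ j ∈ s, b j) = ∑ j ∈ s, B a (b j) := by
  rw [h.symm, h.sum_left]
  exact Finset.sum_congr rfl fun j _ => h.symm _ _

theorem Bil.add_sq (h : Bil B) (a b : M) : B (a + b) (a + b) = B a a + 2 * B a b + B b b := by
  rw [h.add, h.add_right, h.add_right, h.symm b a]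
  ring

theorem Bil.sub_sq (h : Bil B) (a b : M) : B (a - b) (a - b) = B a a - 2 * B a b + B b b := by
  rw [h.sub_left, h.sub_right, h.sub_right, h.symm b a]
  ring

theorem Bil.comb_sq (h : Bil B) (s t : ℝ) (a b : M) :
    B (s • a + t • b) (s • a + t • b) = s ^ 2 * B a a + 2 * s * t * B a b + t ^ 2 * B b b := by
  rw [h.add_sq, h.smul, h.smul, h.smul, h.smul_right, h.smul_right, h.smul_right]
  ring

theorem Bil.smul_sq (h : Bil B) (s : ℝ) (a : M) : B (s • a) (s • a) = s ^ 2 * B a a := by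
  rw [h.smul, h.smul_right]
  ring

theorem Bil.comb (h : Bil B) (h' : Bil B') (s t : ℝ) : Bil fun a b => s * B a b + t * B' a b :=
  ⟨fun a b => by rw [h.symm a, h'.symm a], fun a b c => by rw [h.add, h'.add]; ring,
    fun r a b => by rw [h.smul, h'.smul]; ring⟩

theorem Bil.plus (h : Bil B) (h' : Bil B') : Bil fun a b => B a b + B' a b :=
  ⟨fun a b => by rw [h.symm a, h'.symm a], fun a b c => by rw [h.add, h'.add]; ring,
    fun r a b => by rw [h.smul, h'.smul]; ring⟩

theorem Bil.minus (h : Bil B) (h' : Bil B') (t : ℝ) : Bil fun a b => B a b - t * B' a b :=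
  ⟨fun a b => by rw [h.symm a, h'.symm a], fun a b c => by rw [h.add, h'.add]; ring,
    fun r a b => by rw [h.smul, h'.smul]; ring⟩

theorem Bil.rankOne (h : Bil B) (d : M) : Bil fun a b => B d a * B d b :=
  ⟨fun a b => mul_comm _ _, fun a b c => by rw [h.add_right]; ring,
    fun r a b => by rw [h.smul_right]; ring⟩

theorem Bil.cs_on (h : Bil B) (N : Submodule ℝ M) (h0 : ∀ a ∈ N, 0 ≤ B a a) {a b : M} (ha : a ∈ N)
    (hb : b ∈ N) : B a b ^ 2 ≤ B a a * B b b := by
  have key : ∀ t : ℝ, 0 ≤ B b b * (t * t) + 2 * B a b * t + B a a := fun t => by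
    have h1 := h0 _ (N.add_mem (N.smul_mem 1 ha) (N.smul_mem t hb))
    rw [h.comb_sq] at h1
    linarith
  have := discrim_le_zero key
  unfold discrim at this
  nlinarith

theorem Bil.cs (h : Bil B) (h0 : ∀ a, 0 ≤ B a a) (a b : M) : B a b ^ 2 ≤ B a a * B b b :=
  h.cs_on ⊤ (fun a _ => h0 a) trivial trivial

theorem Bil.abs_le (h : Bil B) (h0 : ∀ a, 0 ≤ B a a) (a b : M) :
    |B a b| ≤ √(B a a) * √(B b b) := by
  rw [← Real.sqrt_mul (h0 a)]
  exact Real.abs_le_sqrt (h.cs h0 a b)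

theorem Bil.null_on (h : Bil B) (N : Submodule ℝ M) (h0 : ∀ a ∈ N, 0 ≤ B a a) {a b : M} (ha : a ∈ N)
    (hz : B a a ≤ 0) (hb : b ∈ N) : B a b = 0 := by
  have h1 := h.cs_on N h0 ha hb
  rw [le_antisymm hz (h0 a ha), zero_mul] at h1
  exact pow_eq_zero_iff two_ne_zero |>.1 (le_antisymm h1 (sq_nonneg _))

theorem Bil.null (h : Bil B) (h0 : ∀ a, 0 ≤ B a a) {a : M} (hz : B a a ≤ 0) (b : M) : B a b = 0 :=
  h.null_on ⊤ (fun a _ => h0 a) trivial hz trivial

theorem Bil.two_on (h : Bil B) (N : Submodule ℝ M) (h0 : ∀ a ∈ N, 0 ≤ B a a) {a b : M} (ha : a ∈ N)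
    (hb : b ∈ N) : B (a - b) (a - b) ≤ 2 * B a a + 2 * B b b := by
  have h1 := h0 _ (N.add_mem ha hb)
  rw [h.add_sq] at h1
  rw [h.sub_sq]
  linarith

theorem Bil.two_sub (h : Bil B) (h0 : ∀ a, 0 ≤ B a a) (a b : M) :
    B (a - b) (a - b) ≤ 2 * B a a + 2 * B b b :=
  h.two_on ⊤ (fun a _ => h0 a) trivial trivial

theorem Bil.two_add (h : Bil B) (h0 : ∀ a, 0 ≤ B a a) (a b : M) :
    B (a + b) (a + b) ≤ 2 * B a a + 2 * B b b := by
  have h1 := h0 (a - b)
  rw [h.sub_sq] at h1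
  rw [h.add_sq]
  linarith

theorem Bil.sqrt_add_le (h : Bil B) (h0 : ∀ a, 0 ≤ B a a) (a b : M) :
    √(B (a + b) (a + b)) ≤ √(B a a) + √(B b b) := by
  refine Real.sqrt_le_iff.2 ⟨by positivity, ?_⟩
  have h1 := (le_abs_self _).trans (h.abs_le h0 a b)
  rw [h.add_sq, _root_.add_sq, Real.sq_sqrt (h0 a), Real.sq_sqrt (h0 b)]
  linarith

/-- A bound on the diagonal gives a bound off the diagonal. -/
theorem Bil.polar (h : Bil B) (h' : Bil B') (h0 : ∀ a, |B a a| ≤ B' a a) (a b : M) :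
    |B a b| ≤ √(B' a a) * √(B' b b) := by
  have p0 : ∀ a, 0 ≤ B' a a := fun a => (abs_nonneg _).trans (h0 a)
  have key : ∀ t : ℝ, 0 ≤ B' b b * (t * t) + 2 * B a b * t + B' a a := fun t => by
    have h1 := (_root_.abs_le.1 (h0 ((1 : ℝ) • a + t • b))).1
    have h2 := (_root_.abs_le.1 (h0 ((1 : ℝ) • a + (-t) • b))).2
    rw [h.comb_sq, h'.comb_sq] at h1 h2
    linarith
  have := discrim_le_zero key
  unfold discrim at this
  rw [← Real.sqrt_mul (p0 a)]
  exact Real.abs_le_sqrt (by nlinarith)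

/-- Pythagoras for a finite orthonormal family. -/
theorem Bil.bessel (h : Bil B) {κ : Type} [Fintype κ] [DecidableEq κ] {φ : κ → M}
    (ho : ∀ i j, B (φ i) (φ j) = if i = j then 1 else 0) (a : M) :
    (∀ i, B (φ i) (a - ∑ j, B (φ j) a • φ j) = 0) ∧
      B (a - ∑ j, B (φ j) a • φ j) (a - ∑ j, B (φ j) a • φ j) = B a a - ∑ j, B (φ j) a ^ 2 := by
  have h1 : ∀ i, B (φ i) (a - ∑ j, B (φ j) a • φ j) = 0 := fun i => by
    rw [h.sub_right, h.sum_right]
    simp [h.smul_right, ho]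
  refine ⟨h1, ?_⟩
  rw [h.sub_left, h.sum_left, h.sub_right, h.sum_right]
  simp only [h.smul, h1, mul_zero, Finset.sum_const_zero, sub_zero, h.smul_right, h.symm a, sq]


end Vale.Agent.P363
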