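import Vale.Agent.P363.A.Limit

/-!
# P363 A/Chain  (TASK)

`chain`: with `h j m → a j` from `approx_ae`, `G ∘ h m` is `C¹` with compact support (`of_C1c`); `|G z - G z'| ≤ C ‖z - z'‖`; for the gradient split
`DG (h m) (∂ h m) - DG a (∂ a) = DG (h m) (∂ h m - ∂ a) + (DG (h m) - DG a) (∂ a)` (second term: dominated convergence); `mem_of_limit`.
`mul1`: same scheme with `θ • h m`.  `mul_mem`: for a test function `φ` apply `ibp` to `φ a` (`mul1`) and `b`.
-/

open MeasureTheory Filter Topology Set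
open scoped ContDiff

set_option linter.unusedSectionVars false

noncomputable section

namespace Vale.Agent.P363

variable {V : Type} [NormedAddCommGroup V] [NormedSpace ℝ V] [FiniteDimensional ℝ V]
  [MeasureSpace V] [BorelSpace V] [(volume : Measure V).IsAddHaarMeasure]
  {ι : Type} [Fintype ι] {e : ι → V}

theorem ch_tend {u v : ℕ → V → ℝ} (hv : Tendsto (fun n => ∫ x, v n x) atTop (𝓝 0))
    (hint : ∀ n, Integrable (v n)) (hle : ∀ n x, u n x ^ 2 ≤ v n x) :
    Tendsto (fun n => ∫ x, u n x ^ 2) atTop (𝓝 0) :=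
  squeeze_zero (fun _ => integral_nonneg fun _ => sq_nonneg _)
    (fun n => integral_mono_of_nonneg (Eventually.of_forall fun _ => sq_nonneg _) (hint n)
      (Eventually.of_forall (hle n))) hv

theorem ch_f {h : ℕ → S e} {a : S e} (hl : Tendsto (fun m => hn (h m - a)) atTop (𝓝 0)) :
    Tendsto (fun m => ∫ x, ((h m).f x - a.f x) ^ 2) atTop (𝓝 0) := by
  refine squeeze_zero (fun _ => integral_nonneg fun _ => sq_nonneg _) (fun m => ?_) hl
  have h1 := ip_le_hn (h m - a)
  rw [ip_self] at h1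
  simpa using h1

theorem ch_g {h : ℕ → S e} {a : S e} (hl : Tendsto (fun m => hn (h m - a)) atTop (𝓝 0)) (k : ι) :
    Tendsto (fun m => ∫ x, ((h m).g k x - a.g k x) ^ 2) atTop (𝓝 0) := by
  have hl2 := hl.const_mul 2
  rw [mul_zero] at hl2
  refine squeeze_zero (fun _ => integral_nonneg fun _ => sq_nonneg _) (fun m => ?_) hl2
  have h1 := kin_le_hn (h m - a)
  unfold kin at h1
  have h2 : ∫ x, (h m - a).g k x * (h m - a).g k x ≤
      ∑ k, ∫ x, (h m - a).g k x * (h m - a).g k x :=
    Finset.single_le_sum (f := fun k => ∫ x, (h m - a).g k x * (h m - a).g k x)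
      (fun _ _ => integral_nonneg fun _ => mul_self_nonneg _) (Finset.mem_univ k)
  have h3 : ∫ x, ((h m).g k x - a.g k x) ^ 2 = ∫ x, (h m - a).g k x * (h m - a).g k x := by
    simp only [S.sub_g, sq]
  rw [h3]
  linarith

theorem ch_isq {f g : V → ℝ} (hf : MemLp f 2 volume) (hg : MemLp g 2 volume) :
    Integrable fun x => (f x - g x) ^ 2 := (hf.sub hg).integrable_sq

theorem ch_norm_sq {m : ℕ} (z : Fin m → ℝ) : ‖z‖ ^ 2 ≤ ∑ j, z j ^ 2 := by
  have h0 : 0 ≤ ∑ j, z j ^ 2 := Finset.sum_nonneg fun _ _ => sq_nonneg _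
  have h1 : ‖z‖ ≤ √(∑ j, z j ^ 2) := by
    refine (pi_norm_le_iff_of_nonneg (Real.sqrt_nonneg _)).2 fun j => ?_
    rw [Real.norm_eq_abs]
    exact Real.abs_le_sqrt (Finset.single_le_sum (f := fun j => z j ^ 2)
      (fun _ _ => sq_nonneg _) (Finset.mem_univ j))
  calc ‖z‖ ^ 2 ≤ √(∑ j, z j ^ 2) ^ 2 := by gcongr
    _ = _ := Real.sq_sqrt h0

theorem ch_norm {m : ℕ} (z : Fin m → ℝ) : ‖z‖ ≤ ∑ j, |z j| := by
  refine (pi_norm_le_iff_of_nonneg (Finset.sum_nonneg fun _ _ => abs_nonneg _)).2 fun j => ?_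
  rw [Real.norm_eq_abs]
  exact Finset.single_le_sum (f := fun j => |z j|) (fun _ _ => abs_nonneg _) (Finset.mem_univ j)

theorem ch_sum_tend {m : ℕ} {u : Fin m → ℕ → V → ℝ} (hi : ∀ j n, Integrable (u j n))
    (h : ∀ j, Tendsto (fun n => ∫ x, u j n x) atTop (𝓝 0)) (c : ℝ) :
    Tendsto (fun n => ∫ x, c * ∑ j, u j n x) atTop (𝓝 0) := by
  have h1 := (tendsto_finsetSum (s := Finset.univ) fun j _ => h j).const_mul c
  simp only [Finset.sum_const_zero, mul_zero] at h1
  refine h1.congr fun n => ?_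
  rw [integral_const_mul, integral_finsetSum _ fun j _ => hi j n]

theorem ch_meas {m : ℕ} {f : Fin m → V → ℝ} (h : ∀ j, AEStronglyMeasurable (f j) volume) :
    AEStronglyMeasurable (fun x j => f j x) volume :=
  (aemeasurable_pi_lambda _ fun j => (h j).aemeasurable).aestronglyMeasurable

theorem ch_dom {m : ℕ} {f : Fin m → V → ℝ} (h : ∀ j, MemLp (f j) 2 volume) (C : ℝ) :
    MemLp (fun x => C * ∑ j, |f j x|) 2 volume :=
  (memLp_finsetSum _ fun j _ => (h j).abs).const_mul C

theorem chain {m : ℕ} (a : Fin m → S e) {G : (Fin m → ℝ) → ℝ} (hG : ContDiff ℝ 1 G) {C : ℝ}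
    (hC : ∀ z, ‖fderiv ℝ G z‖ ≤ C) (h0 : G 0 = 0) :
    ((fun x => G fun j => (a j).f x),
      fun k x => fderiv ℝ G (fun j => (a j).f x) fun j => (a j).g k x) ∈ Sob e := by
  choose h hs hl _ hae using fun j => S.approx_ae (a j)
  have hC0 : 0 ≤ C := (norm_nonneg _).trans (hC 0)
  have hd : Differentiable ℝ G := hG.differentiable one_ne_zero
  have hcd : Continuous (fderiv ℝ G) := hG.continuous_fderiv one_ne_zero
  have hlip : ∀ z z', |G z - G z'| ≤ C * ‖z - z'‖ := fun z z' =>
    Convex.norm_image_sub_le_of_norm_fderiv_le (s := univ) (fun x _ => hd x) (fun x _ => hC x)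
      convex_univ (mem_univ z') (mem_univ z)
  have hap : ∀ z w, |fderiv ℝ G z w| ≤ C * ‖w‖ := fun z w =>
    ((fderiv ℝ G z).le_opNorm w).trans (by gcongr; exact hC z)
  have hH : ∀ n, ContDiff ℝ 1 fun x j => (h j n).f x := fun n =>
    contDiff_pi.2 fun j => (hs j n).1.of_le (by simp)
  have hHc : ∀ n, HasCompactSupport fun x => G fun j => (h j n).f x := by
    intro n
    refine HasCompactSupport.intro (isCompact_iUnion fun j => (hs j n).2.1.isCompact) fun x hx => ?_
    have : (fun j => (h j n).f x) = 0 := by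
      funext j
      exact image_eq_zero_of_notMem_tsupport fun hj => hx (mem_iUnion.2 ⟨j, hj⟩)
    rw [this, h0]
  have hder : ∀ n k x, fderiv ℝ (fun x => G fun j => (h j n).f x) x (e k) =
      fderiv ℝ G (fun j => (h j n).f x) fun j => (h j n).g k x := by
    intro n k x
    have h1 : HasFDerivAt (fun x j => (h j n).f x)
        (ContinuousLinearMap.pi fun j => fderiv ℝ (h j n).f x) x :=
      hasFDerivAt_pi.2 fun j => ((hs j n).1.differentiable (by simp) x).hasFDerivAt
    have h2 := ((hd _).hasFDerivAt.comp x h1).fderiv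
    have h3 : (fun x => G fun j => (h j n).f x) = G ∘ fun x j => (h j n).f x := rfl
    rw [h3, h2]
    simp only [ContinuousLinearMap.comp_apply]
    congr 1
    funext j
    rw [(hs j n).2.2 k]
    rfl
  let u : ℕ → S e := fun n => S.of (of_C1c (e := e) (hG.comp (hH n)) (hHc n))
  have huf : ∀ n x, (u n).f x = G fun j => (h j n).f x := fun _ _ => rfl
  have hug : ∀ n k x, (u n).g k x = fderiv ℝ G (fun j => (h j n).f x) fun j => (h j n).g k x :=
    fun n k x => hder n k x
  have ma := ch_meas fun j => (a j).mem.1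
  have key : ∀ k, MemLp (fun x => fderiv ℝ G (fun j => (a j).f x) fun j => (a j).g k x) 2 volume ∧
      Tendsto (fun n => ∫ x, ((fderiv ℝ G (fun j => (h j n).f x) fun j => (a j).g k x) -
        fderiv ℝ G (fun j => (a j).f x) fun j => (a j).g k x) ^ 2) atTop (𝓝 0) := by
    intro k
    have mg := ch_meas fun j => ((a j).gmem k).1
    refine tendsto_sq_of_dom (b := fun x => C * ∑ j, |(a j).g k x|) (fun n => ?_)
      (ch_dom (fun j => (a j).gmem k) C) (fun n => Eventually.of_forall fun x => ?_) ?_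
    · have hc2 : Continuous fun p : (Fin m → ℝ) × (Fin m → ℝ) => fderiv ℝ G p.1 p.2 :=
        (hcd.comp continuous_fst).clm_apply continuous_snd
      exact hc2.comp_aestronglyMeasurable ((ch_meas fun j => (h j n).mem.1).prodMk mg)
    · exact (hap _ _).trans (by gcongr; exact ch_norm _)
    · filter_upwards [ae_all_iff.2 hae] with x hx
      have h1 : Tendsto (fun n j => (h j n).f x) atTop (𝓝 fun j => (a j).f x) :=
        tendsto_pi_nhds.2 fun j => (hx j).1
      have hc2 : Continuous fun p : Fin m → ℝ => fderiv ℝ G p fun j => (a j).g k x :=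
        hcd.clm_apply continuous_const
      exact (hc2.tendsto _).comp h1
  refine mem_of_limit (h := u) ?_ (fun k => (key k).1) ?_ fun k => ?_
  · refine (ch_dom (fun j => (a j).mem) C).mono'
      (hG.continuous.comp_aestronglyMeasurable ma) (Eventually.of_forall fun x => ?_)
    have h1 := hlip (fun j => (a j).f x) 0
    rw [h0, sub_zero, sub_zero] at h1
    rw [Real.norm_eq_abs]
    exact h1.trans (by gcongr; exact ch_norm _)
  · refine ch_tend (v := fun n x => C ^ 2 * ∑ j, ((h j n).f x - (a j).f x) ^ 2)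
      (ch_sum_tend (fun j n => ch_isq (h j n).mem (a j).mem) (fun j => ch_f (hl j)) _)
      (fun n => (integrable_finsetSum _ fun j _ => ch_isq (h j n).mem (a j).mem).const_mul _)
      fun n x => ?_
    rw [huf]
    have h1 := hlip (fun j => (h j n).f x) fun j => (a j).f x
    have h2 := ch_norm_sq ((fun j => (h j n).f x) - fun j => (a j).f x)
    calc _ = |(G fun j => (h j n).f x) - G fun j => (a j).f x| ^ 2 := (sq_abs _).symm
      _ ≤ (C * ‖(fun j => (h j n).f x) - fun j => (a j).f x‖) ^ 2 := by gcongr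
      _ ≤ _ := by
        rw [mul_pow]
        gcongr
        exact h2
  · have t1 := ch_sum_tend (fun j n => ch_isq ((h j n).gmem k) ((a j).gmem k))
      (fun j => ch_g (hl j) k) (2 * C ^ 2)
    have t2 := (key k).2.const_mul 2
    have t3 := t1.add t2
    simp only [mul_zero, add_zero] at t3
    have i1 : ∀ n, Integrable fun x => 2 * C ^ 2 * ∑ j, ((h j n).g k x - (a j).g k x) ^ 2 :=
      fun n => (integrable_finsetSum _ fun j _ => ch_isq ((h j n).gmem k) ((a j).gmem k)).const_mul _
    have i2 : ∀ n, Integrable fun x => 2 * ((fderiv ℝ G (fun j => (h j n).f x) fun j => (a j).g k x) -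
        fderiv ℝ G (fun j => (a j).f x) fun j => (a j).g k x) ^ 2 := by
      intro n
      refine (ch_isq ?_ (key k).1).const_mul 2
      have hc2 : Continuous fun p : (Fin m → ℝ) × (Fin m → ℝ) => fderiv ℝ G p.1 p.2 :=
        (hcd.comp continuous_fst).clm_apply continuous_snd
      refine (ch_dom (fun j => (a j).gmem k) C).mono'
        (hc2.comp_aestronglyMeasurable ((ch_meas fun j => (h j n).mem.1).prodMk
          (ch_meas fun j => ((a j).gmem k).1))) (Eventually.of_forall fun x => ?_)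
      rw [Real.norm_eq_abs]
      exact (hap _ _).trans (by gcongr; exact ch_norm _)
    refine ch_tend (v := fun n x => 2 * C ^ 2 * ∑ j, ((h j n).g k x - (a j).g k x) ^ 2 +
      2 * ((fderiv ℝ G (fun j => (h j n).f x) fun j => (a j).g k x) -
        fderiv ℝ G (fun j => (a j).f x) fun j => (a j).g k x) ^ 2) (t3.congr fun n => ?_)
      (fun n => (i1 n).add (i2 n)) fun n x => ?_
    · rw [integral_add (i1 n) (i2 n), integral_const_mul 2]
    · rw [hug]
      have h1 := hap (fun j => (h j n).f x) ((fun j => (h j n).g k x) - fun j => (a j).g k x)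
      have h2 := ch_norm_sq ((fun j => (h j n).g k x) - fun j => (a j).g k x)
      rw [map_sub] at h1
      simp only [Pi.sub_apply] at h2
      have h3 := pow_le_pow_left₀ (abs_nonneg _) h1 2
      rw [sq_abs, mul_pow] at h3
      have h4 := mul_le_mul_of_nonneg_left h2 (sq_nonneg C)
      generalize (fderiv ℝ G (fun j => (h j n).f x) fun j => (h j n).g k x) = p at h3 ⊢
      generalize (fderiv ℝ G (fun j => (h j n).f x) fun j => (a j).g k x) = q at h3 ⊢
      generalize (fderiv ℝ G (fun j => (a j).f x) fun j => (a j).g k x) = r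
      nlinarith [sq_nonneg (p - q - (q - r))]

theorem chain1 (a : S e) {G G' : ℝ → ℝ} (hG : ∀ t, HasDerivAt G (G' t) t) (hc : Continuous G')
    {C : ℝ} (hC : ∀ t, |G' t| ≤ C) (h0 : G 0 = 0) :
    ((fun x => G (a.f x)), fun k x => G' (a.f x) * a.g k x) ∈ Sob e := by
  have hG1 : ContDiff ℝ 1 G := by
    refine contDiff_one_iff_deriv.2 ⟨fun t => (hG t).differentiableAt, ?_⟩
    have : deriv G = G' := funext fun t => (hG t).deriv
    rwa [this]
  have hd : ∀ z w : Fin 1 → ℝ, fderiv ℝ (fun z : Fin 1 → ℝ => G (z 0)) z w = G' (z 0) * w 0 := by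
    intro z w
    have h1 := ((hG (z 0)).comp_hasFDerivAt z (hasFDerivAt_apply (𝕜 := ℝ) (0 : Fin 1) z)).fderiv
    have h3 : (fun z : Fin 1 → ℝ => G (z 0)) = G ∘ fun z : Fin 1 → ℝ => z 0 := rfl
    rw [h3, h1]
    simp
  have hC0 : 0 ≤ C := (abs_nonneg _).trans (hC 0)
  have h := chain (fun _ : Fin 1 => a) (G := fun z => G (z 0)) (C := C)
    (hG1.comp (contDiff_apply ℝ ℝ 0)) (fun z => ?_) h0
  · simp only [hd] at h
    exact h
  · refine ContinuousLinearMap.opNorm_le_bound _ hC0 fun w => ?_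
    rw [hd, norm_mul]
    exact mul_le_mul (hC _) (norm_le_pi_norm w 0) (norm_nonneg _) hC0

theorem Mul1.mul {θ θ' : V → ℝ} (h : Mul1 θ) (h' : Mul1 θ') : Mul1 fun x => θ x * θ' x := by
  obtain ⟨h1, C, hC⟩ := h
  obtain ⟨h2, D, hD⟩ := h'
  have hC0 : 0 ≤ C := (abs_nonneg _).trans (hC 0).1
  have hD0 : 0 ≤ D := (abs_nonneg _).trans (hD 0).1
  refine ⟨h1.mul h2, 2 * (C * D), fun x => ⟨?_, ?_⟩⟩
  · rw [abs_mul]
    have := mul_le_mul (hC x).1 (hD x).1 (abs_nonneg _) hC0
    nlinarith [mul_nonneg hC0 hD0]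
  · rw [fderiv_fun_mul (h1.differentiable one_ne_zero x) (h2.differentiable one_ne_zero x)]
    refine (norm_add_le _ _).trans ?_
    rw [norm_smul, norm_smul, Real.norm_eq_abs, Real.norm_eq_abs]
    have a1 := mul_le_mul (hC x).1 (hD x).2 (norm_nonneg _) hC0
    have a2 := mul_le_mul (hD x).1 (hC x).2 (norm_nonneg _) hD0
    linarith

theorem mul1_of_compact {θ : V → ℝ} (h : ContDiff ℝ 1 θ) (hc : HasCompactSupport θ) : Mul1 θ := by
  obtain ⟨C, hC⟩ := h.continuous.bounded_above_of_compact_support hc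
  obtain ⟨D, hD⟩ := (h.continuous_fderiv one_ne_zero).bounded_above_of_compact_support (hc.fderiv ℝ)
  exact ⟨h, max C D, fun x => ⟨(hC x).trans (le_max_left _ _), (hD x).trans (le_max_right _ _)⟩⟩

theorem ch_bmul {θ f : V → ℝ} (hθ : AEStronglyMeasurable θ volume) {C : ℝ} (hC : ∀ᵐ x, |θ x| ≤ C)
    (hf : MemLp f 2 volume) : MemLp (fun x => θ x * f x) 2 volume := by
  refine hf.of_le_mul (c := C) (hθ.mul hf.1) ?_
  filter_upwards [hC] with x hx
  rw [norm_mul]
  gcongr
  exact hx

theorem mul1 (a : S e) {θ : V → ℝ} (hθ : Mul1 θ) :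
    ((fun x => θ x * a.f x), fun k x => θ x * a.g k x + fderiv ℝ θ x (e k) * a.f x) ∈ Sob e := by
  obtain ⟨h1, C, hC⟩ := hθ
  obtain ⟨h, hs, hl⟩ := a.approx
  have hD : ∀ k x, |fderiv ℝ θ x (e k)| ≤ C * ‖e k‖ := fun k x =>
    ((fderiv ℝ θ x).le_opNorm _).trans (by gcongr; exact (hC x).2)
  have hcd : ∀ k, Continuous fun x => fderiv ℝ θ x (e k) := fun k =>
    (h1.continuous_fderiv one_ne_zero).clm_apply continuous_const
  let u : ℕ → S e := fun n => S.of (of_C1c (e := e) (f := fun x => θ x * (h n).f x)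
    (h1.mul ((hs n).1.of_le (by simp))) (hs n).2.1.mul_left)
  have huf : ∀ n x, (u n).f x = θ x * (h n).f x := fun _ _ => rfl
  have hug : ∀ n k x, (u n).g k x = θ x * (h n).g k x + fderiv ℝ θ x (e k) * (h n).f x := by
    intro n k x
    have : (u n).g k x = fderiv ℝ (fun x => θ x * (h n).f x) x (e k) := rfl
    rw [this, fderiv_fun_mul (h1.differentiable one_ne_zero x) ((hs n).1.differentiable (by simp) x),
      (hs n).2.2 k]
    simp [mul_comm]
  refine mem_of_limit (h := u)
    (ch_bmul h1.continuous.aestronglyMeasurable (Eventually.of_forall fun x => (hC x).1) a.mem)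
    (fun k => (ch_bmul h1.continuous.aestronglyMeasurable (Eventually.of_forall fun x => (hC x).1)
      (a.gmem k)).add (ch_bmul (hcd k).aestronglyMeasurable (Eventually.of_forall (hD k)) a.mem))
    ?_ fun k => ?_
  · have t1 := (ch_f hl).const_mul (C ^ 2)
    rw [mul_zero] at t1
    refine ch_tend (v := fun n x => C ^ 2 * ((h n).f x - a.f x) ^ 2)
      (t1.congr fun n => (integral_const_mul _ _).symm)
      (fun n => (ch_isq (h n).mem a.mem).const_mul _) fun n x => ?_
    rw [huf, ← mul_sub, mul_pow]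
    have h3 := pow_le_pow_left₀ (abs_nonneg _) (hC x).1 2
    rw [sq_abs] at h3
    gcongr
  · have t1 := ((ch_g hl k).const_mul (2 * C ^ 2)).add ((ch_f hl).const_mul (2 * (C * ‖e k‖) ^ 2))
    simp only [mul_zero, add_zero] at t1
    have i1 := fun n => (ch_isq ((h n).gmem k) (a.gmem k)).const_mul (2 * C ^ 2)
    have i2 := fun n => (ch_isq (h n).mem a.mem).const_mul (2 * (C * ‖e k‖) ^ 2)
    refine ch_tend (v := fun n x => 2 * C ^ 2 * ((h n).g k x - a.g k x) ^ 2 +
      2 * (C * ‖e k‖) ^ 2 * ((h n).f x - a.f x) ^ 2) (t1.congr fun n => ?_)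
      (fun n => (i1 n).add (i2 n)) fun n x => ?_
    · rw [integral_add (i1 n) (i2 n), integral_const_mul, integral_const_mul]
    · rw [hug]
      have h3 := pow_le_pow_left₀ (abs_nonneg _) (hC x).1 2
      have h4 := pow_le_pow_left₀ (abs_nonneg _) (hD k x) 2
      rw [sq_abs] at h3 h4
      have h5 := mul_le_mul_of_nonneg_right h3 (sq_nonneg ((h n).g k x - a.g k x))
      have h6 := mul_le_mul_of_nonneg_right h4 (sq_nonneg ((h n).f x - a.f x))
      nlinarith [sq_nonneg (θ x * ((h n).g k x - a.g k x) - fderiv ℝ θ x (e k) * ((h n).f x - a.f x))]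

theorem wd_mul (a b : S e) (k : ι) :
    WD (e k) (fun x => a.f x * b.f x) fun x => a.f x * b.g k x + a.g k x * b.f x := by
  intro φ h1 h2
  have hm := mul1_of_compact (h1.of_le (by simp)) h2
  have h3 := ibp (S.of (mul1 a hm)) b k
  simp only [S.of_f, S.of_g] at h3
  obtain ⟨_, C, hC⟩ := hm
  have hD : ∀ x, |fderiv ℝ φ x (e k)| ≤ C * ‖e k‖ := fun x =>
    ((fderiv ℝ φ x).le_opNorm _).trans (by gcongr; exact (hC x).2)
  have hcd : Continuous fun x => fderiv ℝ φ x (e k) :=
    (h1.continuous_fderiv (by simp)).clm_apply continuous_const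
  have i1 : Integrable fun x => φ x * a.g k x * b.f x :=
    (ch_bmul h1.continuous.aestronglyMeasurable (Eventually.of_forall fun x => (hC x).1)
      (a.gmem k)).integrable_mul b.mem
  have i2 : Integrable fun x => fderiv ℝ φ x (e k) * a.f x * b.f x :=
    (ch_bmul hcd.aestronglyMeasurable (Eventually.of_forall hD) a.mem).integrable_mul b.mem
  have i3 : Integrable fun x => φ x * a.f x * b.g k x :=
    (ch_bmul h1.continuous.aestronglyMeasurable (Eventually.of_forall fun x => (hC x).1)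
      a.mem).integrable_mul (b.gmem k)
  simp only [add_mul] at h3
  rw [integral_add i1 i2] at h3
  simp only [mul_add, ← mul_assoc]
  rw [integral_add i3 i1]
  linarith

theorem mul_mem (a b : S e) (h0 : MemLp (fun x => a.f x * b.f x) 2 volume)
    (h1 : ∀ k, MemLp (fun x => a.f x * b.g k x + a.g k x * b.f x) 2 volume) :
    ((fun x => a.f x * b.f x), fun k x => a.f x * b.g k x + a.g k x * b.f x) ∈ Sob e :=
  ⟨h0, h1, wd_mul a b⟩

theorem mul_bdd (a b : S e) {C : ℝ} (ha : ∀ᵐ x, |a.f x| ≤ C) (hb : ∀ᵐ x, |b.f x| ≤ C) :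
    ((fun x => a.f x * b.f x), fun k x => a.f x * b.g k x + a.g k x * b.f x) ∈ Sob e := by
  refine mul_mem a b (ch_bmul a.mem.1 ha b.mem) fun k => (ch_bmul a.mem.1 ha (b.gmem k)).add ?_
  simpa only [mul_comm] using ch_bmul b.mem.1 hb (a.gmem k)

end Vale.Agent.P363
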