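import Vale.Agent.P363.Basic

/-!
# P363 A/Cut  (TASK)

Radial cut-off functions and radial calculus in `ℝ³`.  `β t = Real.smoothTransition ((s - t) / (s - r))`; the first two derivatives of `smoothTransition` are bounded
(continuous, zero outside `[0, 1]`).  `integral_fun_norm_addHaar`, `integrable_one_add_norm`, `integrableOn_ball_of_norm_le_rpow`-type lemmas.
-/

open MeasureTheory Filter Topology Set
open scoped ContDiff

set_option linter.unusedSectionVars false

noncomputable section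

namespace Vale.Agent.P363

open scoped RealInnerProductSpace

theorem norm_e3 (k : Fin 3) : ‖e3 k‖ = 1 := by
  simp [e3]

theorem e3_apply (k l : Fin 3) : e3 k l = if l = k then 1 else 0 := by
  simp [e3, Pi.single_apply]

theorem sum_sq_coord (x : E3) : ∑ k, x k ^ 2 = ‖x‖ ^ 2 :=
  (EuclideanSpace.real_norm_sq_eq x).symm

theorem abs_coord_le (x : E3) (k : Fin 3) : |x k| ≤ ‖x‖ :=
  PiLp.norm_apply_le x k

theorem sum_smul_e3 (x : E3) : ∑ k, x k • e3 k = x := by
  ext l
  simp [e3_apply]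

theorem sum_sq_apply_e3 (l : E3 →L[ℝ] ℝ) : ∑ k, l (e3 k) ^ 2 = ‖l‖ ^ 2 := by
  obtain ⟨v, rfl⟩ := (InnerProductSpace.toDual ℝ E3).surjective l
  rw [LinearIsometryEquiv.norm_map, ← sum_sq_coord]
  refine Finset.sum_congr rfl fun k _ => ?_
  simp [e3, EuclideanSpace.inner_single_right]

theorem hasFDerivAt_coord (k : Fin 3) (x : E3) :
    HasFDerivAt (fun y : E3 => y k) (EuclideanSpace.proj k : E3 →L[ℝ] ℝ) x :=
  (EuclideanSpace.proj k : E3 →L[ℝ] ℝ).hasFDerivAt

theorem contDiff_coord (k : Fin 3) : ContDiff ℝ ∞ fun y : E3 => y k :=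
  (EuclideanSpace.proj k : E3 →L[ℝ] ℝ).contDiff

theorem hasFDerivAt_norm' {x : E3} (hx : x ≠ 0) :
    HasFDerivAt (fun y : E3 => ‖y‖) (‖x‖⁻¹ • innerSL ℝ x) x := by
  have h0 := norm_pos_iff.2 hx
  have h := (hasStrictFDerivAt_norm_sq x).hasFDerivAt.sqrt (pow_ne_zero 2 h0.ne')
  simp only [Real.sqrt_sq (norm_nonneg _)] at h
  refine h.congr_fderiv ?_
  ext v
  simp only [smul_apply, smul_eq_mul, nsmul_eq_mul, Nat.cast_ofNat]
  field_simp

/-- The derivative of a radial function. -/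
theorem fderiv_radial {β : ℝ → ℝ} {b : ℝ} {x : E3} (hx : x ≠ 0) (h : HasDerivAt β b ‖x‖) (k : Fin 3) :
    DifferentiableAt ℝ (fun y : E3 => β ‖y‖) x ∧
      fderiv ℝ (fun y : E3 => β ‖y‖) x (e3 k) = b * (x k / ‖x‖) := by
  have h1 : HasFDerivAt (fun y : E3 => β ‖y‖) (b • ‖x‖⁻¹ • innerSL ℝ x) x :=
    h.comp_hasFDerivAt x (hasFDerivAt_norm' hx)
  refine ⟨h1.differentiableAt, ?_⟩
  rw [h1.fderiv]
  simp [e3, EuclideanSpace.inner_single_right, div_eq_inv_mul]

theorem cut_zero {f : ℝ → ℝ} (hf : Continuous (deriv f)) {U : Set ℝ} (hU : IsOpen U) {c : ℝ}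
    (h : ∀ x ∈ U, f x = c) : ∀ x ∈ closure U, deriv f x = 0 := by
  refine Set.EqOn.closure (g := fun _ => 0) (fun x hx => ?_) hf continuous_const
  have h1 : f =ᶠ[𝓝 x] fun _ => c := by
    filter_upwards [hU.mem_nhds hx] with y hy using h y hy
  rw [h1.deriv_eq, deriv_const]

theorem cut_bd {f : ℝ → ℝ} (hf : Continuous f) (h : ∀ x, x ≤ 0 ∨ 1 ≤ x → f x = 0) :
    ∃ K : ℝ, 0 < K ∧ ∀ x, |f x| ≤ K := by
  obtain ⟨C, hC⟩ := (isCompact_Icc (a := (0 : ℝ)) (b := 1)).exists_bound_of_continuousOn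
    hf.continuousOn
  refine ⟨|C| + 1, by positivity, fun x => ?_⟩
  by_cases hx : x ≤ 0 ∨ 1 ≤ x
  · rw [h x hx, abs_zero]
    positivity
  · rw [not_or, not_le, not_le] at hx
    exact (hC x ⟨hx.1.le, hx.2.le⟩).trans (by linarith [le_abs_self C])

theorem cut_T : ∃ K : ℝ, 0 < K ∧ Differentiable ℝ Real.smoothTransition ∧
    Differentiable ℝ (deriv Real.smoothTransition) ∧ (∀ x, |deriv Real.smoothTransition x| ≤ K) ∧
    (∀ x, |deriv (deriv Real.smoothTransition) x| ≤ K) ∧ ∀ x, x ≤ 0 ∨ 1 ≤ x →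
      deriv Real.smoothTransition x = 0 ∧ deriv (deriv Real.smoothTransition) x = 0 := by
  have s0 : ContDiff ℝ ∞ Real.smoothTransition := Real.smoothTransition.contDiff
  obtain ⟨d1, s1⟩ := contDiff_infty_iff_deriv.1 s0
  obtain ⟨d2, s2⟩ := contDiff_infty_iff_deriv.1 s1
  have a1 := cut_zero s1.continuous (isOpen_Iio (a := (0 : ℝ)))
    fun x hx => Real.smoothTransition.zero_of_nonpos (le_of_lt hx)
  have a2 := cut_zero s1.continuous (isOpen_Ioi (a := (1 : ℝ)))
    fun x hx => Real.smoothTransition.one_of_one_le (le_of_lt hx)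
  have a3 := cut_zero s2.continuous isOpen_Iio fun x hx => a1 x (subset_closure hx)
  have a4 := cut_zero s2.continuous isOpen_Ioi fun x hx => a2 x (subset_closure hx)
  rw [closure_Iio] at a1 a3
  rw [closure_Ioi] at a2 a4
  obtain ⟨K1, p1, b1⟩ := cut_bd s1.continuous fun x hx => hx.elim (a1 x) (a2 x)
  obtain ⟨K2, p2, b2⟩ := cut_bd s2.continuous fun x hx => hx.elim (a3 x) (a4 x)
  exact ⟨K1 + K2, by positivity, d1, d2, fun x => (b1 x).trans (by linarith),
    fun x => (b2 x).trans (by linarith), fun x hx => ⟨hx.elim (a1 x) (a2 x), hx.elim (a3 x) (a4 x)⟩⟩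

theorem exists_cut : ∃ K : ℝ, 0 < K ∧ ∀ r s : ℝ, 0 < r → r < s → ∃ β : ℝ → ℝ, ContDiff ℝ ∞ β ∧
    Antitone β ∧ (∀ t, 0 ≤ β t ∧ β t ≤ 1) ∧ (∀ t, t ≤ r → β t = 1) ∧ (∀ t, s ≤ t → β t = 0) ∧
    (∀ t, |deriv β t| ≤ K / (s - r)) ∧ (∀ t, |deriv (deriv β) t| ≤ K / (s - r) ^ 2) ∧
    (∀ t, t ≤ r ∨ s ≤ t → deriv β t = 0 ∧ deriv (deriv β) t = 0) ∧
    ContDiff ℝ ∞ (fun x : E3 => β ‖x‖) ∧ HasCompactSupport (fun x : E3 => β ‖x‖) ∧
    (∀ x : E3, ‖fderiv ℝ (fun x : E3 => β ‖x‖) x‖ ≤ K / (s - r)) ∧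
    ∀ (x : E3) (k : Fin 3), fderiv ℝ (fun x : E3 => β ‖x‖) x (e3 k) = deriv β ‖x‖ * (x k / ‖x‖) := by
  obtain ⟨K, hK, d1, d2, b1, b2, z⟩ := cut_T
  refine ⟨K, hK, fun r s hr hrs => ?_⟩
  have hd : 0 < s - r := sub_pos.2 hrs
  have hin : ∀ t, HasDerivAt (fun t => (s - t) / (s - r)) (-1 / (s - r)) t := fun t => by
    simpa using ((hasDerivAt_id t).const_sub s).div_const (s - r)
  have e1 : ∀ t, HasDerivAt (fun t => Real.smoothTransition ((s - t) / (s - r)))
      (deriv Real.smoothTransition ((s - t) / (s - r)) * (-1 / (s - r))) t := fun t =>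
    (d1 _).hasDerivAt.comp t (hin t)
  have e2 : deriv (fun t => Real.smoothTransition ((s - t) / (s - r))) = fun t =>
      deriv Real.smoothTransition ((s - t) / (s - r)) * (-1 / (s - r)) := funext fun t => (e1 t).deriv
  have e3 : ∀ t, deriv (deriv fun t => Real.smoothTransition ((s - t) / (s - r))) t =
      deriv (deriv Real.smoothTransition) ((s - t) / (s - r)) * (-1 / (s - r)) * (-1 / (s - r)) :=
    fun t => by
      rw [e2]
      exact (((d2 _).hasDerivAt.comp t (hin t)).mul_const _).deriv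
  have a1 : |-1 / (s - r)| = 1 / (s - r) := by rw [abs_div, abs_neg, abs_one, abs_of_pos hd]
  have sm : ContDiff ℝ ∞ fun t => Real.smoothTransition ((s - t) / (s - r)) :=
    Real.smoothTransition.contDiff.comp (by fun_prop)
  have o1 : ∀ t, t ≤ r → 1 ≤ (s - t) / (s - r) := fun t ht => (one_le_div hd).2 (by linarith)
  have o0 : ∀ t, s ≤ t → (s - t) / (s - r) ≤ 0 := fun t ht =>
    div_nonpos_of_nonpos_of_nonneg (by linarith) hd.le
  have k1 : ∀ t, |deriv (fun t => Real.smoothTransition ((s - t) / (s - r))) t| ≤ K / (s - r) :=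
    fun t => by
      rw [(e1 t).deriv, abs_mul, a1, div_eq_mul_one_div K]
      exact mul_le_mul_of_nonneg_right (b1 _) (by positivity)
  have ev : (fun x : E3 => Real.smoothTransition ((s - ‖x‖) / (s - r))) =ᶠ[𝓝 0] fun _ => 1 := by
    filter_upwards [Metric.ball_mem_nhds (0 : E3) hr] with x hx
    exact Real.smoothTransition.one_of_one_le (o1 _ (mem_ball_zero_iff.1 hx).le)
  have f0 : fderiv ℝ (fun x : E3 => Real.smoothTransition ((s - ‖x‖) / (s - r))) 0 = 0 := by
    rw [ev.fderiv_eq, fderiv_fun_const, Pi.zero_apply]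
  refine ⟨fun t => Real.smoothTransition ((s - t) / (s - r)), sm,
    fun t t' h => Real.smoothTransition.monotone (div_le_div_of_nonneg_right (by linarith) hd.le),
    fun t => ⟨Real.smoothTransition.nonneg _, Real.smoothTransition.le_one _⟩,
    fun t ht => Real.smoothTransition.one_of_one_le (o1 t ht),
    fun t ht => Real.smoothTransition.zero_of_nonpos (o0 t ht), k1, fun t => ?_, fun t ht => ?_,
    contDiff_iff_contDiffAt.2 fun x => ?_, ?_, fun x => ?_, fun x k => ?_⟩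
  · rw [e3, abs_mul, abs_mul, a1, mul_assoc, show K / (s - r) ^ 2 = K * (1 / (s - r) * (1 / (s - r)))
      by field_simp]
    exact mul_le_mul_of_nonneg_right (b2 _) (by positivity)
  · have h := z _ (ht.symm.imp (o0 t) (o1 t))
    rw [e3, (e1 t).deriv, h.1, h.2]
    simp
  · by_cases hx : x = 0
    · rw [hx]
      exact contDiffAt_const.congr_of_eventuallyEq ev
    · exact sm.contDiffAt.comp x (contDiffAt_norm ℝ hx)
  · refine HasCompactSupport.intro (isCompact_closedBall (0 : E3) s) fun x hx => ?_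
    exact Real.smoothTransition.zero_of_nonpos
      (o0 _ (not_le.1 (mt mem_closedBall_zero_iff.2 hx)).le)
  · by_cases hx : x = 0
    · rw [hx, f0, norm_zero]
      positivity
    · have h1 : HasFDerivAt (fun y : E3 => Real.smoothTransition ((s - ‖y‖) / (s - r))) _ x :=
        (e1 ‖x‖).comp_hasFDerivAt x (hasFDerivAt_norm' hx)
      rw [h1.fderiv, norm_smul, norm_smul, innerSL_apply_norm, norm_inv, norm_norm,
        inv_mul_cancel₀ (norm_ne_zero_iff.2 hx), mul_one, ← (e1 _).deriv]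
      exact k1 _
  · by_cases hx : x = 0
    · rw [hx, f0]
      simp
    · rw [(fderiv_radial hx (e1 _) k).2, (e1 _).deriv]

theorem contDiff_jb : ContDiff ℝ ∞ jb :=
  (contDiff_const.add (contDiff_norm_sq ℝ)).sqrt fun x => by positivity

theorem norm_le_jb (x : E3) : ‖x‖ ≤ jb x :=
  Real.le_sqrt_of_sq_le (by linarith)

theorem jb_le (x : E3) : jb x ≤ ‖x‖ + 1 :=
  Real.sqrt_le_iff.2 ⟨by positivity, by nlinarith [norm_nonneg x]⟩

theorem one_le_jb (x : E3) : 1 ≤ jb x :=
  Real.le_sqrt_of_sq_le (by nlinarith [sq_nonneg ‖x‖])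

theorem norm_fderiv_jb_le (x : E3) : ‖fderiv ℝ jb x‖ ≤ 1 := by
  have h : HasFDerivAt jb ((1 / (2 * jb x)) • 2 • innerSL ℝ x) x :=
    ((hasStrictFDerivAt_norm_sq x).hasFDerivAt.const_add 1).sqrt (by positivity)
  have h1 := one_le_jb x
  have h2 := norm_le_jb x
  rw [h.fderiv, norm_smul, two_nsmul, Real.norm_of_nonneg (by positivity), one_div,
    inv_mul_le_iff₀ (by positivity)]
  refine (norm_add_le _ _).trans ?_
  rw [innerSL_apply_norm]
  linarith

theorem abs_jb_sub_le (x y : E3) : |jb x - jb y| ≤ ‖x - y‖ := by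
  have h := convex_univ.norm_image_sub_le_of_norm_fderiv_le (f := jb) (C := 1)
    (fun z _ => contDiff_jb.differentiable (by simp) z) (fun z _ => norm_fderiv_jb_le z)
    (mem_univ y) (mem_univ x)
  rwa [one_mul] at h

theorem mul1_exp_jb {c : ℝ} (hc : 0 ≤ c) (p : E3) : Mul1 (fun x : E3 => Real.exp (-c * jb (x - p))) ∧
    ∀ x, ‖fderiv ℝ (fun x : E3 => Real.exp (-c * jb (x - p))) x‖ ≤ c * Real.exp (-c * jb (x - p)) := by
  have h1 : ∀ x, ‖fderiv ℝ (fun x : E3 => Real.exp (-c * jb (x - p))) x‖ ≤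
      c * Real.exp (-c * jb (x - p)) := fun x => by
    have h2 : HasFDerivAt (fun x : E3 => jb (x - p)) (fderiv ℝ jb (x - p)) x :=
      (hasFDerivAt_comp_sub p).2 (contDiff_jb.differentiable (by simp) _).hasFDerivAt
    rw [(h2.const_mul (-c)).exp.fderiv, norm_smul, norm_smul, norm_neg, Real.norm_of_nonneg hc,
      Real.norm_of_nonneg (Real.exp_pos _).le, mul_comm c (Real.exp _)]
    exact mul_le_mul_of_nonneg_left (mul_le_of_le_one_right hc (norm_fderiv_jb_le _))
      (Real.exp_pos _).le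
  refine ⟨⟨(contDiff_const.mul ((contDiff_jb.of_le (by simp)).comp
    (contDiff_id.sub contDiff_const))).exp, 1 + c, fun x => ?_⟩, h1⟩
  have h3 : Real.exp (-c * jb (x - p)) ≤ 1 :=
    Real.exp_le_one_iff.2 (by nlinarith [one_le_jb (x - p)])
  rw [abs_of_pos (Real.exp_pos _)]
  exact ⟨by linarith, (h1 x).trans (by nlinarith)⟩

theorem integrableOn_inv_sq (p : E3) (r : ℝ) :
    IntegrableOn (fun x : E3 => 1 / ‖x - p‖ ^ 2) (Metric.ball p r) := by
  have h : IntegrableOn (fun x : E3 => 1 / ‖x‖ ^ 2) (Metric.ball 0 r) := by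
    rw [integrableOn_fun_norm_addHaar volume (f := fun y : ℝ => 1 / y ^ 2)]
    refine (integrableOn_congr_fun (g := fun _ => 1) (fun y hy => ?_) measurableSet_Ioo).2
      (integrableOn_const measure_Ioo_lt_top.ne)
    have := hy.1.ne'
    simp only [finrank_euclideanSpace, Fintype.card_fin, smul_eq_mul]
    field_simp
  have h1 := ((measurePreserving_sub_right (volume : Measure E3) p).integrableOn_comp_preimage
    (Homeomorph.subRight p).measurableEmbedding).2 h
  have h2 : (fun x : E3 => x - p) ⁻¹' Metric.ball 0 r = Metric.ball p r := by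
    ext x
    simp [dist_eq_norm]
  rwa [h2] at h1

theorem integral_radial (f : ℝ → ℝ) :
    ∫ x : E3, f ‖x‖ = 4 * Real.pi * ∫ r in Ioi (0 : ℝ), r ^ 2 * f r := by
  rw [integral_fun_norm_addHaar volume f, Measure.real, EuclideanSpace.volume_ball_fin_three]
  simp only [finrank_euclideanSpace, Fintype.card_fin, smul_eq_mul, nsmul_eq_mul,
    ENNReal.ofReal_one, one_pow, one_mul]
  rw [ENNReal.toReal_ofReal (by positivity)]
  push_cast
  ring

theorem integrable_radial {f : ℝ → ℝ} (h : IntegrableOn (fun r => r ^ 2 * f r) (Ioi 0)) :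
    Integrable fun x : E3 => f ‖x‖ := by
  rw [integrable_fun_norm_addHaar volume]
  simpa only [finrank_euclideanSpace, Fintype.card_fin, smul_eq_mul] using h

theorem integrable_pow_exp (m : ℕ) {c : ℝ} (hc : 0 < c) :
    Integrable fun x : E3 => ‖x‖ ^ m * Real.exp (-c * ‖x‖) := by
  refine integrable_radial (f := fun r => r ^ m * Real.exp (-c * r)) ?_
  have h := integrableOn_rpow_mul_exp_neg_mul_rpow (s := ((2 + m : ℕ) : ℝ)) (p := 1)
    (lt_of_lt_of_le (by norm_num) (Nat.cast_nonneg _)) (by norm_num) hc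
  simpa only [Real.rpow_natCast, Real.rpow_one, pow_add, mul_assoc] using h

theorem integrable_inv_exp {c : ℝ} (hc : 0 < c) (p : E3) :
    Integrable fun x : E3 => 1 / ‖x - p‖ ^ 2 * Real.exp (-c * ‖x‖) := by
  have h1 := (integrable_indicator_iff Metric.isOpen_ball.measurableSet).2 (integrableOn_inv_sq p 1)
  have h2 := integrable_pow_exp 0 hc
  refine (h1.add h2).mono' (Measurable.aestronglyMeasurable (by fun_prop))
    (ae_of_all _ fun x => ?_)
  have h3 := Real.exp_pos (-c * ‖x‖)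
  have h4 : Real.exp (-c * ‖x‖) ≤ 1 := Real.exp_le_one_iff.2 (by nlinarith [norm_nonneg x])
  rw [Real.norm_of_nonneg (by positivity), Pi.add_apply, pow_zero, one_mul]
  by_cases hx : x ∈ Metric.ball p 1
  · rw [indicator_of_mem hx]
    exact (mul_le_of_le_one_right (by positivity) h4).trans (by linarith)
  · rw [indicator_of_notMem hx, zero_add]
    rw [mem_ball_iff_norm, not_lt] at hx
    exact mul_le_of_le_one_left h3.le (div_le_one_of_le₀ (one_le_pow₀ hx) (by positivity))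

theorem ae_coord_ne (k : Fin 3) (c : ℝ) : ∀ᵐ x : E3, x k ≠ c :=
  (PiLp.volume_preserving_ofLp (Fin 3)).quasiMeasurePreserving.ae
    (Measure.ae_eval_ne (fun _ => (volume : Measure ℝ)) k c)

theorem ae_norm_ne (r : ℝ) : ∀ᵐ x : E3, ‖x‖ ≠ r := by
  have h := Measure.addHaar_sphere (volume : Measure E3) 0 r
  filter_upwards [measure_eq_zero_iff_ae_notMem.1 h] with x hx
  rwa [mem_sphere_zero_iff_norm] at hx


end Vale.Agent.P363
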