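import Vale.Agent.P363.A.Trunc

/-!
# P363 A/Fib1  (TASK)

Fubini for fibred functions (`Integrable.prod_left_ae`, `integral_integral_swap`, `MemLp.integrable_mul`, `memLp_two_iff_integrable_sq`, Cauchy-Schwarz in `y` or in `x`).
A function of `x` in `L²` times a function of `y` in `L²` is in `L²` of the product.  `pr_mem`: integrate the identity `WD` of the slices against `Ξ`.
-/

open MeasureTheory Filter Topology Set
open scoped ContDiff

set_option linter.unusedSectionVars false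

noncomputable section

namespace Vale.Agent.P363

variable {Y : Type} [MeasurableSpace Y] {ν : Measure Y} [SFinite ν]

section Aux

variable {X : Type} [MeasurableSpace X] {μ : Measure X} [SFinite μ]

theorem fib1_mul {f g : X → ℝ} (hf : MemLp f 2 μ) (hg : MemLp g 2 μ) :
    Integrable (fun x => f x * g x) μ := hf.integrable_mul hg

theorem fib1_cs {f g : X → ℝ} (hf : MemLp f 2 μ) (hg : MemLp g 2 μ) :
    (∫ x, f x * g x ∂μ) ^ 2 ≤ (∫ x, f x ^ 2 ∂μ) * ∫ x, g x ^ 2 ∂μ := by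
  have h := discrim_le_zero (a := ∫ x, f x ^ 2 ∂μ) (b := 2 * ∫ x, f x * g x ∂μ)
    (c := ∫ x, g x ^ 2 ∂μ) fun t => by
      have h1 : 0 ≤ ∫ x, (t * t * f x ^ 2 + 2 * t * (f x * g x)) + g x ^ 2 ∂μ :=
        integral_nonneg fun x => by
          simp only [Pi.zero_apply]
          nlinarith [sq_nonneg (t * f x + g x)]
      have h2 := hf.integrable_sq.const_mul (t * t)
      have h3 := (fib1_mul hf hg).const_mul (2 * t)
      have h4 : Integrable (fun x => t * t * f x ^ 2 + 2 * t * (f x * g x)) μ := h2.add h3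
      rw [integral_add h4 hg.integrable_sq, integral_add h2 h3, integral_const_mul,
        integral_const_mul] at h1
      linarith
  rw [discrim] at h
  linarith

theorem fib1_tens {φ : X → ℝ} {Ξ : Y → ℝ} (hφ : MemLp φ 2 μ) (hΞ : MemLp Ξ 2 ν) :
    MemLp (fun z : X × Y => φ z.1 * Ξ z.2) 2 (μ.prod ν) := by
  refine (memLp_two_iff_integrable_sq (hφ.1.comp_fst.mul hΞ.1.comp_snd)).2 ?_
  simpa only [Pi.mul_apply, mul_pow] using hφ.integrable_sq.mul_prod hΞ.integrable_sq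

theorem fib1_swap {F : X → Y → ℝ} (hF : MemLp (fun z : X × Y => F z.1 z.2) 2 (μ.prod ν)) :
    MemLp (fun z : Y × X => F z.2 z.1) 2 (ν.prod μ) :=
  hF.comp_measurePreserving Measure.measurePreserving_swap

theorem fib1_slice {F : X → Y → ℝ} (hF : MemLp (fun z : X × Y => F z.1 z.2) 2 (μ.prod ν)) :
    ∀ᵐ x ∂μ, MemLp (F x) 2 ν := by
  filter_upwards [hF.integrable_sq.prod_right_ae, hF.1.prodMk_left] with x h1 h2
  exact (memLp_two_iff_integrable_sq h2).2 h1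

theorem fib1_pr {F : X → Y → ℝ} (hF : MemLp (fun z : X × Y => F z.1 z.2) 2 (μ.prod ν)) {Ξ : Y → ℝ}
    (hΞ : MemLp Ξ 2 ν) : MemLp (fun x => ∫ y, F x y * Ξ y ∂ν) 2 μ ∧
      ∫ x, (∫ y, F x y * Ξ y ∂ν) ^ 2 ∂μ ≤ (∫ x, ∫ y, F x y ^ 2 ∂ν ∂μ) * ∫ y, Ξ y ^ 2 ∂ν := by
  have h1 : AEStronglyMeasurable (fun x => ∫ y, F x y * Ξ y ∂ν) μ :=
    (hF.1.mul hΞ.1.comp_snd).integral_prod_right'
  have h2 : Integrable (fun x => (∫ y, F x y ^ 2 ∂ν) * ∫ y, Ξ y ^ 2 ∂ν) μ :=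
    hF.integrable_sq.integral_prod_left.mul_const _
  have h3 : ∀ᵐ x ∂μ, (∫ y, F x y * Ξ y ∂ν) ^ 2 ≤ (∫ y, F x y ^ 2 ∂ν) * ∫ y, Ξ y ^ 2 ∂ν := by
    filter_upwards [fib1_slice hF] with x hx using fib1_cs hx hΞ
  have h4 : Integrable (fun x => (∫ y, F x y * Ξ y ∂ν) ^ 2) μ := by
    refine h2.mono' (h1.pow 2) ?_
    filter_upwards [h3] with x hx
    rwa [Real.norm_of_nonneg (sq_nonneg _)]
  refine ⟨(memLp_two_iff_integrable_sq h1).2 h4, ?_⟩
  rw [← integral_mul_const]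
  exact integral_mono_ae h4 h2 h3

theorem fib1_fub {ψ : X → ℝ} {H : X → Y → ℝ}
    (h : Integrable (fun z : X × Y => ψ z.1 * H z.1 z.2) (μ.prod ν)) :
    ∫ x, ψ x * ∫ y, H x y ∂ν ∂μ = ∫ y, ∫ x, ψ x * H x y ∂μ ∂ν := by
  rw [← integral_integral_swap (f := fun x y => ψ x * H x y) h]
  simp only [integral_const_mul]

theorem fib1_fub2 {ψ : X → ℝ} {F : X → Y → ℝ} {Ξ : Y → ℝ}
    (h : Integrable (fun z : X × Y => ψ z.1 * (F z.1 z.2 * Ξ z.2)) (μ.prod ν)) :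
    Integrable (fun y => (∫ x, ψ x * F x y ∂μ) * Ξ y) ν ∧
      ∫ x, ψ x * ∫ y, F x y * Ξ y ∂ν ∂μ = ∫ y, (∫ x, ψ x * F x y ∂μ) * Ξ y ∂ν := by
  have h1 : ∀ y, (∫ x, ψ x * F x y ∂μ) * Ξ y = ∫ x, ψ x * (F x y * Ξ y) ∂μ := fun y => by
    simp only [← integral_mul_const, mul_assoc]
  simp only [h1]
  exact ⟨h.integral_prod_right, fib1_fub (H := fun x y => F x y * Ξ y) h⟩

theorem fib1_pair {φ : X → ℝ} {F : X → Y → ℝ} {Ξ : Y → ℝ} (hφ : MemLp φ 2 μ)
    (hF : MemLp (fun z : X × Y => F z.1 z.2) 2 (μ.prod ν)) (hΞ : MemLp Ξ 2 ν) :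
    Integrable (fun y => (∫ x, φ x * F x y ∂μ) * Ξ y) ν ∧
      ∫ x, φ x * ∫ y, F x y * Ξ y ∂ν ∂μ = ∫ y, (∫ x, φ x * F x y ∂μ) * Ξ y ∂ν := by
  refine fib1_fub2 ((fib1_mul (fib1_tens hφ hΞ) hF).congr (ae_of_all _ fun z => ?_))
  simp only
  ring

theorem fib1_test {ψ : E3 → ℝ} (h1 : Continuous ψ) (h2 : HasCompactSupport ψ) {H : E3 → Y → ℝ}
    (h : Integrable (fun z : E3 × Y => H z.1 z.2) (volume.prod ν)) :
    ∫ x, ψ x * ∫ y, H x y ∂ν = ∫ y, (∫ x, ψ x * H x y) ∂ν := by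
  obtain ⟨C, hC⟩ := h1.bounded_above_of_compact_support h2
  exact fib1_fub (h.bdd_mul h1.aestronglyMeasurable.comp_fst (ae_of_all _ fun z => hC z.1))

end Aux

namespace Fib

open Classical in
/-- The slice at `y`. -/
def sl (A : Fib ν) (y : Y) : S e3 :=
  if h : ((fun x => A.F x y), fun k x => A.D k x y) ∈ Sob e3 then S.of h else 0

theorem sl_ae (A : Fib ν) : ∀ᵐ y ∂ν, (∀ x, (A.sl y).f x = A.F x y) ∧
    ∀ k x, (A.sl y).g k x = A.D k x y := by
  filter_upwards [A.slice] with y hy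
  simp only [sl, dif_pos hy, S.of_f, S.of_g, implies_true, and_self]
theorem n_nonneg (A : Fib ν) (x : E3) : 0 ≤ A.n x := integral_nonneg fun _ => sq_nonneg _
theorem tau_nonneg (A : Fib ν) (x : E3) : 0 ≤ A.tau x :=
  Finset.sum_nonneg fun _ _ => integral_nonneg fun _ => sq_nonneg _
theorem int_n (A : Fib ν) : Integrable A.n := A.mF.integrable_sq.integral_prod_left
theorem int_tau (A : Fib ν) : Integrable A.tau :=
  integrable_finsetSum _ fun k _ => (A.mD k).integrable_sq.integral_prod_left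
theorem int_J (A : Fib ν) (k : Fin 3) : Integrable (A.J k) :=
  (fib1_mul A.mF (A.mD k)).integral_prod_left
theorem mem_ae (A : Fib ν) : ∀ᵐ x, MemLp (A.F x) 2 ν ∧ ∀ k, MemLp (A.D k x) 2 ν :=
  (fib1_slice A.mF).and (ae_all_iff.2 fun k => fib1_slice (A.mD k))
theorem J_sq_le (A : Fib ν) : ∀ᵐ x, ∑ k, A.J k x ^ 2 ≤ A.n x * A.tau x := by
  filter_upwards [A.mem_ae] with x hx
  rw [tau, Finset.mul_sum]
  exact Finset.sum_le_sum fun k _ => fib1_cs hx.1 (hx.2 k)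
theorem wd_n (A : Fib ν) (k : Fin 3) : WD (e3 k) A.n fun x => 2 * A.J k x := by
  intro φ h1 h2
  have e1 : ∀ x, 2 * A.J k x = ∫ y, 2 * (A.F x y * A.D k x y) ∂ν := fun x => by
    rw [integral_const_mul, J]
  simp only [e1, n]
  rw [fib1_test ((h1.continuous_fderiv (by simp)).clm_apply continuous_const)
    (h2.fderiv_apply ℝ _) A.mF.integrable_sq, fib1_test h1.continuous h2
    ((fib1_mul A.mF (A.mD k)).const_mul 2), ← integral_neg]
  refine integral_congr_ae ?_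
  filter_upwards [A.sl_ae] with y hy
  have h3 := wd_mul (A.sl y) (A.sl y) k φ h1 h2
  simp only [hy.1, hy.2] at h3
  simp only [sq, h3]
  congr 2
  funext x
  ring
theorem red_mem (A : Fib ν) {φ : E3 → ℝ} (hφ : MemLp φ 2 volume) : MemLp (A.red φ) 2 ν := by
  have h := (fib1_pr (F := fun y x => A.F x y) (fib1_swap A.mF) hφ).1
  simp only [mul_comm _ (φ _)] at h
  exact h
theorem gam_le (A : Fib ν) {φ : E3 → ℝ} (hφ : MemLp φ 2 volume) :
    A.gam φ φ ≤ (∫ x, φ x ^ 2) * ∫ x, A.n x := by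
  have h := (fib1_pr (F := fun y x => A.F x y) (fib1_swap A.mF) hφ).2
  rw [← integral_integral_swap (f := fun x y => A.F x y ^ 2) A.mF.integrable_sq, mul_comm] at h
  simp only [mul_comm _ (φ _), sq (∫ _, _)] at h
  exact h
theorem gam_nonneg (A : Fib ν) (φ : E3 → ℝ) : 0 ≤ A.gam φ φ :=
  integral_nonneg fun _ => mul_self_nonneg _
theorem bil_gam (A : Fib ν) : Bil fun a b : S e3 => A.gam a.f b.f := by
  refine ⟨fun a b => ?_, fun a b c => ?_, fun t a b => ?_⟩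
  · simp only [gam, mul_comm]
  · simp only [gam]
    rw [← integral_add (fib1_mul (A.red_mem a.mem) (A.red_mem c.mem))
      (fib1_mul (A.red_mem b.mem) (A.red_mem c.mem))]
    refine integral_congr_ae ?_
    filter_upwards [A.slice] with y hy
    simp only [red, S.add_f, add_mul]
    rw [integral_add (fib1_mul a.mem hy.1) (fib1_mul b.mem hy.1), add_mul]
  · simp only [gam, red, S.smul_f, mul_assoc, integral_const_mul]
theorem ip_sl (A : Fib ν) (b : S e3) : ∀ᵐ y ∂ν, ip b (A.sl y) = A.red b.f y := by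
  filter_upwards [A.sl_ae] with y hy
  simp only [ip, red, hy.1]
theorem int_ip_sl (A : Fib ν) : Integrable (fun y => ip (A.sl y) (A.sl y)) ν ∧
    ∫ y, ip (A.sl y) (A.sl y) ∂ν = ∫ x, A.n x := by
  have h : (fun y => ip (A.sl y) (A.sl y)) =ᵐ[ν] fun y => ∫ x, A.F x y ^ 2 := by
    filter_upwards [A.sl_ae] with y hy
    simp only [ip, hy.1, sq]
  exact ⟨A.mF.integrable_sq.integral_prod_right.congr h.symm, (integral_congr_ae h).trans
    (integral_integral_swap (f := fun x y => A.F x y ^ 2) A.mF.integrable_sq).symm⟩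
theorem int_kin_sl (A : Fib ν) : Integrable (fun y => kin (A.sl y) (A.sl y)) ν ∧
    ∫ y, kin (A.sl y) (A.sl y) ∂ν = 1 / 2 * ∫ x, A.tau x := by
  have h : (fun y => kin (A.sl y) (A.sl y)) =ᵐ[ν] fun y => 1 / 2 * ∑ k, ∫ x, A.D k x y ^ 2 := by
    filter_upwards [A.sl_ae] with y hy
    simp only [kin, hy.2, sq]
  have h1 : ∀ k, Integrable (fun y => ∫ x, A.D k x y ^ 2) ν := fun k =>
    (A.mD k).integrable_sq.integral_prod_right
  refine ⟨((integrable_finsetSum _ fun k _ => h1 k).const_mul _).congr h.symm, ?_⟩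
  rw [integral_congr_ae h, integral_const_mul, integral_finsetSum _ fun k _ => h1 k]
  unfold tau
  rw [integral_finsetSum _ fun k _ => (A.mD k).integrable_sq.integral_prod_left]
  congr 1
  exact Finset.sum_congr rfl fun k _ =>
    (integral_integral_swap (f := fun x y => A.D k x y ^ 2) (A.mD k).integrable_sq).symm
theorem int_pot_sl (A : Fib ν) {U : E3 → ℝ} (hU : FB e3 U) :
    Integrable (fun z : E3 × Y => U z.1 * A.F z.1 z.2 ^ 2) (volume.prod ν) ∧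
    Integrable (fun x => U x * A.n x) ∧ Integrable (fun y => pot U (A.sl y) (A.sl y)) ν ∧
    ∫ y, pot U (A.sl y) (A.sl y) ∂ν = ∫ x, U x * A.n x := by
  have hm : AEStronglyMeasurable (fun z : E3 × Y => U z.1 * A.F z.1 z.2 ^ 2) (volume.prod ν) :=
    hU.1.comp_fst.mul (A.mF.1.pow 2)
  have h0 : Integrable (fun z : E3 × Y => U z.1 * A.F z.1 z.2 ^ 2) (volume.prod ν) := by
    obtain ⟨C, -, hC⟩ := hU.2 1 one_pos
    refine (integrable_prod_iff' hm).2 ⟨?_, ?_⟩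
    · filter_upwards [A.sl_ae] with y hy
      simpa only [hy.1] using (hC (A.sl y)).1
    · refine ((A.int_kin_sl.1.const_mul 1).add (A.int_ip_sl.1.const_mul C)).mono'
        hm.norm.prod_swap.integral_prod_right' ?_
      filter_upwards [A.sl_ae] with y hy
      rw [Real.norm_of_nonneg (integral_nonneg fun _ => norm_nonneg _)]
      have h1 := (hC (A.sl y)).2
      simp only [hy.1] at h1
      simpa only [Real.norm_eq_abs, abs_mul, abs_pow, sq_abs, Pi.add_apply] using h1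
  have h : (fun y => pot U (A.sl y) (A.sl y)) =ᵐ[ν] fun y => ∫ x, U x * A.F x y ^ 2 := by
    filter_upwards [A.sl_ae] with y hy
    simp only [pot, hy.1, sq]
  refine ⟨h0, ?_, h0.integral_prod_right.congr h.symm, (integral_congr_ae h).trans
    (fib1_fub (H := fun x y => A.F x y ^ 2) h0).symm⟩
  simpa only [integral_const_mul, n] using h0.integral_prod_left
theorem int_qf_sl (A : Fib ν) {U : E3 → ℝ} (hU : FB e3 U) :
    Integrable (fun y => qf U (A.sl y) (A.sl y)) ν ∧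
    ∫ y, qf U (A.sl y) (A.sl y) ∂ν = A.en U := by
  obtain ⟨-, -, h1, h2⟩ := A.int_pot_sl hU
  refine ⟨A.int_kin_sl.1.add h1, ?_⟩
  unfold qf
  rw [integral_add A.int_kin_sl.1 h1, h2, A.int_kin_sl.2, en]
/-- One-body inequalities lift to fibred functions. -/
theorem lift (A : Fib ν) {U : E3 → ℝ} (hU : FB e3 U) {κ : Type} [Fintype κ] (φ : κ → S e3)
    (c : κ → ℝ) (c₀ : ℝ) (h : ∀ a : S e3, c₀ * ip a a + ∑ j, c j * ip (φ j) a ^ 2 ≤ qf U a a) :
    c₀ * (∫ x, A.n x) + ∑ j, c j * A.gam (φ j).f (φ j).f ≤ A.en U := by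
  have h1 : ∀ j, Integrable (fun y => c j * (A.red (φ j).f y * A.red (φ j).f y)) ν := fun j =>
    (fib1_mul (A.red_mem (φ j).mem) (A.red_mem (φ j).mem)).const_mul _
  have h2 := A.int_ip_sl.1.const_mul c₀
  have h3 := integrable_finsetSum Finset.univ fun j _ => h1 j
  simp only [gam]
  rw [← (A.int_qf_sl hU).2, ← A.int_ip_sl.2, ← integral_const_mul]
  simp only [← integral_const_mul (c _)]
  rw [← integral_finsetSum _ fun j _ => h1 j, ← integral_add h2 h3]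
  refine integral_mono_ae (h2.add h3) (A.int_qf_sl hU).1 ?_
  filter_upwards [ae_all_iff.2 fun j => A.ip_sl (φ j)] with y hy
  simpa only [hy, sq] using h (A.sl y)

theorem pr_mem (A : Fib ν) {Ξ : Y → ℝ} (hΞ : MemLp Ξ 2 ν) :
    ((fun x => ∫ y, A.F x y * Ξ y ∂ν), fun k x => ∫ y, A.D k x y * Ξ y ∂ν) ∈ Sob e3 := by
  refine ⟨(fib1_pr A.mF hΞ).1, fun k => (fib1_pr (A.mD k) hΞ).1, fun k φ h1 h2 => ?_⟩
  have h3 : MemLp (fun x => fderiv ℝ φ x (e3 k)) 2 volume :=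
    ((h1.continuous_fderiv (by simp)).clm_apply continuous_const).memLp_of_hasCompactSupport
      (h2.fderiv_apply ℝ _)
  simp only
  rw [(fib1_pair h3 A.mF hΞ).2,
    (fib1_pair (h1.continuous.memLp_of_hasCompactSupport h2) (A.mD k) hΞ).2, ← integral_neg]
  refine integral_congr_ae ?_
  filter_upwards [A.slice] with y hy
  rw [hy.2.2 k φ h1 h2, neg_mul]

/-- Integration against a function of `y`. -/
def pr (A : Fib ν) {Ξ : Y → ℝ} (hΞ : MemLp Ξ 2 ν) : S e3 := S.of (A.pr_mem hΞ)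

theorem pr_sq_le (A : Fib ν) {Ξ : Y → ℝ} (hΞ : MemLp Ξ 2 ν) :
    ∀ᵐ x, (A.pr hΞ).f x ^ 2 ≤ A.n x * ∫ y, Ξ y ^ 2 ∂ν := by
  filter_upwards [A.mem_ae] with x hx using fib1_cs hx.1 hΞ
theorem hn_pr_le (A : Fib ν) {Ξ : Y → ℝ} (hΞ : MemLp Ξ 2 ν) :
    ip (A.pr hΞ) (A.pr hΞ) ≤ (∫ x, A.n x) * ∫ y, Ξ y ^ 2 ∂ν ∧
    kin (A.pr hΞ) (A.pr hΞ) ≤ (1 / 2 * ∫ x, A.tau x) * ∫ y, Ξ y ^ 2 ∂ν := by
  refine ⟨(ip_self _).le.trans (fib1_pr A.mF hΞ).2, ?_⟩
  unfold tau kin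
  rw [integral_finsetSum _ fun k _ => (A.mD k).integrable_sq.integral_prod_left, mul_assoc,
    Finset.sum_mul]
  refine mul_le_mul_of_nonneg_left (Finset.sum_le_sum fun k _ => ?_) (by norm_num)
  simp only [← sq]
  exact (fib1_pr (A.mD k) hΞ).2
theorem ip_pr (A : Fib ν) {Ξ : Y → ℝ} (hΞ : MemLp Ξ 2 ν) {φ : E3 → ℝ} (hφ : MemLp φ 2 volume) :
    ∫ x, φ x * (A.pr hΞ).f x = ∫ y, A.red φ y * Ξ y ∂ν := (fib1_pair hφ A.mF hΞ).2
theorem qf_pr (A : Fib ν) {Ξ : Y → ℝ} (hΞ : MemLp Ξ 2 ν) {U : E3 → ℝ} (hU : FB e3 U) (b : S e3) :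
    Integrable (fun y => qf U (A.sl y) b * Ξ y) ν ∧
    ∫ y, qf U (A.sl y) b * Ξ y ∂ν = qf U (A.pr hΞ) b := by
  have h1 := fun k => fib1_pair (b.gmem k) (A.mD k) hΞ
  have h2 : Integrable (fun z : E3 × Y => U z.1 * b.f z.1 * (A.F z.1 z.2 * Ξ z.2))
      (volume.prod ν) := by
    refine (((hU.int b b).mul_prod hΞ.integrable_sq).abs.add (A.int_pot_sl hU).1.abs).mono'
      ((hU.1.mul b.mem.1).comp_fst.mul (A.mF.1.mul hΞ.1.comp_snd)) (ae_of_all _ fun z => ?_)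
    have e1 : U z.1 * b.f z.1 * (A.F z.1 z.2 * Ξ z.2) =
        U z.1 * (b.f z.1 * Ξ z.2 * A.F z.1 z.2) := by ring
    have e2 : U z.1 * (b.f z.1 * b.f z.1) * Ξ z.2 ^ 2 = U z.1 * (b.f z.1 * Ξ z.2) ^ 2 := by ring
    simp only [Pi.add_apply]
    rw [e1, e2, Real.norm_eq_abs, abs_mul, abs_mul (U z.1), abs_mul (U z.1), ← mul_add, abs_mul,
      abs_pow, abs_pow]
    refine mul_le_mul_of_nonneg_left ?_ (abs_nonneg _)
    nlinarith [sq_nonneg (|b.f z.1 * Ξ z.2| - |A.F z.1 z.2|), sq_nonneg |b.f z.1 * Ξ z.2|,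
      sq_nonneg |A.F z.1 z.2|]
  obtain ⟨h3, h4⟩ := fib1_fub2 (ψ := fun x => U x * b.f x) h2
  have h5 := (integrable_finsetSum Finset.univ fun k _ => (h1 k).1).const_mul (1 / 2)
  have h : (fun y => qf U (A.sl y) b * Ξ y) =ᵐ[ν] fun y =>
      1 / 2 * ∑ k, (∫ x, b.g k x * A.D k x y) * Ξ y + (∫ x, U x * b.f x * A.F x y) * Ξ y := by
    filter_upwards [A.sl_ae] with y hy
    rw [hU.bil_qf.symm]
    simp only [qf, kin, pot, hy.1, hy.2, add_mul, mul_assoc, Finset.sum_mul]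
  refine ⟨(h5.add h3).congr h.symm, ?_⟩
  rw [integral_congr_ae h, integral_add h5 h3, integral_const_mul,
    integral_finsetSum _ fun k _ => (h1 k).1, ← h4, hU.bil_qf.symm]
  simp only [← (h1 _).2, qf, kin, pot, pr, S.of_f, S.of_g, mul_assoc]

end Fib

end Vale.Agent.P363
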