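import Vale.Agent.P363.A.Limit
import Vale.Agent.P363.A.Cut

/-!
# P363 A/Line  (TASK)

For `Sm` functions `a (y + t h) - a y = ∫₀ᵗ Da (y + s h) h ds` and Cauchy-Schwarz give the pointwise bound `(a (y + t h) - a y)² ≤ ‖h‖² ∫₀¹ ∑ₖ (∂ₖ a)² (y + s h) ds` for `t ∈ [0,1]`.
Integrate against `wt`, use Tonelli and translation invariance; pass to the limit along `S.approx` (both sides are continuous in `hn` because `wt` is bounded).
`shift_sq_le` is proved in the same way (without `wt`).  `const_of_grad_zero`: `shift_sq_le` on small balls gives `a (y + h) = a y` for a.e. `y` near the start point; use continuity.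
-/

open MeasureTheory Filter Topology Set
open scoped ContDiff

set_option linter.unusedSectionVars false

noncomputable section

namespace Vale.Agent.P363

theorem ln_cs {g : ℝ → ℝ} (hg : Continuous g) :
    (∫ s in (0 : ℝ)..1, g s) ^ 2 ≤ ∫ s in (0 : ℝ)..1, g s ^ 2 := by
  obtain ⟨c, hc⟩ : ∃ c, c = ∫ s in (0 : ℝ)..1, g s := ⟨_, rfl⟩
  have i1 : IntervalIntegrable (fun s => 2 * c * g s) volume 0 1 :=
    (continuous_const.mul hg).intervalIntegrable _ _
  have i2 : IntervalIntegrable (fun _ : ℝ => c ^ 2) volume 0 1 := intervalIntegrable_const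
  have h1 := intervalIntegral.integral_mono_on zero_le_one (i1.sub i2)
    ((hg.fun_pow 2).intervalIntegrable _ _) fun s _ => (by nlinarith [sq_nonneg (g s - c)] :
      2 * c * g s - c ^ 2 ≤ g s ^ 2)
  rw [intervalIntegral.integral_sub i1 i2, intervalIntegral.integral_const_mul, ← hc,
    intervalIntegral.integral_const, sub_zero, one_smul] at h1
  rw [← hc]
  linarith

theorem ln_pt {u : E3 → ℝ} (hu : ContDiff ℝ ∞ u) (h y : E3) {t : ℝ} (ht : t ∈ Icc (0 : ℝ) 1) :
    ENNReal.ofReal ((u (y + t • h) - u y) ^ 2) ≤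
      ∫⁻ s in Ioc (0 : ℝ) 1, ENNReal.ofReal (‖h‖ ^ 2 * ‖fderiv ℝ u (y + s • h)‖ ^ 2) := by
  have c1 : Continuous fun s : ℝ => fderiv ℝ u (y + s • h) :=
    (hu.continuous_fderiv (by simp)).comp (by fun_prop)
  have c2 : Continuous fun s : ℝ => ‖h‖ * ‖fderiv ℝ u (y + s • h)‖ := continuous_const.mul c1.norm
  have c3 : Continuous fun s : ℝ => fderiv ℝ u (y + s • h) h := c1.clm_apply continuous_const
  have h1 : ∀ s ∈ uIcc (0 : ℝ) t,
      HasDerivAt (fun s : ℝ => u (y + s • h)) (fderiv ℝ u (y + s • h) h) s := fun s _ => by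
    have h2 : HasDerivAt (fun s : ℝ => y + s • h) h s := by
      simpa using ((hasDerivAt_id s).smul_const h).const_add y
    exact (hu.differentiable (by simp) _).hasFDerivAt.comp_hasDerivAt s h2
  have h2 := intervalIntegral.integral_eq_sub_of_hasDerivAt h1 (c3.intervalIntegrable _ _)
  rw [zero_smul, add_zero] at h2
  have h3 : |u (y + t • h) - u y| ≤ ∫ s in (0 : ℝ)..1, ‖h‖ * ‖fderiv ℝ u (y + s • h)‖ := by
    rw [← h2]
    refine (intervalIntegral.abs_integral_le_integral_abs ht.1).trans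
      ((intervalIntegral.integral_mono_on ht.1 (c3.abs.intervalIntegrable _ _)
        (c2.intervalIntegrable _ _) fun s _ => ?_).trans
      (intervalIntegral.integral_mono_interval le_rfl ht.1 ht.2
        (Eventually.of_forall fun s => by positivity) (c2.intervalIntegrable _ _)))
    rw [mul_comm]
    exact (fderiv ℝ u (y + s • h)).le_opNorm h
  have h4 := (pow_le_pow_left₀ (abs_nonneg _) h3 2).trans (ln_cs c2)
  rw [sq_abs, intervalIntegral.integral_of_le zero_le_one] at h4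
  simp only [← mul_pow]
  rw [← ofReal_integral_eq_lintegral_ofReal
    ((c2.fun_pow 2).integrableOn_Icc.mono_set Ioc_subset_Icc_self)
    (Eventually.of_forall fun s => sq_nonneg _)]
  exact ENNReal.ofReal_le_ofReal h4

theorem ln_avg {G : E3 → ENNReal} (hG : Measurable G) (h : E3) {A B : Set E3}
    (hA : MeasurableSet A) (hB : MeasurableSet B)
    (hAB : ∀ y ∈ B, ∀ s ∈ Icc (0 : ℝ) 1, y + s • h ∈ A) :
    ∫⁻ y in B, ∫⁻ s in Ioc (0 : ℝ) 1, G (y + s • h) ≤ ∫⁻ x in A, G x := by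
  rw [lintegral_lintegral_swap (f := fun (y : E3) (s : ℝ) => G (y + s • h))
    (hG.comp (by fun_prop)).aemeasurable]
  refine (setLIntegral_mono' (g := fun _ => ∫⁻ x in A, G x) measurableSet_Ioc
    fun s hs => ?_).trans (by simp)
  rw [← lintegral_indicator hA, ← lintegral_indicator hB,
    ← lintegral_add_right_eq_self (A.indicator G) (s • h)]
  refine lintegral_mono fun y => ?_
  by_cases hy : y ∈ B
  · rw [indicator_of_mem hy, indicator_of_mem (hAB y hy s (Ioc_subset_Icc_self hs))]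
  · rw [indicator_of_notMem hy]
    exact zero_le

theorem ln_int (a b : S e3) : Integrable fun x => ∑ k, a.g k x * b.g k x :=
  integrable_finsetSum _ fun k _ => a.int_gmul b k k

theorem ln_bil (A : Set E3) : Bil fun a b : S e3 => ∫ x in A, ∑ k, a.g k x * b.g k x := by
  refine ⟨fun a b => ?_, fun a b c => ?_, fun t a b => ?_⟩
  · simp only [mul_comm]
  · rw [← integral_add (ln_int a c).integrableOn (ln_int b c).integrableOn]
    simp only [S.add_g, add_mul, Finset.sum_add_distrib]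
  · simp only [S.smul_g, mul_assoc, ← Finset.mul_sum, integral_const_mul]

theorem ln_tend (A : Set E3) {u : ℕ → S e3} {a : S e3}
    (hu : Tendsto (fun m => hn (u m - a)) atTop (𝓝 0)) :
    Tendsto (fun m => ∫ x in A, ∑ k, (u m).g k x ^ 2) atTop (𝓝 (∫ x in A, ∑ k, a.g k x ^ 2)) := by
  simp only [sq]
  have h1 : ∀ a : S e3, √(kin a a + kin a a) ≤ √2 * √(hn a) := fun a => by
    rw [← Real.sqrt_mul zero_le_two]
    exact Real.sqrt_le_sqrt (by linarith [kin_le_hn a])
  refine (ln_bil A).tendsto (C := √2 * √2) (fun a b => ?_) hu hu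
  refine ((ln_bil A).polar (bil_kin.plus bil_kin) (fun a => ?_) a b).trans ?_
  · have h0 : ∀ x, 0 ≤ ∑ k, a.g k x * a.g k x := fun x =>
      Finset.sum_nonneg fun k _ => mul_self_nonneg _
    have h2 := setIntegral_le_integral (s := A) (ln_int a a) (Eventually.of_forall h0)
    rw [abs_of_nonneg (integral_nonneg h0), kin_eq]
    linarith
  · refine (mul_le_mul (h1 a) (h1 b) (Real.sqrt_nonneg _) (by positivity)).trans_eq ?_
    ring

theorem ln_core (a : S e3) (h : E3) {A B : Set E3} (hA : MeasurableSet A) (hB : MeasurableSet B)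
    (hAB : ∀ y ∈ B, ∀ s ∈ Icc (0 : ℝ) 1, y + s • h ∈ A) {Z : Type} [MeasurableSpace Z]
    {μ : Measure Z} {Y W : Z → E3} (hY : Measure.QuasiMeasurePreserving Y μ volume)
    (hW : Measure.QuasiMeasurePreserving W μ volume)
    (hT : ∀ᵐ z ∂μ, ∃ t ∈ Icc (0 : ℝ) 1, W z = Y z + t • h)
    (hm : ∀ F : E3 → ENNReal, Measurable F → ∫⁻ z, F (Y z) ∂μ ≤ ∫⁻ y in B, F y) :
    ∫⁻ z, ENNReal.ofReal ((a.f (W z) - a.f (Y z)) ^ 2) ∂μ ≤
      ENNReal.ofReal (‖h‖ ^ 2 * ∫ x in A, ∑ k, a.g k x ^ 2) := by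
  obtain ⟨u, hu, h1, -, h2⟩ := a.approx_ae
  have h3 : ∀ m, ∫⁻ z, ENNReal.ofReal (((u m).f (W z) - (u m).f (Y z)) ^ 2) ∂μ ≤
      ENNReal.ofReal (‖h‖ ^ 2 * ∫ x in A, ∑ k, (u m).g k x ^ 2) := fun m => by
    have c1 : Measurable fun x => ENNReal.ofReal (‖h‖ ^ 2 * ‖fderiv ℝ (u m).f x‖ ^ 2) :=
      (continuous_const.mul
        (((hu m).1.continuous_fderiv (by simp)).norm.pow 2)).measurable.ennreal_ofReal
    have c2 : Measurable fun y : E3 => ∫⁻ s in Ioc (0 : ℝ) 1,
        ENNReal.ofReal (‖h‖ ^ 2 * ‖fderiv ℝ (u m).f (y + s • h)‖ ^ 2) :=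
      Measurable.lintegral_prod_right' (f := fun p : E3 × ℝ =>
        ENNReal.ofReal (‖h‖ ^ 2 * ‖fderiv ℝ (u m).f (p.1 + p.2 • h)‖ ^ 2)) (c1.comp (by fun_prop))
    refine (lintegral_mono_ae ?_).trans ((hm _ c2).trans ((ln_avg c1 h hA hB hAB).trans_eq ?_))
    · filter_upwards [hT] with z ⟨t, ht, e⟩
      rw [e]
      exact ln_pt (hu m).1 h (Y z) ht
    · rw [← integral_const_mul, ofReal_integral_eq_lintegral_ofReal
        ((integrable_finsetSum _ fun k _ => (u m).int_gsq k).const_mul _).integrableOn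
        (Eventually.of_forall fun x => by positivity)]
      simp only [(hu m).2.2, sum_sq_apply_e3]
  have h4 : ∀ m, Measurable fun z => ENNReal.ofReal (((u m).f (W z) - (u m).f (Y z)) ^ 2) :=
    fun m => ((((hu m).1.continuous.measurable.comp hW.measurable).sub
      ((hu m).1.continuous.measurable.comp hY.measurable)).pow_const 2).ennreal_ofReal
  have h5 := ENNReal.tendsto_ofReal ((ln_tend A h1).const_mul (‖h‖ ^ 2))
  refine le_trans (lintegral_congr_ae ?_).le ((lintegral_liminf_le (u := atTop) h4).trans ?_)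
  · filter_upwards [hW.ae h2, hY.ae h2] with z e1 e2
    exact (ENNReal.tendsto_ofReal ((e1.1.sub e2.1).pow 2)).liminf_eq.symm
  · rw [← h5.liminf_eq]
    exact liminf_le_liminf (Eventually.of_forall h3)

theorem ln_real {Z : Type} [MeasurableSpace Z] {μ : Measure Z} {f : Z → ℝ}
    (hf : AEStronglyMeasurable f μ) (h0 : ∀ z, 0 ≤ f z) {c : ℝ} (hc : 0 ≤ c)
    (h : ∫⁻ z, ENNReal.ofReal (f z) ∂μ ≤ ENNReal.ofReal c) :
    Integrable f μ ∧ ∫ z, f z ∂μ ≤ c := by
  refine ⟨⟨hf, (hasFiniteIntegral_iff_ofReal (Eventually.of_forall h0)).2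
    (h.trans_lt ENNReal.ofReal_lt_top)⟩, ?_⟩
  rw [integral_eq_lintegral_of_nonneg_ae (Eventually.of_forall h0) hf]
  exact ENNReal.toReal_le_of_le_ofReal hc h

theorem ln_nn (a : S e3) (h : E3) (A : Set E3) : 0 ≤ ‖h‖ ^ 2 * ∫ x in A, ∑ k, a.g k x ^ 2 :=
  mul_nonneg (sq_nonneg _) (integral_nonneg fun x => by positivity)

theorem ln_shift (a : S e3) (h : E3) {A B : Set E3} (hA : MeasurableSet A) (hB : MeasurableSet B)
    (hAB : ∀ y ∈ B, ∀ s ∈ Icc (0 : ℝ) 1, y + s • h ∈ A) :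
    IntegrableOn (fun y => (a.f (y + h) - a.f y) ^ 2) B ∧
      ∫ y in B, (a.f (y + h) - a.f y) ^ 2 ≤ ‖h‖ ^ 2 * ∫ x in A, ∑ k, a.g k x ^ 2 := by
  have q1 := (Measure.QuasiMeasurePreserving.id (volume : Measure E3)).mono_left
    (Measure.absolutelyContinuous_restrict (s := B))
  have q2 := (measurePreserving_add_right (volume : Measure E3) h).quasiMeasurePreserving.mono_left
    (Measure.absolutelyContinuous_restrict (s := B))
  exact ln_real (((a.mem.1.comp_quasiMeasurePreserving q2).sub a.mem.1.restrict).pow 2)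
    (fun y => sq_nonneg _) (ln_nn a h A) (ln_core a h hA hB hAB q1 q2
      (Eventually.of_forall fun y => ⟨1, right_mem_Icc.2 zero_le_one, by rw [one_smul]⟩)
      fun F _ => le_rfl)

theorem shift_sq_le (a : S e3) (h : E3) {A B : Set E3} (hA : MeasurableSet A) (hB : MeasurableSet B)
    (hAB : ∀ y ∈ B, ∀ s ∈ Icc (0 : ℝ) 1, y + s • h ∈ A) :
    ∫ y in B, (a.f (y + h) - a.f y) ^ 2 ≤ ‖h‖ ^ 2 * ∫ x in A, ∑ k, a.g k x ^ 2 := by
  exact (ln_shift a h hA hB hAB).2
theorem line_ineq (a : S e3) (h : E3) {A B : Set E3} (hA : MeasurableSet A) (hB : MeasurableSet B)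
    (hAB : ∀ y ∈ B, ∀ s ∈ Icc (0 : ℝ) 1, y + s • h ∈ A) {wt : E3 × ℝ → ℝ} (hwt : Measurable wt) {M : ℝ}
    (h0 : ∀ z, 0 ≤ wt z ∧ wt z ≤ M) (h1 : ∀ y, ∫ t in Icc (0 : ℝ) 1, wt (y, t) ≤ 1) :
    IntegrableOn (fun z : E3 × ℝ => wt z * (a.f (z.1 + z.2 • h) - a.f z.1) ^ 2) (B ×ˢ Icc 0 1) ∧
    ∫ z in B ×ˢ Icc (0 : ℝ) 1, wt z * (a.f (z.1 + z.2 • h) - a.f z.1) ^ 2 ≤
      ‖h‖ ^ 2 * ∫ x in A, ∑ k, a.g k x ^ 2 := by
  have hw := hwt.ennreal_ofReal
  have r1 := Measure.absolutelyContinuous_restrict (μ := (volume : Measure (E3 × ℝ)))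
    (s := B ×ˢ Icc (0 : ℝ) 1)
  have r2 := withDensity_absolutelyContinuous
    ((volume : Measure (E3 × ℝ)).restrict (B ×ˢ Icc (0 : ℝ) 1)) fun z => ENNReal.ofReal (wt z)
  have q1 : Measure.QuasiMeasurePreserving (fun z : E3 × ℝ => z.1) volume volume :=
    Measure.quasiMeasurePreserving_fst
  have q2 : Measure.QuasiMeasurePreserving (fun z : E3 × ℝ => z.1 + z.2 • h) volume volume :=
    QuasiMeasurePreserving.prod_of_left (by fun_prop) (Eventually.of_forall fun t =>
      (measurePreserving_add_right (volume : Measure E3) (t • h)).quasiMeasurePreserving)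
  have m1 : AEStronglyMeasurable (fun z : E3 × ℝ => (a.f (z.1 + z.2 • h) - a.f z.1) ^ 2)
      (volume.restrict (B ×ˢ Icc (0 : ℝ) 1)) :=
    ((a.mem.1.comp_quasiMeasurePreserving (q2.mono_left r1)).sub
      (a.mem.1.comp_quasiMeasurePreserving (q1.mono_left r1))).pow 2
  refine ln_real (f := fun z : E3 × ℝ => wt z * (a.f (z.1 + z.2 • h) - a.f z.1) ^ 2)
    (hwt.aestronglyMeasurable.mul m1) (fun z => mul_nonneg (h0 z).1 (sq_nonneg _))
    (ln_nn a h A) (le_trans (le_of_eq ?_) (ln_core a h hA hB hAB (q1.mono_left (r2.trans r1))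
      (q2.mono_left (r2.trans r1)) (r2.ae_le ?_) fun F hF => ?_))
  · rw [lintegral_withDensity_eq_lintegral_mul₀ hw.aemeasurable m1.aemeasurable.ennreal_ofReal]
    exact lintegral_congr fun z => ENNReal.ofReal_mul (h0 z).1
  · filter_upwards [ae_restrict_mem (hB.prod measurableSet_Icc)] with z hz
    exact ⟨z.2, hz.2, rfl⟩
  · have hF' : Measurable fun z : E3 × ℝ => F z.1 := hF.comp measurable_fst
    rw [lintegral_withDensity_eq_lintegral_mul _ hw hF', Measure.volume_eq_prod,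
      ← Measure.prod_restrict, lintegral_prod _ (hw.mul hF').aemeasurable]
    refine lintegral_mono fun y => ?_
    have m2 : Measurable fun t : ℝ => wt (y, t) := hwt.comp measurable_prodMk_left
    have i1 : IntegrableOn (fun t : ℝ => wt (y, t)) (Icc 0 1) :=
      Measure.integrableOn_of_bounded (M := M) (by simp) m2.aestronglyMeasurable
        (Eventually.of_forall fun t => by rw [Real.norm_of_nonneg (h0 _).1]; exact (h0 _).2)
    show ∫⁻ t in Icc (0 : ℝ) 1, ENNReal.ofReal (wt (y, t)) * F y ≤ F y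
    rw [lintegral_mul_const _ m2.ennreal_ofReal, ← ofReal_integral_eq_lintegral_ofReal i1
      (Eventually.of_forall fun t => (h0 _).1)]
    exact mul_le_of_le_one_left zero_le (ENNReal.ofReal_le_one.2 (h1 y))
theorem const_of_grad_zero (a : S e3) {O : Set E3} (hO : IsOpen O) {F : E3 → ℝ}
    (hF : ContinuousOn F O) (hf : ∀ᵐ x, x ∈ O → a.f x = F x)
    (hg : ∀ᵐ x, x ∈ O → ∀ k, a.g k x = 0) {p q : E3} (hpq : segment ℝ p q ⊆ O) : F p = F q := by
  have hc : IsCompact (segment ℝ p q) := by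
    rw [segment_eq_image']
    exact isCompact_Icc.image (by fun_prop)
  obtain ⟨δ, hδ, hs⟩ := hc.exists_thickening_subset_open hO hpq
  have hAB : ∀ y ∈ Metric.ball p δ, ∀ s ∈ Icc (0 : ℝ) 1, y + s • (q - p) ∈ O := fun y hy s h => by
    refine hs (Metric.mem_thickening_iff.2 ⟨p + s • (q - p), ?_, by simpa using hy⟩)
    rw [segment_eq_image']
    exact ⟨s, h, rfl⟩
  have b0 : ∀ y ∈ Metric.ball p δ, y ∈ O := fun y hy => by
    simpa using hAB y hy 0 (left_mem_Icc.2 zero_le_one)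
  have b1 : ∀ y ∈ Metric.ball p δ, y + (q - p) ∈ O := fun y hy => by
    simpa using hAB y hy 1 (right_mem_Icc.2 zero_le_one)
  obtain ⟨i1, i2⟩ := ln_shift a (q - p) hO.measurableSet measurableSet_ball hAB
  have e0 : ∫ x in O, ∑ k, a.g k x ^ 2 = 0 := by
    refine setIntegral_eq_zero_of_ae_eq_zero ?_
    filter_upwards [hg] with x hx hO
    simp [hx hO]
  rw [e0, mul_zero] at i2
  have e1 := (integral_eq_zero_iff_of_nonneg (fun y => sq_nonneg _) i1).1
    (le_antisymm i2 (integral_nonneg fun y => sq_nonneg _))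
  have e2 := (measurePreserving_add_right (volume : Measure E3) (q - p)).quasiMeasurePreserving.ae hf
  have e3 : EqOn F (fun y => F (y + (q - p))) (Metric.ball p δ) := by
    refine Measure.eqOn_open_of_ae_eq (μ := volume) ?_ Metric.isOpen_ball (hF.mono b0)
      (hF.comp (by fun_prop) b1)
    filter_upwards [e1, ae_restrict_of_ae hf, ae_restrict_of_ae e2,
      ae_restrict_mem measurableSet_ball] with y f1 f2 f3 f4
    rw [← f2 (b0 y f4), ← f3 (b1 y f4)]
    exact (sub_eq_zero.1 (pow_eq_zero_iff two_ne_zero |>.1 f1)).symm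
  simpa using e3 (Metric.mem_ball_self hδ)

end Vale.Agent.P363
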