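import Vale.Agent.P363.A.Fib1
import Vale.Agent.P363.A.Line

/-!
# P363 A/Fib2  (TASK)

`exists_sqrt`: `√n` satisfies `‖√n (· + p) - √n‖₂ ≤ C ‖p‖` (slices, `shift_sq_le`), so it has weak derivatives in `L²` (Hahn-Banach and Riesz);
they are identified with `wd_mul`, `wd_n`, `WD.unique`.  `sub`: take `μ = min η M * u / (u² + ε²)` and let `M → ∞`, `ε → 0` together.
-/

open MeasureTheory Filter Topology Set
open scoped ContDiff

set_option linter.unusedSectionVars false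

noncomputable section

namespace Vale.Agent.P363

variable {Y : Type} [MeasurableSpace Y] {ν : Measure Y} [SFinite ν]

section Aux
variable {X : Type} [MeasurableSpace X] {μ : Measure X} {f g : X → ℝ}

theorem fib2_inner (hf : MemLp f 2 μ) (hg : MemLp g 2 μ) :
    inner ℝ (hf.toLp f) (hg.toLp g) = ∫ x, f x * g x ∂μ := by
  rw [L2.inner_def]
  refine integral_congr_ae ?_
  filter_upwards [hf.coeFn_toLp, hg.coeFn_toLp] with x h1 h2
  simp [h1, h2, mul_comm]

theorem fib2_norm (hf : MemLp f 2 μ) : ‖hf.toLp f‖ = √(∫ x, f x ^ 2 ∂μ) := by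
  rw [norm_eq_sqrt_real_inner, fib2_inner]
  simp only [sq]

theorem fib2_cs (hf : MemLp f 2 μ) (hg : MemLp g 2 μ) :
    |∫ x, f x * g x ∂μ| ≤ √(∫ x, f x ^ 2 ∂μ) * √(∫ x, g x ^ 2 ∂μ) := by
  rw [← fib2_inner hf hg, ← fib2_norm hf, ← fib2_norm hg]
  exact abs_real_inner_le_norm _ _

theorem fib2_tri (hf : MemLp f 2 μ) (hg : MemLp g 2 μ) :
    (√(∫ x, f x ^ 2 ∂μ) - √(∫ x, g x ^ 2 ∂μ)) ^ 2 ≤ ∫ x, (f x - g x) ^ 2 ∂μ := by
  have h := abs_norm_sub_norm_le (hf.toLp f) (hg.toLp g)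
  rw [← MemLp.toLp_sub, fib2_norm, fib2_norm, fib2_norm] at h
  rw [← sq_abs]
  exact (pow_le_pow_left₀ (abs_nonneg _) h 2).trans_eq
    (Real.sq_sqrt (integral_nonneg fun _ => sq_nonneg _))

theorem fib2_riesz {E H : Type} [AddCommGroup E] [Module ℝ E] [NormedAddCommGroup H]
    [InnerProductSpace ℝ H] [CompleteSpace H] (T : E →ₗ[ℝ] H) (Λ : E →ₗ[ℝ] ℝ) {C : ℝ}
    (h : ∀ x, |Λ x| ≤ C * ‖T x‖) : ∃ g : H, ∀ x, Λ x = inner ℝ (T x) g := by
  have hk : LinearMap.ker T ≤ LinearMap.ker Λ := fun x hx => by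
    have := h x
    rw [LinearMap.mem_ker.1 hx, norm_zero, mul_zero] at this
    exact abs_nonpos_iff.1 this
  obtain ⟨l, hl⟩ : ∃ l : LinearMap.range T →ₗ[ℝ] ℝ, ∀ x, l ⟨T x, x, rfl⟩ = Λ x :=
    ⟨((LinearMap.ker T).liftQ Λ hk).comp T.quotKerEquivRange.symm.toLinearMap, fun x =>
      congrArg ((LinearMap.ker T).liftQ Λ hk) (T.quotKerEquivRange_symm_apply_image x _)⟩
  obtain ⟨g, hg, -⟩ := exists_extension_norm_eq (LinearMap.range T) (l.mkContinuous C (by
    rintro ⟨_, x, rfl⟩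
    rw [hl]
    exact h x))
  refine ⟨(InnerProductSpace.toDual ℝ H).symm g, fun x => ?_⟩
  rw [real_inner_comm, InnerProductSpace.toDual_symm_apply, ← hl]
  exact (hg ⟨T x, x, rfl⟩).symm

end Aux

open scoped Convolution in
theorem fib2_bound {u : E3 → ℝ} (hu : MemLp u 2 volume) {C : ℝ} (hC : 0 ≤ C)
    (h : ∀ p, √(∫ x, (u (x + p) - u x) ^ 2) ≤ C * ‖p‖) (w : E3) {φ : E3 → ℝ}
    (h1 : ContDiff ℝ ∞ φ) (h2 : HasCompactSupport φ) :
    |∫ x, fderiv ℝ φ x w * u x| ≤ C * ‖w‖ * √(∫ x, φ x ^ 2) := by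
  have hl : LocallyIntegrable (fun x => u (-x)) volume :=
    (hu.comp_measurePreserving (Measure.measurePreserving_neg volume)).locallyIntegrable one_le_two
  have hφ : MemLp φ 2 volume := h1.continuous.memLp_of_hasCompactSupport h2
  have hd := h2.hasFDerivAt_convolution_right (ContinuousLinearMap.mul ℝ ℝ) hl (h1.of_le (by simp)) 0
  have hb := hd.le_of_lip' (C := C * √(∫ x, φ x ^ 2)) (by positivity) (.of_forall fun p => ?_)
  · have e := convolution_precompR_apply (ContinuousLinearMap.mul ℝ ℝ) hl (h2.fderiv ℝ)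
      (h1.continuous_fderiv (by simp)) 0 w
    rw [convolution_mul_swap] at e
    simp only [zero_sub, neg_neg, mul_comm (u _)] at e
    rw [← e]
    exact (ContinuousLinearMap.le_of_opNorm_le _ hb w).trans_eq (by ring)
  · have hp : MemLp (fun x => u (x + -p)) 2 volume :=
      hu.comp_measurePreserving (measurePreserving_add_right volume (-p))
    rw [convolution_mul_swap, convolution_mul_swap]
    simp only [zero_sub, neg_neg, neg_sub, sub_zero, sub_eq_add_neg _ p]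
    have i1 : Integrable fun x => u (x + -p) * φ x := hp.integrable_mul hφ
    have i2 : Integrable fun x => u x * φ x := hu.integrable_mul hφ
    rw [← integral_sub i1 i2]
    simp only [← sub_mul]
    refine (fib2_cs (hp.sub hu) hφ).trans ?_
    have := mul_le_mul_of_nonneg_right (h (-p)) (Real.sqrt_nonneg (∫ x, φ x ^ 2))
    rw [norm_neg] at this
    exact this.trans_eq (by ring)

theorem fib2_wd {u : E3 → ℝ} (hu : MemLp u 2 volume) {C : ℝ} (hC : 0 ≤ C)
    (h : ∀ p, √(∫ x, (u (x + p) - u x) ^ 2) ≤ C * ‖p‖) (w : E3) :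
    ∃ g, MemLp g 2 volume ∧ WD w u g := by
  let E : Submodule ℝ (E3 → ℝ) :=
    { carrier := {φ | ContDiff ℝ ∞ φ ∧ HasCompactSupport φ}
      zero_mem' := ⟨contDiff_const, HasCompactSupport.zero⟩
      add_mem' := fun a b => ⟨a.1.add b.1, a.2.add b.2⟩
      smul_mem' := fun c φ a => ⟨a.1.const_smul c, a.2.smul_left (f := fun _ => c)⟩ }
  have hm : ∀ φ : E, MemLp φ.1 2 volume := fun φ =>
    φ.2.1.continuous.memLp_of_hasCompactSupport φ.2.2
  have hd : ∀ (φ : E) x, DifferentiableAt ℝ φ.1 x := fun φ x => φ.2.1.differentiable (by simp) x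
  let T : E →ₗ[ℝ] Lp ℝ 2 (volume : Measure E3) :=
    { toFun := fun φ => (hm φ).toLp φ.1
      map_add' := fun a b => MemLp.toLp_add _ _
      map_smul' := fun c a => MemLp.toLp_const_smul _ _ }
  let Λ : E →ₗ[ℝ] ℝ :=
    { toFun := fun φ => ∫ x, fderiv ℝ φ.1 x w * u x
      map_add' := fun a b => by
        rw [← integral_add (int_test' w a.2.1 a.2.2 hu) (int_test' w b.2.1 b.2.2 hu)]
        refine integral_congr_ae (.of_forall fun x => ?_)
        simp only [Submodule.coe_add, fderiv_add (hd a x) (hd b x), add_apply]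
        ring
      map_smul' := fun c a => by
        rw [RingHom.id_apply, smul_eq_mul, ← integral_const_mul]
        refine integral_congr_ae (.of_forall fun x => ?_)
        simp only [Submodule.coe_smul, fderiv_const_smul (hd a x), smul_apply,
          smul_eq_mul]
        ring }
  obtain ⟨g, hg⟩ := fib2_riesz T Λ (C := C * ‖w‖) fun φ =>
    (fib2_bound hu hC h w φ.2.1 φ.2.2).trans_eq (by rw [← fib2_norm (hm φ)]; rfl)
  refine ⟨fun x => -g x, (Lp.memLp g).neg, fun φ h1 h2 => (hg ⟨φ, h1, h2⟩).trans ?_⟩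
  simp only [mul_neg, integral_neg, neg_neg]
  rw [← fib2_inner (hm ⟨φ, h1, h2⟩) (Lp.memLp g), Lp.toLp_coeFn]
  rfl

namespace Fib

/-- `u` is the square root of the density. -/
structure IsSqrt (A : Fib ν) (u : S e3) : Prop where
  f : ∀ x, u.f x = √(A.n x)
  J : ∀ k, ∀ᵐ x, u.f x * u.g k x = A.J k x
  le : ∀ᵐ x, ∑ k, u.g k x ^ 2 ≤ A.tau x

theorem fib2_shift (A : Fib ν) (hu : MemLp (fun x => √(A.n x)) 2 volume) (p : E3) :
    ∫ x, (√(A.n (x + p)) - √(A.n x)) ^ 2 ≤ (∫ x, A.tau x) * ‖p‖ ^ 2 := by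
  have hp := measurePreserving_add_right (volume : Measure E3) p
  have hG : Integrable (fun z : E3 × Y => (A.F (z.1 + p) z.2 - A.F z.1 z.2) ^ 2) (volume.prod ν) :=
    ((A.mF.comp_measurePreserving (hp.prod (MeasurePreserving.id ν))).sub A.mF).integrable_sq
  calc _ ≤ ∫ x, ∫ y, (A.F (x + p) y - A.F x y) ^ 2 ∂ν := by
        refine integral_mono_ae ((hu.comp_measurePreserving hp).sub hu).integrable_sq
          hG.integral_prod_left ?_
        filter_upwards [A.mem_ae, hp.quasiMeasurePreserving.ae A.mem_ae] with x h1 h2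
        exact fib2_tri h2.1 h1.1
    _ = ∫ y, (∫ x, (A.F (x + p) y - A.F x y) ^ 2) ∂ν := integral_integral_swap hG
    _ ≤ ∫ y, 2 * ‖p‖ ^ 2 * kin (A.sl y) (A.sl y) ∂ν := by
        refine integral_mono_ae hG.integral_prod_right (A.int_kin_sl.1.const_mul _) ?_
        filter_upwards [A.sl_ae] with y hy
        have := shift_sq_le (A.sl y) p .univ .univ fun _ _ _ _ => trivial
        simp only [Measure.restrict_univ, hy.1] at this
        rw [kin_self]
        exact this.trans_eq (by ring)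
    _ = _ := by
        rw [integral_const_mul, A.int_kin_sl.2]
        ring

theorem exists_sqrt (A : Fib ν) : ∃ u : S e3, A.IsSqrt u := by
  have hu : MemLp (fun x => √(A.n x)) 2 volume :=
    (memLp_two_iff_integrable_sq (Real.continuous_sqrt.comp_aestronglyMeasurable A.int_n.1)).2
      (by simpa only [Real.sq_sqrt (A.n_nonneg _)] using A.int_n)
  choose g hg wd using fib2_wd hu (Real.sqrt_nonneg (∫ x, A.tau x)) fun p =>
    (Real.sqrt_le_sqrt (A.fib2_shift hu p)).trans_eq (by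
      rw [Real.sqrt_mul' _ (sq_nonneg _), Real.sqrt_sq (norm_nonneg _)])
  obtain ⟨u, h1⟩ : ∃ u : S e3, ∀ x, u.f x = √(A.n x) :=
    ⟨S.of (g := fun k => g (e3 k)) ⟨hu, fun k => hg _, fun k => wd _⟩, fun _ => rfl⟩
  have h2 : ∀ x, u.f x * u.f x = A.n x := fun x => by rw [h1, Real.mul_self_sqrt (A.n_nonneg x)]
  have h3 : ∀ k, ∀ᵐ x, u.f x * u.g k x = A.J k x := fun k => by
    have i1 := u.mem.integrable_mul (u.gmem k)
    have i2 := (u.gmem k).integrable_mul u.mem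
    filter_upwards [(wd_mul u u k).unique (A.wd_n k) (i1.add i2).locallyIntegrable
      ((A.int_J k).const_mul 2).locallyIntegrable (.of_forall h2)] with x hx
    linarith
  refine ⟨u, h1, h3, ?_⟩
  filter_upwards [ae_all_iff.2 h3, A.J_sq_le, u.g_zero] with x a b c
  by_cases h : u.f x = 0
  · simpa [c h] using A.tau_nonneg x
  · simp only [← a, ← h2, mul_pow, ← Finset.mul_sum, ← sq] at b
    exact le_of_mul_le_mul_left b (by positivity)

theorem fib2_H {M : ℝ} (hM : 0 < M) (t : ℝ) : HasDerivAt (fun t : ℝ => t / (t ^ 2 + M⁻¹))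
    ((M⁻¹ - t ^ 2) / (t ^ 2 + M⁻¹) ^ 2) t ∧ |(M⁻¹ - t ^ 2) / (t ^ 2 + M⁻¹) ^ 2| ≤ (t ^ 2 + M⁻¹)⁻¹ ∧
    (t ^ 2 + M⁻¹)⁻¹ ≤ M ∧ |t| * (t ^ 2 + M⁻¹)⁻¹ ≤ M + 1 := by
  have h : 0 < t ^ 2 + M⁻¹ := by positivity
  have h' : 0 < M⁻¹ := by positivity
  refine ⟨((hasDerivAt_id t).div (((hasDerivAt_id t).pow 2).add_const M⁻¹) h.ne').congr_deriv ?_,
    ?_, inv_le_of_inv_le₀ hM (by nlinarith), ?_⟩
  · simp only [id, Pi.pow_apply]
    ring
  · rw [abs_div, abs_of_pos (pow_pos h 2), div_le_iff₀ (pow_pos h 2), sq (_ + _),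
      inv_mul_cancel_left₀ h.ne', abs_le]
    constructor <;> nlinarith
  · rw [← div_eq_mul_inv, div_le_iff₀ h, ← sq_abs]
    nlinarith [mul_inv_cancel₀ hM.ne', sq_nonneg (|t| - 1), mul_nonneg hM.le (sq_nonneg |t|),
      abs_nonneg t]

theorem IsSqrt.step {A : Fib ν} {u : S e3} (hu : A.IsSqrt u) {U : E3 → ℝ}
    (h : ∀ μ : S e3, (∃ C : ℝ, ∀ᵐ x, 0 ≤ μ.f x ∧ μ.f x ≤ C) →
      (∀ k, Integrable fun x => A.n x * μ.g k x ^ 2) →
      1 / 2 * (∫ x, (μ.f x * A.tau x + ∑ k, μ.g k x * A.J k x)) + ∫ x, U x * (μ.f x * A.n x) ≤ 0)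
    (a : S e3) {M : ℝ} (hM : 0 < M) (ha : ∀ᵐ x, 0 ≤ a.f x ∧ a.f x ≤ M) :
    1 / 2 * (∫ x, u.f x ^ 2 / (u.f x ^ 2 + M⁻¹) * ∑ k, u.g k x * a.g k x) +
      ∫ x, u.f x ^ 2 / (u.f x ^ 2 + M⁻¹) * (U x * (u.f x * a.f x)) ≤ 0 := by
  have u0 : ∀ x, 0 ≤ u.f x := fun x => hu.f x ▸ Real.sqrt_nonneg _
  have un : ∀ x, A.n x = u.f x ^ 2 := fun x => by rw [hu.f, Real.sq_sqrt (A.n_nonneg x)]
  have hb := chain1 u (fun t => (fib2_H hM t).1) (by fun_prop (disch := intro t; positivity))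
    (fun t => (fib2_H hM t).2.1.trans (fib2_H hM t).2.2.1) (by simp)
  have b1 : ∀ x, 0 ≤ u.f x / (u.f x ^ 2 + M⁻¹) ∧ u.f x / (u.f x ^ 2 + M⁻¹) ≤ M + 1 := fun x =>
    ⟨div_nonneg (u0 x) (by positivity), by
      simpa only [abs_of_nonneg (u0 x), div_eq_mul_inv] using (fib2_H hM (u.f x)).2.2.2⟩
  have t1 : ∀ x, |u.f x ^ 2 / (u.f x ^ 2 + M⁻¹)| ≤ 1 := fun x => by
    rw [abs_of_nonneg (by positivity), div_le_one (by positivity)]
    exact le_add_of_nonneg_right (by positivity)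
  obtain ⟨μ, m1, m2⟩ : ∃ μ : S e3, (∀ x, μ.f x = a.f x * (u.f x / (u.f x ^ 2 + M⁻¹))) ∧ ∀ k x,
      μ.g k x = a.f x * ((M⁻¹ - u.f x ^ 2) / (u.f x ^ 2 + M⁻¹) ^ 2 * u.g k x) +
        a.g k x * (u.f x / (u.f x ^ 2 + M⁻¹)) :=
    ⟨S.of (mul_bdd a (S.of hb) (C := M + 1) (ha.mono fun x hx => abs_le.2 ⟨by linarith, by linarith⟩)
      (.of_forall fun x => (abs_of_nonneg (b1 x).1).trans_le (b1 x).2)), fun _ => rfl, fun _ _ => rfl⟩
  have μb : ∀ᵐ x, 0 ≤ μ.f x ∧ μ.f x ≤ M * (M + 1) := ha.mono fun x hx => by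
    rw [m1]
    exact ⟨mul_nonneg hx.1 (b1 x).1, mul_le_mul hx.2 (b1 x).2 (b1 x).1 hM.le⟩
  have l2 : ∀ k, MemLp (fun x => u.f x * μ.g k x) 2 volume := fun k => by
    refine (((u.gmem k).abs.const_mul (M * (M + 1))).add (a.gmem k).abs).mono'
      (u.mem.1.mul (μ.gmem k).1) (ha.mono fun x hx => ?_)
    have e : u.f x * μ.g k x = a.f x * (u.f x * ((M⁻¹ - u.f x ^ 2) / (u.f x ^ 2 + M⁻¹) ^ 2)) *
        u.g k x + u.f x ^ 2 / (u.f x ^ 2 + M⁻¹) * a.g k x := by
      rw [m2]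
      ring
    rw [e, Real.norm_eq_abs]
    refine (abs_add_le _ _).trans (add_le_add ?_ ?_)
    · rw [abs_mul, abs_mul, abs_mul, abs_of_nonneg hx.1]
      exact mul_le_mul_of_nonneg_right (mul_le_mul hx.2 ((mul_le_mul_of_nonneg_left
        (fib2_H hM _).2.1 (abs_nonneg _)).trans (fib2_H hM _).2.2.2) (by positivity) hM.le)
        (abs_nonneg _)
    · rw [abs_mul]
      exact mul_le_of_le_one_left (abs_nonneg _) (t1 x)
  refine le_trans (add_le_add (mul_le_mul_of_nonneg_left (integral_mono_ae ?_ ?_ ?_) (by norm_num))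
    (integral_congr_ae (.of_forall fun x => ?_)).le)
    (h μ ⟨_, μb⟩ fun k => by simpa only [un, mul_pow] using (l2 k).integrable_sq)
  · have := u.mem.1.aemeasurable
    exact (integrable_finsetSum _ fun k _ => u.int_gmul a k k).bdd_mul
      (by fun_prop : AEMeasurable _ _).aestronglyMeasurable (.of_forall t1)
  · refine (A.int_tau.bdd_mul μ.mem.1 (μb.mono fun x hx => (abs_of_nonneg hx.1).trans_le hx.2)).add
      (integrable_finsetSum _ fun k _ => ((l2 k).integrable_mul (u.gmem k)).congr ?_)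
    filter_upwards [hu.J k] with x hx
    rw [← hx, Pi.mul_apply]
    ring
  · filter_upwards [ae_all_iff.2 hu.J, hu.le, ha] with x h1 h2 h3
    have p1 := mul_nonneg (mul_nonneg h3.1 (b1 x).1) (sub_nonneg.2 h2)
    have p2 : 0 ≤ a.f x * (2 * u.f x * M⁻¹ / (u.f x ^ 2 + M⁻¹) ^ 2) * ∑ k, u.g k x ^ 2 := by
      have := u0 x
      have := h3.1
      positivity
    have : 0 < u.f x ^ 2 + M⁻¹ := by positivity
    refine (le_add_of_nonneg_right (add_nonneg p1 p2)).trans_eq ?_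
    simp only [m1, m2, ← h1, Fin.sum_univ_three]
    generalize M⁻¹ = d at *
    field_simp
    ring
  · simp only [m1, un]
    ring

theorem fib2_lim {t c : ℝ} (h : t = 0 → c = 0) :
    Tendsto (fun m : ℕ => t ^ 2 / (t ^ 2 + ((m : ℝ) + 1)⁻¹) * c) atTop (𝓝 c) := by
  by_cases ht : t = 0
  · simp [h ht]
  · have h1 := (tendsto_const_nhds (x := t ^ 2)).add (tendsto_inv_atTop_zero.comp
      (tendsto_atTop_add_const_right atTop (1 : ℝ) tendsto_natCast_atTop_atTop))
    have h2 := ((tendsto_const_nhds (x := t ^ 2)).div h1 (by positivity)).mul_const c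
    rwa [add_zero, div_self (by positivity), one_mul] at h2

/-- The square root of the density is a subsolution. -/
theorem IsSqrt.sub {A : Fib ν} {u : S e3} (hu : A.IsSqrt u) {U : E3 → ℝ} (hU : FB e3 U)
    (h : ∀ μ : S e3, (∃ C : ℝ, ∀ᵐ x, 0 ≤ μ.f x ∧ μ.f x ≤ C) →
      (∀ k, Integrable fun x => A.n x * μ.g k x ^ 2) →
      1 / 2 * (∫ x, (μ.f x * A.tau x + ∑ k, μ.g k x * A.J k x)) + ∫ x, U x * (μ.f x * A.n x) ≤ 0)
    (η : S e3) (hη : ∀ᵐ x, 0 ≤ η.f x) : qf U u η ≤ 0 := by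
  have hM : ∀ m : ℕ, (0 : ℝ) < m + 1 := fun m => by positivity
  obtain ⟨a, a1, a2⟩ : ∃ a : ℕ → S e3, (∀ m x, (a m).f x = min (η.f x) (m + 1)) ∧
      ∀ m k x, (a m).g k x = if η.f x ≤ m + 1 then η.g k x else 0 :=
    ⟨fun m => S.of (minPart η (hM m).le), fun _ _ => rfl, fun _ _ _ => rfl⟩
  have t1 : ∀ (m : ℕ) x (c : ℝ), ‖u.f x ^ 2 / (u.f x ^ 2 + ((m : ℝ) + 1)⁻¹) * c‖ ≤ |c| :=
    fun m x c => by
      rw [norm_mul, Real.norm_of_nonneg (by positivity)]
      exact mul_le_of_le_one_left (abs_nonneg _) ((div_le_one₀ (by positivity)).2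
        (le_add_of_nonneg_right (by positivity)))
  have ev : ∀ x, ∀ᶠ m : ℕ in atTop, η.f x ≤ m + 1 := fun x =>
    (tendsto_atTop_add_const_right atTop (1 : ℝ) tendsto_natCast_atTop_atTop).eventually_ge_atTop _
  have um := u.mem.1.aemeasurable
  have i1 := fun b : S e3 => integrable_finsetSum Finset.univ fun k _ => u.int_gmul b k k
  have l1 := tendsto_integral_of_dominated_convergence
    (F := fun (m : ℕ) x => u.f x ^ 2 / (u.f x ^ 2 + ((m : ℝ) + 1)⁻¹) * ∑ k, u.g k x * (a m).g k x)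
    (f := fun x => ∑ k, u.g k x * η.g k x) _
    (fun m => (by fun_prop : AEMeasurable _ _).aestronglyMeasurable.mul (i1 (a m)).1) (i1 η).abs
    (fun m => .of_forall fun x => (t1 m x _).trans (by
      simp only [a2]
      split_ifs <;> simp))
    (u.g_zero.mono fun x hx => (fib2_lim (t := u.f x) fun h => by simp [hx h]).congr'
      ((ev x).mono fun m hm => by simp only [a2, if_pos hm]))
  have l2 := tendsto_integral_of_dominated_convergence
    (F := fun (m : ℕ) x => u.f x ^ 2 / (u.f x ^ 2 + ((m : ℝ) + 1)⁻¹) * (U x * (u.f x * (a m).f x)))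
    (f := fun x => U x * (u.f x * η.f x)) _
    (fun m => (by fun_prop : AEMeasurable _ _).aestronglyMeasurable.mul (hU.int u (a m)).1)
    (hU.int u η).abs (fun m => hη.mono fun x hx => (t1 m x _).trans (by
      simp only [a1, abs_mul, abs_of_nonneg hx, abs_of_nonneg (le_min hx (hM m).le)]
      gcongr
      exact min_le_left _ _))
    (.of_forall fun x => (fib2_lim (t := u.f x) fun h => by simp [h]).congr'
      ((ev x).mono fun m hm => by simp only [a1, min_eq_left hm]))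
  rw [qf, kin_eq]
  exact le_of_tendsto' ((l1.const_mul (1 / 2)).add l2) fun m => hu.step h (a m) (hM m)
    (hη.mono fun x hx => by rw [a1]; exact ⟨le_min hx (hM m).le, min_le_right _ _⟩)

/-- Multiplying the slices by `μ`. -/
theorem mul_sl (A : Fib ν) (μ : S e3) {C : ℝ} (hC : ∀ᵐ x, |μ.f x| ≤ C)
    (hi : ∀ k, Integrable fun x => A.n x * μ.g k x ^ 2) {U : E3 → ℝ} (hU : FB e3 U) :
    ∃ b : Y → S e3, (∀ᵐ y ∂ν, ∀ x, (b y).f x = μ.f x * A.F x y) ∧
      Integrable (fun y => qf U (A.sl y) (b y)) ν ∧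
      ∫ y, qf U (A.sl y) (b y) ∂ν =
        1 / 2 * (∫ x, (μ.f x * A.tau x + ∑ k, μ.g k x * A.J k x)) + ∫ x, U x * (μ.f x * A.n x) := by
  have q := Measure.quasiMeasurePreserving_fst (μ := (volume : Measure E3)) (ν := ν)
  have m0 := μ.mem.1.comp_quasiMeasurePreserving q
  have l1 : ∀ k, MemLp (fun z : E3 × Y => μ.g k z.1 * A.F z.1 z.2) 2 (volume.prod ν) := fun k => by
    have m1 := ((μ.gmem k).1.comp_quasiMeasurePreserving q).mul A.mF.1
    refine (memLp_two_iff_integrable_sq m1).2 ((integrable_prod_iff (m1.pow 2)).2 ⟨?_, (hi k).congr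
      (.of_forall fun x => ?_)⟩)
    · filter_upwards [A.mem_ae] with x hx
      exact (hx.1.const_mul (μ.g k x)).integrable_sq
    · simp [n, mul_pow, integral_mul_const, mul_comm (μ.g k x ^ 2)]
  have l2 : ∀ k, MemLp (fun z : E3 × Y => μ.f z.1 * A.D k z.1 z.2 + μ.g k z.1 * A.F z.1 z.2) 2
      (volume.prod ν) := fun k => by
    refine MemLp.add (((A.mD k).abs.const_mul C).mono' (m0.mul (A.mD k).1) ?_) (l1 k)
    filter_upwards [q.ae hC] with z hz
    rw [norm_mul]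
    exact mul_le_mul_of_nonneg_right hz (abs_nonneg _)
  have K1 : Integrable (fun z : E3 × Y => ∑ k, A.D k z.1 z.2 *
      (μ.f z.1 * A.D k z.1 z.2 + μ.g k z.1 * A.F z.1 z.2)) (volume.prod ν) :=
    integrable_finsetSum _ fun k _ => (A.mD k).integrable_mul (l2 k)
  have K2 : Integrable (fun z : E3 × Y => μ.f z.1 * (U z.1 * A.F z.1 z.2 ^ 2)) (volume.prod ν) :=
    (A.int_pot_sl hU).1.bdd_mul m0 (q.ae hC)
  have ex : ∀ᵐ y ∂ν, ∃ b : S e3, (∀ x, b.f x = μ.f x * A.F x y) ∧ qf U (A.sl y) b =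
      1 / 2 * (∫ x, ∑ k, A.D k x y * (μ.f x * A.D k x y + μ.g k x * A.F x y)) +
        ∫ x, μ.f x * (U x * A.F x y ^ 2) := by
    filter_upwards [A.sl_ae, ae_all_iff.2 fun k => (l2 k).integrable_sq.prod_left_ae,
      ae_all_iff.2 fun k => (l2 k).1.prodMk_right] with y h1 h2 h3
    have hb := mul_mem μ (A.sl y) (((A.sl y).mem.abs.const_mul C).mono' (μ.mem.1.mul (A.sl y).mem.1)
      (hC.mono fun x hx => (norm_mul _ _).trans_le (mul_le_mul_of_nonneg_right hx (abs_nonneg _))))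
      fun k => by simpa only [h1.1, h1.2] using (memLp_two_iff_integrable_sq (h3 k)).2 (h2 k)
    refine ⟨S.of hb, fun x => by simp [h1.1], ?_⟩
    simp only [qf, kin_eq, pot, S.of_f, S.of_g, h1.1, h1.2]
    congr 2
    ext x
    ring
  choose! b hb using fun y =>
    (fun h : ∃ b : S e3, (∀ x, b.f x = μ.f x * A.F x y) ∧ qf U (A.sl y) b =
      1 / 2 * (∫ x, ∑ k, A.D k x y * (μ.f x * A.D k x y + μ.g k x * A.F x y)) +
        ∫ x, μ.f x * (U x * A.F x y ^ 2) => h)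
  have e := ex.mono fun y hy => (hb y hy).2
  have j1 := K1.integral_prod_right.const_mul (1 / 2)
  refine ⟨b, ex.mono fun y hy => (hb y hy).1, (j1.add K2.integral_prod_right).congr
    (EventuallyEq.symm e), ?_⟩
  rw [integral_congr_ae e, integral_add j1 K2.integral_prod_right, integral_const_mul,
    ← integral_prod_symm _ K1, ← integral_prod_symm _ K2, integral_prod _ K1, integral_prod _ K2]
  congr 1
  · congr 1
    refine integral_congr_ae (A.mem_ae.mono fun x hx => ?_)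
    have i1 : ∀ k, Integrable (fun y => μ.f x * A.D k x y ^ 2) ν := fun k =>
      (hx.2 k).integrable_sq.const_mul _
    have i2 : ∀ k, Integrable (fun y => μ.g k x * (A.F x y * A.D k x y)) ν := fun k =>
      (hx.1.integrable_mul (hx.2 k)).const_mul _
    simp only [tau, J, Finset.mul_sum, ← integral_const_mul, ← Finset.sum_add_distrib,
      ← integral_add (i1 _) (i2 _)]
    refine Eq.trans ?_ (integral_finsetSum _ fun k _ => (i1 k).add (i2 k))
    exact integral_congr_ae (.of_forall fun y => Finset.sum_congr rfl fun k _ => by ring)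
  · simp only [n, integral_const_mul, mul_left_comm (U _)]

end Fib

end Vale.Agent.P363
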