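import Vale.Agent.P363.Iface

/-!
# P363 A/Fib3  (TASK)

The slices satisfy `rem (sl y) = sl y - ∑ red (orb j) y • orb j` (`ip_sl`), which is again a fibred function `B` with `B.F x y = A.F x y - ∑ j, red (orb j) y * orb j x`;
`defect = ∫ B.n + ½ ∫ B.tau`, `rem (A.pr Ξ) = B.pr Ξ` a.e. (`ip_pr`), then `hn_pr_le`.  `dens_expand`: `n = ∑ gam i j orb i orb j + 2 ∫ (F - B.F) B.F + B.n` a.e., Cauchy-Schwarz.
-/

open MeasureTheory Filter Topology Set
open scoped ContDiff

set_option linter.unusedSectionVars false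

noncomputable section

namespace Vale.Agent.P363

variable {Y : Type} [MeasurableSpace Y] {ν : Measure Y} [SFinite ν]

theorem fib3_mul_mem {f : E3 → ℝ} {g : Y → ℝ} (hf : MemLp f 2 volume) (hg : MemLp g 2 ν) :
    MemLp (fun z : E3 × Y => g z.2 * f z.1) 2 ((volume : Measure E3).prod ν) := by
  have hm : AEStronglyMeasurable (fun z : E3 × Y => g z.2 * f z.1)
      ((volume : Measure E3).prod ν) := hg.1.comp_snd.mul hf.1.comp_fst
  rw [memLp_two_iff_integrable_sq hm]
  have := ((memLp_two_iff_integrable_sq hf.1).1 hf).mul_prod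
    ((memLp_two_iff_integrable_sq hg.1).1 hg)
  refine this.congr (ae_of_all _ fun z => ?_)
  simp only
  ring

theorem fib3_rem_f (a : S e3) (x : E3) :
    (rem a).f x = a.f x - ∑ j, ip (orb j) a * (orb j).f x := by
  simp only [rem, S.sub_f, S.sum_f, S.smul_f]

theorem fib3_rem_g (a : S e3) (k : Fin 3) (x : E3) :
    (rem a).g k x = a.g k x - ∑ j, ip (orb j) a * (orb j).g k x := by
  simp only [rem, S.sub_g, S.sum_g, S.smul_g]

theorem fib3_opt {X N D : ℝ} (hN : 0 ≤ N) (hD : 0 ≤ D)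
    (h : ∀ t : ℝ, 0 < t → X ≤ t * N + t⁻¹ * D) : X ≤ 2 * √N * √D := by
  have key : ∀ ε : ℝ, 0 < ε → X ≤ 2 * (√N + ε) * (√D + ε) := by
    intro ε hε
    have ha : 0 < √N + ε := by positivity
    have hb : 0 < √D + ε := by positivity
    have h1 := h ((√D + ε) / (√N + ε)) (div_pos hb ha)
    have e1 : N ≤ (√N + ε) ^ 2 := by
      nlinarith [Real.sq_sqrt hN, Real.sqrt_nonneg N]
    have e2 : D ≤ (√D + ε) ^ 2 := by
      nlinarith [Real.sq_sqrt hD, Real.sqrt_nonneg D]
    have f1 : (√D + ε) / (√N + ε) * N ≤ (√N + ε) * (√D + ε) := by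
      calc (√D + ε) / (√N + ε) * N ≤ (√D + ε) / (√N + ε) * (√N + ε) ^ 2 :=
            mul_le_mul_of_nonneg_left e1 (div_pos hb ha).le
        _ = (√N + ε) * (√D + ε) := by field_simp
    have f2 : ((√D + ε) / (√N + ε))⁻¹ * D ≤ (√N + ε) * (√D + ε) := by
      calc ((√D + ε) / (√N + ε))⁻¹ * D ≤ ((√D + ε) / (√N + ε))⁻¹ * (√D + ε) ^ 2 :=
            mul_le_mul_of_nonneg_left e2 (inv_pos.2 (div_pos hb ha)).le
        _ = (√N + ε) * (√D + ε) := by field_simp
    linarith
  have hc : Continuous fun ε : ℝ => 2 * (√N + ε) * (√D + ε) := by fun_prop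
  have ht : Tendsto (fun ε : ℝ => 2 * (√N + ε) * (√D + ε)) (𝓝[>] 0) (𝓝 (2 * √N * √D)) := by
    have := (hc.tendsto 0).mono_left (nhdsWithin_le_nhds (s := Ioi (0 : ℝ)))
    simpa using this
  exact ge_of_tendsto ht (eventually_nhdsWithin_of_forall fun ε hε => key ε hε)

theorem fib3_ip_rem (a b : S e3) : ip (rem b) a = ip b (rem a) := by
  have h1 : ip (rem b) (rem a) = ip (rem b) a := by
    conv_lhs => rw [show rem a = a - ∑ j, ip (orb j) a • orb j from rfl]
    rw [bil_ip.sub_right, bil_ip.sum_right]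
    have : ∀ j ∈ (Finset.univ : Finset (Fin 5)), ip (rem b) (ip (orb j) a • orb j) = 0 := by
      intro j _
      rw [bil_ip.smul_right, bil_ip.symm (rem b), ip_orb_rem, mul_zero]
    rw [Finset.sum_eq_zero this, sub_zero]
  have h2 : ip (rem b) (rem a) = ip b (rem a) := by
    conv_lhs => rw [show rem b = b - ∑ j, ip (orb j) b • orb j from rfl]
    rw [bil_ip.sub_left, bil_ip.sum_left]
    have : ∀ j ∈ (Finset.univ : Finset (Fin 5)), ip (ip (orb j) b • orb j) (rem a) = 0 := by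
      intro j _
      rw [bil_ip.smul, ip_orb_rem, mul_zero]
    rw [Finset.sum_eq_zero this, sub_zero]
  rw [← h1, h2]

theorem fib3_pot_le {w : E3 → ℝ} (hw : Measurable w) (h1 : ∀ x, |w x| ≤ 1) (a : S e3) :
    |pot w a a| ≤ ip a a := by
  have hfb : FB e3 w := fb_bdd hw.aestronglyMeasurable (ae_of_all _ h1)
  unfold pot ip
  refine (abs_integral_le_integral_abs).trans (integral_mono (hfb.int a a).abs (a.int_mul a) ?_)
  intro x
  simp only
  rw [abs_mul, abs_mul_self]
  exact mul_le_of_le_one_left (mul_self_nonneg _) (h1 x)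

theorem fib3_pt {w : E3 → ℝ} (hw : Measurable w) (h1 : ∀ x, |w x| ≤ 1) (a : S e3) {t : ℝ}
    (ht : 0 < t) :
    |pot w a a - ∑ i, ∑ j, ip (orb i) a * ip (orb j) a * pot w (orb i) (orb j)| ≤
      t * ip a a + t⁻¹ * hn (rem a) + hn (rem a) := by
  have hfb : FB e3 w := fb_bdd hw.aestronglyMeasurable (ae_of_all _ h1)
  have hb := hfb.bil_pot
  set p : S e3 := ∑ j, ip (orb j) a • orb j with hp
  have ha : a = p + rem a := by
    rw [show rem a = a - p from rfl]
    abel
  have e1 : pot w p p = ∑ i, ∑ j, ip (orb i) a * ip (orb j) a * pot w (orb i) (orb j) := by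
    rw [hp, hb.sum_left]
    refine Finset.sum_congr rfl fun i _ => ?_
    rw [hb.smul, hb.sum_right, Finset.mul_sum]
    refine Finset.sum_congr rfl fun j _ => ?_
    rw [hb.smul_right]
    ring
  have e2 : pot w a a = pot w p p + 2 * pot w p (rem a) + pot w (rem a) (rem a) := by
    conv_lhs => rw [ha]
    exact hb.add_sq p (rem a)
  have e3' : ip p (rem a) = 0 := by
    rw [hp, bil_ip.sum_left]
    refine Finset.sum_eq_zero fun j _ => ?_
    rw [bil_ip.smul, ip_orb_rem, mul_zero]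
  have e4 : ip a a = ip p p + ip (rem a) (rem a) := by
    conv_lhs => rw [ha]
    rw [bil_ip.add_sq p (rem a), e3']
    ring
  have i1 : |pot w p (rem a)| ≤ √(ip p p) * √(ip (rem a) (rem a)) :=
    hb.polar bil_ip (fib3_pot_le hw h1) p (rem a)
  have i2 : |pot w (rem a) (rem a)| ≤ hn (rem a) :=
    (fib3_pot_le hw h1 _).trans (ip_le_hn _)
  have i3 : 2 * (√(ip p p) * √(ip (rem a) (rem a))) ≤ t * ip p p + t⁻¹ * ip (rem a) (rem a) := by
    have q1 := Real.sq_sqrt (ip_nonneg p)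
    have q2 := Real.sq_sqrt (ip_nonneg (rem a))
    set u := √(ip p p)
    set v := √(ip (rem a) (rem a))
    rw [← q1, ← q2]
    have : 0 ≤ t⁻¹ * (t * u - v) ^ 2 := by positivity
    have e : t⁻¹ * (t * u - v) ^ 2 = t * u ^ 2 + t⁻¹ * v ^ 2 - 2 * (u * v) := by
      field_simp
      ring
    linarith
  have i4 : t * ip p p ≤ t * ip a a :=
    mul_le_mul_of_nonneg_left (by linarith [ip_nonneg (rem a)]) ht.le
  have i5 : t⁻¹ * ip (rem a) (rem a) ≤ t⁻¹ * hn (rem a) :=
    mul_le_mul_of_nonneg_left (ip_le_hn _) (inv_pos.2 ht).le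
  rw [← e1, e2]
  have i6 := abs_le.1 i1
  have i7 := abs_le.1 i2
  rw [abs_le]
  constructor <;> linarith [i6.1, i6.2, i7.1, i7.2]

namespace Fib

theorem fib3_ae (A : Fib ν) : ∀ᵐ y ∂ν,
    (∀ x, (rem (A.sl y)).f x = A.F x y - ∑ j, A.red (orb j).f y * (orb j).f x) ∧
      ∀ k x, (rem (A.sl y)).g k x = A.D k x y - ∑ j, A.red (orb j).f y * (orb j).g k x := by
  filter_upwards [A.sl_ae, ae_all_iff.2 fun j : Fin 5 => A.ip_sl (orb j)] with y h1 h2
  refine ⟨fun x => ?_, fun k x => ?_⟩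
  · rw [fib3_rem_f, h1.1]
    simp only [h2]
  · rw [fib3_rem_g, h1.2]
    simp only [h2]

/-- The part of a fibred function outside the span of the orbitals. -/
def fib3B (A : Fib ν) : Fib ν where
  F x y := A.F x y - ∑ j, A.red (orb j).f y * (orb j).f x
  D k x y := A.D k x y - ∑ j, A.red (orb j).f y * (orb j).g k x
  mF := A.mF.sub (memLp_finsetSum _ fun j _ => fib3_mul_mem (orb j).mem (A.red_mem (orb j).mem))
  mD k := (A.mD k).sub
    (memLp_finsetSum _ fun j _ => fib3_mul_mem ((orb j).gmem k) (A.red_mem (orb j).mem))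
  slice := by
    filter_upwards [A.fib3_ae] with y hy
    have h : ((rem (A.sl y)).f, (rem (A.sl y)).g) ∈ Sob e3 :=
      mem_Sob.2 ⟨(rem (A.sl y)).mem, (rem (A.sl y)).gmem, (rem (A.sl y)).wd⟩
    exact mem_congr h (ae_of_all _ hy.1) fun k => ae_of_all _ (hy.2 k)

theorem fib3_hn (A : Fib ν) : (fun y => hn (rem (A.sl y))) =ᵐ[ν]
    fun y => ip (A.fib3B.sl y) (A.fib3B.sl y) + kin (A.fib3B.sl y) (A.fib3B.sl y) := by
  filter_upwards [A.fib3_ae, A.fib3B.sl_ae] with y h1 h2
  have : hn (rem (A.sl y)) = hn (A.fib3B.sl y) :=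
    hn_congr (ae_of_all _ fun x => by rw [h1.1, h2.1]; rfl)
  rw [this]
  rfl

theorem fib3_defect (A : Fib ν) :
    A.defect = (∫ x, A.fib3B.n x) + 1 / 2 * ∫ x, A.fib3B.tau x := by
  unfold defect
  rw [integral_congr_ae A.fib3_hn, integral_add A.fib3B.int_ip_sl.1 A.fib3B.int_kin_sl.1,
    A.fib3B.int_ip_sl.2, A.fib3B.int_kin_sl.2]

theorem fib3_int_ip (A : Fib ν) (a b : S e3) :
    Integrable (fun y => ip a (A.sl y) * ip b (A.sl y)) ν ∧
      ∫ y, ip a (A.sl y) * ip b (A.sl y) ∂ν = A.gam a.f b.f := by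
  have h : (fun y => A.red a.f y * A.red b.f y) =ᵐ[ν] fun y => ip a (A.sl y) * ip b (A.sl y) := by
    filter_upwards [A.ip_sl a, A.ip_sl b] with y h1 h2
    rw [h1, h2]
  exact ⟨((A.red_mem a.mem).integrable_mul (A.red_mem b.mem)).congr h,
    (integral_congr_ae h).symm⟩

theorem fib3_int_sq (A : Fib ν) (a : S e3) :
    Integrable (fun y => ip a (A.sl y) ^ 2) ν ∧
      ∫ y, ip a (A.sl y) ^ 2 ∂ν = A.gam a.f a.f := by
  simp only [pow_two]
  exact A.fib3_int_ip a a

theorem int_defect (A : Fib ν) : Integrable (fun y => hn (rem (A.sl y))) ν := by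
  exact (A.fib3B.int_ip_sl.1.add A.fib3B.int_kin_sl.1).congr A.fib3_hn.symm
theorem defect_nonneg (A : Fib ν) : 0 ≤ A.defect := by
  exact integral_nonneg fun y => hn_nonneg _
theorem hn_rem_pr (A : Fib ν) {Ξ : Y → ℝ} (hΞ : MemLp Ξ 2 ν) :
    hn (rem (A.pr hΞ)) ≤ A.defect * ∫ y, Ξ y ^ 2 ∂ν := by
  have h : (rem (A.pr hΞ)).f =ᵐ[volume] (A.fib3B.pr hΞ).f := by
    filter_upwards [A.mem_ae] with x hx
    have e1 : ∀ j, ip (orb j) (A.pr hΞ) = ∫ y, A.red (orb j).f y * Ξ y ∂ν :=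
      fun j => A.ip_pr hΞ (orb j).mem
    have i1 : Integrable (fun y => A.F x y * Ξ y) ν := hx.1.integrable_mul hΞ
    have i2 : ∀ j, Integrable (fun y => A.red (orb j).f y * Ξ y * (orb j).f x) ν :=
      fun j => ((A.red_mem (orb j).mem).integrable_mul hΞ).mul_const _
    rw [fib3_rem_f]
    simp only [e1]
    have e2 : (A.fib3B.pr hΞ).f x =
        ∫ y, (A.F x y * Ξ y - ∑ j, A.red (orb j).f y * Ξ y * (orb j).f x) ∂ν := by
      change ∫ y, (A.F x y - ∑ j, A.red (orb j).f y * (orb j).f x) * Ξ y ∂ν = _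
      refine integral_congr_ae (ae_of_all _ fun y => ?_)
      simp only [sub_mul, Finset.sum_mul]
      congr 1
      exact Finset.sum_congr rfl fun j _ => by ring
    rw [e2, integral_sub i1 (integrable_finsetSum _ fun j _ => i2 j),
      integral_finsetSum _ fun j _ => i2 j]
    simp only [integral_mul_const]
    rfl
  rw [hn_congr h, fib3_defect, add_mul]
  exact add_le_add (A.fib3B.hn_pr_le hΞ).1 (A.fib3B.hn_pr_le hΞ).2
theorem defect_le (A : Fib ν) {U : E3 → ℝ} (hU : FB e3 U) {γ c₀ c₁ : ℝ}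
    (h : ∀ a : S e3, γ * hn (rem a) ≤ qf U a a + c₀ * ip a a + c₁ * ip (orb 0) a ^ 2) :
    γ * A.defect ≤ A.en U + c₀ * (∫ x, A.n x) + c₁ * A.gam (orb 0).f (orb 0).f := by
  have i1 := A.int_qf_sl hU
  have i2 := A.int_ip_sl
  have i3 := A.fib3_int_sq (orb 0)
  have i4 : Integrable (fun y => qf U (A.sl y) (A.sl y) + c₀ * ip (A.sl y) (A.sl y)) ν :=
    i1.1.add (i2.1.const_mul _)
  rw [← i1.2, ← i2.2, ← i3.2, ← integral_const_mul, ← integral_const_mul,
    ← integral_add i1.1 (i2.1.const_mul _), ← integral_add i4 (i3.1.const_mul _), defect,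
    ← integral_const_mul]
  exact integral_mono (A.int_defect.const_mul _) (i4.add (i3.1.const_mul _)) fun y => h _
theorem trace_le (A : Fib ν) : ∑ j, A.gam (orb j).f (orb j).f ≤ ∫ x, A.n x ∧
    ∫ x, A.n x ≤ ∑ j, A.gam (orb j).f (orb j).f + A.defect := by
  have i2 := A.int_ip_sl
  have i3 : Integrable (fun y => ∑ j, ip (orb j) (A.sl y) ^ 2) ν :=
    integrable_finsetSum _ fun j _ => (A.fib3_int_sq (orb j)).1
  have e3' : ∑ j, A.gam (orb j).f (orb j).f = ∫ y, ∑ j, ip (orb j) (A.sl y) ^ 2 ∂ν := by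
    rw [integral_finsetSum _ fun j _ => (A.fib3_int_sq (orb j)).1]
    exact Finset.sum_congr rfl fun j _ => (A.fib3_int_sq (orb j)).2.symm
  rw [e3', ← i2.2, defect, ← integral_add i3 A.int_defect]
  refine ⟨integral_mono i3 i2.1 fun y => ?_, integral_mono i2.1 (i3.add A.int_defect) fun y => ?_⟩
  · have := ip_nonneg (rem (A.sl y))
    rw [ip_rem] at this
    simp only
    linarith
  · have := ip_le_hn (rem (A.sl y))
    rw [ip_rem] at this
    simp only
    linarith
theorem gam_rem_le (A : Fib ν) (b : S e3) : A.gam (rem b).f (rem b).f ≤ A.defect * ip b b := by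
  have i1 := A.fib3_int_sq (rem b)
  rw [← i1.2, defect, ← integral_mul_const]
  refine integral_mono i1.1 (A.int_defect.mul_const _) fun y => ?_
  simp only
  rw [fib3_ip_rem]
  refine (bil_ip.cs ip_nonneg _ _).trans ?_
  rw [mul_comm]
  exact mul_le_mul_of_nonneg_right (ip_le_hn _) (ip_nonneg _)
theorem dens_expand (A : Fib ν) {w : E3 → ℝ} (hw : Measurable w) (h1 : ∀ x, |w x| ≤ 1) :
    |(∫ x, w x * A.n x) -
        ∑ i, ∑ j, A.gam (orb i).f (orb j).f * ∫ x, w x * ((orb i).f x * (orb j).f x)| ≤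
      2 * √(∫ x, A.n x) * √A.defect + A.defect := by
  have hfb : FB e3 w := fb_bdd hw.aestronglyMeasurable (ae_of_all _ h1)
  have i1 := (A.int_pot_sl hfb).2.2
  have i2 := A.int_ip_sl
  have i3 : ∀ i j, Integrable
      (fun y => ip (orb i) (A.sl y) * ip (orb j) (A.sl y) * pot w (orb i) (orb j)) ν :=
    fun i j => (A.fib3_int_ip (orb i) (orb j)).1.mul_const _
  have i4 : Integrable
      (fun y => ∑ i, ∑ j, ip (orb i) (A.sl y) * ip (orb j) (A.sl y) * pot w (orb i) (orb j)) ν :=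
    integrable_finsetSum _ fun i _ => integrable_finsetSum _ fun j _ => i3 i j
  have e1 : ∑ i, ∑ j, A.gam (orb i).f (orb j).f * ∫ x, w x * ((orb i).f x * (orb j).f x) =
      ∫ y, ∑ i, ∑ j, ip (orb i) (A.sl y) * ip (orb j) (A.sl y) * pot w (orb i) (orb j) ∂ν := by
    rw [integral_finsetSum _ fun i _ => integrable_finsetSum _ fun j _ => i3 i j]
    refine Finset.sum_congr rfl fun i _ => ?_
    rw [integral_finsetSum _ fun j _ => i3 i j]
    refine Finset.sum_congr rfl fun j _ => ?_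
    rw [integral_mul_const, (A.fib3_int_ip (orb i) (orb j)).2]
    rfl
  rw [← sub_le_iff_le_add]
  refine fib3_opt (integral_nonneg A.n_nonneg) A.defect_nonneg fun t ht => ?_
  have i5 : Integrable (fun y => t * ip (A.sl y) (A.sl y) + t⁻¹ * hn (rem (A.sl y))) ν :=
    (i2.1.const_mul _).add (A.int_defect.const_mul _)
  rw [sub_le_iff_le_add, e1, ← i1.2, ← integral_sub i1.1 i4, ← i2.2, defect,
    ← integral_const_mul, ← integral_const_mul,
    ← integral_add (i2.1.const_mul _) (A.int_defect.const_mul _),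
    ← integral_add i5 A.int_defect]
  refine abs_integral_le_integral_abs.trans (integral_mono (i1.1.sub i4).abs
    (i5.add A.int_defect) fun y => ?_)
  exact fib3_pt hw h1 (A.sl y) ht

end Fib

end Vale.Agent.P363
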