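import Vale.Agent.P363.A.Bil

/-!
# P363 A/Form  (TASK)

The forms on `S e`.  `MemLp.integrable_mul`, `integral_add`.  `FB.int`: `|a b| ≤ (a² + b²) / 2`.  `WD.unique`: `ae_eq_of_integral_contDiff_smul_eq`.
`Bil.tendsto`: `B u v - B a b = B (u - a) (v - b) + B (u - a) b + B a (v - b)`.
-/

open MeasureTheory Filter Topology Set
open scoped ContDiff

set_option linter.unusedSectionVars false

noncomputable section

namespace Vale.Agent.P363

variable {V : Type} [NormedAddCommGroup V] [NormedSpace ℝ V] [FiniteDimensional ℝ V]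
  [MeasureSpace V] [BorelSpace V] [(volume : Measure V).IsAddHaarMeasure]
  {ι : Type} [Fintype ι] {e : ι → V}

theorem S.int_mul (a b : S e) : Integrable fun x => a.f x * b.f x := a.mem.integrable_mul b.mem

theorem S.int_gmul (a b : S e) (k l : ι) : Integrable fun x => a.g k x * b.g l x := (a.gmem k).integrable_mul (b.gmem l)

theorem S.int_sq (a : S e) : Integrable fun x => a.f x ^ 2 := by
  simpa only [sq] using a.int_mul a

theorem S.int_gsq (a : S e) (k : ι) : Integrable fun x => a.g k x ^ 2 := by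
  simpa only [sq] using a.int_gmul a k k

theorem S.sum_f {κ : Type} (s : Finset κ) (a : κ → S e) (x : V) :
    (∑ j ∈ s, a j).f x = ∑ j ∈ s, (a j).f x := by
  classical
  induction s using Finset.induction_on with
  | empty => simp
  | insert j s hj ih => rw [Finset.sum_insert hj, Finset.sum_insert hj, S.add_f, ih]

theorem S.sum_g {κ : Type} (s : Finset κ) (a : κ → S e) (k : ι) (x : V) :
    (∑ j ∈ s, a j).g k x = ∑ j ∈ s, (a j).g k x := by
  classical
  induction s using Finset.induction_on with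
  | empty => simp
  | insert j s hj ih => rw [Finset.sum_insert hj, Finset.sum_insert hj, S.add_g, ih]

theorem bil_ip : Bil (ip : S e → S e → ℝ) := by
  refine ⟨fun a b => by simp only [ip, mul_comm], fun a b c => ?_, fun t a b => ?_⟩
  · simp only [ip, S.add_f, add_mul]
    exact integral_add (a.int_mul c) (b.int_mul c)
  · simp only [ip, S.smul_f, mul_assoc]
    exact integral_const_mul _ _

theorem bil_kin : Bil (kin : S e → S e → ℝ) := by
  refine ⟨fun a b => by simp only [kin, mul_comm (a.g _ _)], fun a b c => ?_, fun t a b => ?_⟩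
  · simp only [kin, S.add_g, add_mul]
    rw [← mul_add, ← Finset.sum_add_distrib]
    exact congrArg _ (Finset.sum_congr rfl fun k _ =>
      integral_add (a.int_gmul c k k) (b.int_gmul c k k))
  · simp only [kin, S.smul_g, mul_assoc, integral_const_mul, ← Finset.mul_sum]
    ring

theorem ip_self (a : S e) : ip a a = ∫ x, a.f x ^ 2 := by
  simp only [ip, sq]

theorem kin_self (a : S e) : kin a a = 1 / 2 * ∫ x, ∑ k, a.g k x ^ 2 := by
  simp only [kin, sq]
  rw [integral_finsetSum _ fun k _ => a.int_gmul a k k]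

theorem kin_eq (a b : S e) : kin a b = 1 / 2 * ∫ x, ∑ k, a.g k x * b.g k x := by
  rw [kin, integral_finsetSum _ fun k _ => a.int_gmul b k k]

theorem ip_nonneg (a : S e) : 0 ≤ ip a a := integral_nonneg fun _ => mul_self_nonneg _

theorem kin_nonneg (a : S e) : 0 ≤ kin a a :=
  mul_nonneg (by norm_num) (Finset.sum_nonneg fun _ _ => integral_nonneg fun _ => mul_self_nonneg _)

theorem hn_nonneg (a : S e) : 0 ≤ hn a := add_nonneg (ip_nonneg a) (kin_nonneg a)

theorem ip_le_hn (a : S e) : ip a a ≤ hn a := le_add_of_nonneg_right (kin_nonneg a)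

theorem kin_le_hn (a : S e) : kin a a ≤ hn a := le_add_of_nonneg_left (ip_nonneg a)

theorem ip_eq_zero {a : S e} : ip a a = 0 ↔ ∀ᵐ x, a.f x = 0 := by
  rw [ip, integral_eq_zero_iff_of_nonneg (fun _ => mul_self_nonneg _) (a.int_mul a)]
  exact eventually_congr (Eventually.of_forall fun x => mul_self_eq_zero)

theorem hn_add_le (a b : S e) : hn (a + b) ≤ 2 * hn a + 2 * hn b :=
  (bil_ip.plus bil_kin).two_add hn_nonneg a b

theorem hn_sub_le (a b : S e) : hn (a - b) ≤ 2 * hn a + 2 * hn b :=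
  (bil_ip.plus bil_kin).two_sub hn_nonneg a b

theorem hn_smul (t : ℝ) (a : S e) : hn (t • a) = t ^ 2 * hn a := (bil_ip.plus bil_kin).smul_sq t a

theorem hn_sub_comm (a b : S e) : hn (a - b) = hn (b - a) := by
  rw [← neg_sub, ← neg_one_smul ℝ, hn_smul]
  ring

theorem form_polar {B : S e → S e → ℝ} (h : Bil B) {C : ℝ} (hC : 0 ≤ C)
    (h0 : ∀ a, |B a a| ≤ C * hn a) (a b : S e) : |B a b| ≤ C * √(hn a) * √(hn b) := by
  have h1 := h.polar (bil_ip.comb bil_kin C C) (fun a => by rw [← mul_add]; exact h0 a) a b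
  rw [← mul_add, ← mul_add, Real.sqrt_mul hC, Real.sqrt_mul hC, mul_mul_mul_comm,
    Real.mul_self_sqrt hC, ← mul_assoc] at h1
  exact h1

theorem abs_ip_le (a b : S e) : |ip a b| ≤ 1 * √(hn a) * √(hn b) :=
  form_polar bil_ip zero_le_one
    (fun a => by rw [one_mul, abs_of_nonneg (ip_nonneg a)]; exact ip_le_hn a) a b

theorem abs_kin_le (a b : S e) : |kin a b| ≤ 1 * √(hn a) * √(hn b) :=
  form_polar bil_kin zero_le_one
    (fun a => by rw [one_mul, abs_of_nonneg (kin_nonneg a)]; exact kin_le_hn a) a b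

theorem form_abs {U f : V → ℝ} (h : Integrable fun x => U x * f x ^ 2) :
    Integrable fun x => |U x| * f x ^ 2 := by
  simpa only [Real.norm_eq_abs, abs_mul, abs_pow, sq_abs] using h.norm

theorem form_pot (U : V → ℝ) (a : S e) : |pot U a a| ≤ ∫ x, |U x| * a.f x ^ 2 := by
  refine (abs_integral_le_integral_abs).trans_eq ?_
  simp only [abs_mul, abs_mul_abs_self, sq]

theorem FB.int {U : V → ℝ} (h : FB e U) (a b : S e) :
    Integrable fun x => U x * (a.f x * b.f x) := by
  obtain ⟨C, -, hC⟩ := h.2 1 one_pos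
  refine ((hC a).1.norm.add (hC b).1.norm).mono'
    (h.1.mul (a.int_mul b).aestronglyMeasurable) (Eventually.of_forall fun x => ?_)
  simp only [Pi.add_apply, Real.norm_eq_abs, abs_mul, abs_pow]
  rw [← mul_add]
  exact mul_le_mul_of_nonneg_left (by nlinarith [abs_nonneg (a.f x), abs_nonneg (b.f x)])
    (abs_nonneg _)

theorem FB.bil_pot {U : V → ℝ} (h : FB e U) : Bil (pot U : S e → S e → ℝ) := by
  refine ⟨fun a b => by simp only [pot, mul_comm (a.f _)], fun a b c => ?_, fun t a b => ?_⟩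
  · simp only [pot, S.add_f, add_mul, mul_add]
    exact integral_add (h.int a c) (h.int b c)
  · simp only [pot, S.smul_f, mul_assoc, mul_left_comm _ t]
    exact integral_const_mul _ _

theorem FB.bil_qf {U : V → ℝ} (h : FB e U) : Bil (qf U : S e → S e → ℝ) := bil_kin.plus h.bil_pot

theorem FB.mono {U U' : V → ℝ} (h : FB e U) (hm : AEStronglyMeasurable U' volume)
    (hle : ∀ᵐ x, |U' x| ≤ |U x|) : FB e U' := by
  refine ⟨hm, fun ε hε => ?_⟩
  obtain ⟨C, h0, hC⟩ := h.2 ε hε
  refine ⟨C, h0, fun a => ?_⟩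
  have h1 : Integrable fun x => U' x * a.f x ^ 2 :=
    (hC a).1.mono (hm.mul a.int_sq.aestronglyMeasurable) (hle.mono fun x hx => by
      simp only [Real.norm_eq_abs, abs_mul]
      exact mul_le_mul_of_nonneg_right hx (abs_nonneg _))
  exact ⟨h1, (integral_mono_ae (form_abs h1) (form_abs (hC a).1)
    (hle.mono fun x hx => mul_le_mul_of_nonneg_right hx (sq_nonneg _))).trans (hC a).2⟩

theorem FB.abs {U : V → ℝ} (h : FB e U) : FB e fun x => |U x| :=
  h.mono h.1.norm (Eventually.of_forall fun _ => (abs_abs _).le)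

theorem FB.add {U U' : V → ℝ} (h : FB e U) (h' : FB e U') : FB e fun x => U x + U' x := by
  refine ⟨h.1.add h'.1, fun ε hε => ?_⟩
  obtain ⟨C, h0, hC⟩ := h.2 (ε / 2) (half_pos hε)
  obtain ⟨C', h0', hC'⟩ := h'.2 (ε / 2) (half_pos hε)
  refine ⟨C + C', add_nonneg h0 h0', fun a => ?_⟩
  have h1 : Integrable fun x => (U x + U' x) * a.f x ^ 2 := by
    simp only [add_mul]
    exact (hC a).1.add (hC' a).1
  have h2 := integral_mono (form_abs h1) ((form_abs (hC a).1).add (form_abs (hC' a).1))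
    (fun x => by
      simp only [Pi.add_apply, ← add_mul]
      exact mul_le_mul_of_nonneg_right (abs_add_le _ _) (sq_nonneg _))
  simp only [Pi.add_apply] at h2
  rw [integral_add (form_abs (hC a).1) (form_abs (hC' a).1)] at h2
  exact ⟨h1, by linarith [(hC a).2, (hC' a).2]⟩

theorem FB.const_mul {U : V → ℝ} (h : FB e U) (c : ℝ) : FB e fun x => c * U x := by
  refine ⟨h.1.const_mul c, fun ε hε => ?_⟩
  have hc : 0 < |c| + 1 := by positivity
  obtain ⟨C, h0, hC⟩ := h.2 (ε / (|c| + 1)) (div_pos hε hc)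
  refine ⟨|c| * C, by positivity, fun a => ⟨?_, ?_⟩⟩
  · simpa only [mul_assoc] using (hC a).1.const_mul c
  · simp only [abs_mul, mul_assoc, integral_const_mul]
    have h1 := mul_le_mul_of_nonneg_left (hC a).2 (abs_nonneg c)
    have h2 : |c| * (ε / (|c| + 1)) ≤ ε := by
      rw [← mul_div_assoc, div_le_iff₀ hc]
      nlinarith
    have h3 := mul_le_mul_of_nonneg_right h2 (kin_nonneg a)
    linarith

theorem FB.neg {U : V → ℝ} (h : FB e U) : FB e fun x => -U x :=
  h.mono h.1.neg (Eventually.of_forall fun _ => (abs_neg _).le)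

theorem FB.sub {U U' : V → ℝ} (h : FB e U) (h' : FB e U') : FB e fun x => U x - U' x := by
  simpa only [sub_eq_add_neg] using h.add h'.neg

theorem fb_bdd {U : V → ℝ} (hm : AEStronglyMeasurable U volume) {C : ℝ} (h : ∀ᵐ x, |U x| ≤ C) :
    FB e U := by
  refine ⟨hm, fun ε hε => ⟨|C|, abs_nonneg C, fun a => ?_⟩⟩
  have h1 : Integrable fun x => U x * a.f x ^ 2 := a.int_sq.bdd_mul hm h
  have h2 := integral_mono_ae (form_abs h1) (a.int_sq.const_mul |C|)
    (h.mono fun x hx => mul_le_mul_of_nonneg_right (hx.trans (le_abs_self C)) (sq_nonneg _))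
  rw [integral_const_mul, ← ip_self] at h2
  exact ⟨h1, h2.trans (le_add_of_nonneg_left (mul_nonneg hε.le (kin_nonneg a)))⟩

theorem fb_const (c : ℝ) : FB e fun _ : V => c :=
  fb_bdd aestronglyMeasurable_const (Eventually.of_forall fun _ => le_refl |c|)

theorem fb_sum {κ : Type} (s : Finset κ) {U : κ → V → ℝ} (h : ∀ j ∈ s, FB e (U j)) :
    FB e fun x => ∑ j ∈ s, U j x := by
  classical
  induction s using Finset.induction_on with
  | empty => simpa only [Finset.sum_empty] using fb_const 0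
  | insert j s hj ih =>
    simp only [Finset.sum_insert hj]
    exact (h j (Finset.mem_insert_self j s)).add
      (ih fun i hi => h i (Finset.mem_insert_of_mem hi))

theorem FB.abs_pot_le {U : V → ℝ} (h : FB e U) :
    ∃ C : ℝ, 0 ≤ C ∧ ∀ a b : S e, |pot U a b| ≤ C * √(hn a) * √(hn b) := by
  obtain ⟨C, h0, hC⟩ := h.2 1 one_pos
  refine ⟨1 + C, by positivity, form_polar h.bil_pot (by positivity) fun a => ?_⟩
  have h1 := (form_pot U a).trans (hC a).2
  have h2 := mul_nonneg h0 (kin_nonneg a)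
  have h3 := ip_nonneg a
  rw [hn]
  nlinarith

theorem FB.abs_qf_le {U : V → ℝ} (h : FB e U) :
    ∃ C : ℝ, 0 ≤ C ∧ ∀ a b : S e, |qf U a b| ≤ C * √(hn a) * √(hn b) := by
  obtain ⟨C, h0, hC⟩ := h.abs_pot_le
  refine ⟨1 + C, by positivity, fun a b => (abs_add_le _ _).trans ?_⟩
  linarith [abs_kin_le a b, hC a b]

theorem FB.coercive {U : V → ℝ} (h : FB e U) :
    ∃ C : ℝ, 0 ≤ C ∧ ∀ a : S e, hn a ≤ 2 * qf U a a + C * ip a a := by
  obtain ⟨C, h0, hC⟩ := h.2 (1 / 2) one_half_pos
  refine ⟨2 * C + 1, by positivity, fun a => ?_⟩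
  have h1 := (abs_le.1 ((form_pot U a).trans (hC a).2)).1
  rw [hn, qf]
  linarith

theorem pot_add {U U' : V → ℝ} (h : FB e U) (h' : FB e U') (a b : S e) :
    pot (fun x => U x + U' x) a b = pot U a b + pot U' a b := by
  simp only [pot, add_mul]
  exact integral_add (h.int a b) (h'.int a b)

theorem pot_sub {U U' : V → ℝ} (h : FB e U) (h' : FB e U') (a b : S e) :
    pot (fun x => U x - U' x) a b = pot U a b - pot U' a b := by
  simp only [pot, sub_mul]
  exact integral_sub (h.int a b) (h'.int a b)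

theorem pot_const_mul (c : ℝ) (U : V → ℝ) (a b : S e) :
    pot (fun x => c * U x) a b = c * pot U a b := by
  simp only [pot, mul_assoc c]
  exact integral_const_mul _ _

theorem pot_const (c : ℝ) (a b : S e) : pot (fun _ => c) a b = c * ip a b := integral_const_mul _ _

theorem pot_sum {κ : Type} (s : Finset κ) {U : κ → V → ℝ} (h : ∀ j ∈ s, FB e (U j)) (a b : S e) :
    pot (fun x => ∑ j ∈ s, U j x) a b = ∑ j ∈ s, pot (U j) a b := by
  simp only [pot, Finset.sum_mul]
  exact integral_finsetSum _ fun j hj => (h j hj).int a b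

theorem pot_mono {U U' : V → ℝ} (h : FB e U) (h' : FB e U') (a : S e)
    (hle : ∀ᵐ x, a.f x ≠ 0 → U x ≤ U' x) : pot U a a ≤ pot U' a a :=
  integral_mono_ae (h.int a a) (h'.int a a) (hle.mono fun x hx => by
    by_cases h0 : a.f x = 0
    · simp [h0]
    · exact mul_le_mul_of_nonneg_right (hx h0) (mul_self_nonneg _))

theorem qf_sub_const {U : V → ℝ} (h : FB e U) (c : ℝ) (a b : S e) :
    qf (fun x => U x - c) a b = qf U a b - c * ip a b := by
  rw [qf, qf, pot_sub h (fb_const c), pot_const, add_sub_assoc]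

theorem WD.unique {w : V} {f f' g g' : V → ℝ} (h : WD w f g) (h' : WD w f' g')
    (hg : LocallyIntegrable g) (hg' : LocallyIntegrable g') (hf : f =ᵐ[volume] f') :
    g =ᵐ[volume] g' :=
  ae_eq_of_integral_contDiff_smul_eq hg hg' fun φ h1 h2 => by
    have e1 : ∫ x, fderiv ℝ φ x w * f x = ∫ x, fderiv ℝ φ x w * f' x :=
      integral_congr_ae (hf.mono fun x hx => by simp only [hx])
    rw [h φ h1 h2, h' φ h1 h2] at e1
    exact neg_injective e1

theorem S.g_congr {a b : S e} (h : a.f =ᵐ[volume] b.f) (k : ι) : a.g k =ᵐ[volume] b.g k :=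
  (a.wd k).unique (b.wd k) ((a.gmem k).locallyIntegrable one_le_two)
    ((b.gmem k).locallyIntegrable one_le_two) h

theorem ip_congr {a a' : S e} (h : a.f =ᵐ[volume] a'.f) (b : S e) : ip a b = ip a' b :=
  integral_congr_ae (h.mono fun x hx => by simp only [hx])

theorem kin_congr {a a' : S e} (h : a.f =ᵐ[volume] a'.f) (b : S e) : kin a b = kin a' b :=
  congrArg _ (Finset.sum_congr rfl fun k _ =>
    integral_congr_ae ((S.g_congr h k).mono fun x hx => by simp only [hx]))

theorem pot_congr (U : V → ℝ) {a a' : S e} (h : a.f =ᵐ[volume] a'.f) (b : S e) :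
    pot U a b = pot U a' b :=
  integral_congr_ae (h.mono fun x hx => by simp only [hx])

theorem qf_congr (U : V → ℝ) {a a' : S e} (h : a.f =ᵐ[volume] a'.f) (b : S e) :
    qf U a b = qf U a' b := by
  rw [qf, qf, kin_congr h, pot_congr U h]

theorem qf_congr' (U : V → ℝ) (a : S e) {b b' : S e} (h : b.f =ᵐ[volume] b'.f) :
    qf U a b = qf U a b' := by
  have e1 : pot U a b = pot U a b' := integral_congr_ae (h.mono fun x hx => by simp only [hx])
  rw [qf, qf, e1, bil_kin.symm a, bil_kin.symm a, kin_congr h]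

theorem hn_congr {a a' : S e} (h : a.f =ᵐ[volume] a'.f) : hn a = hn a' := by
  rw [hn, hn, ip_congr h, kin_congr h, bil_ip.symm, bil_kin.symm, ip_congr h, kin_congr h]

theorem mem_congr {f f' : V → ℝ} {g g' : ι → V → ℝ} (h : (f, g) ∈ Sob e) (hf : f =ᵐ[volume] f')
    (hg : ∀ k, g k =ᵐ[volume] g' k) : (f', g') ∈ Sob e := by
  obtain ⟨h1, h2, h3⟩ := mem_Sob.1 h
  refine mem_Sob.2 ⟨h1.ae_eq hf, fun k => (h2 k).ae_eq (hg k), fun k φ p1 p2 => ?_⟩
  have e1 : ∫ x, fderiv ℝ φ x (e k) * f x = ∫ x, fderiv ℝ φ x (e k) * f' x :=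
    integral_congr_ae (hf.mono fun x hx => by simp only [hx])
  have e2 : ∫ x, φ x * g k x = ∫ x, φ x * g' k x :=
    integral_congr_ae ((hg k).mono fun x hx => by simp only [hx])
  rw [← e1, ← e2, h3 k φ p1 p2]

theorem Bil.tendsto {B : S e → S e → ℝ} (h : Bil B) {C : ℝ}
    (hb : ∀ a b, |B a b| ≤ C * √(hn a) * √(hn b)) {u v : ℕ → S e} {a b : S e}
    (hu : Tendsto (fun m => hn (u m - a)) atTop (𝓝 0))
    (hv : Tendsto (fun m => hn (v m - b)) atTop (𝓝 0)) :
    Tendsto (fun m => B (u m) (v m)) atTop (𝓝 (B a b)) := by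
  have hu' := hu.sqrt
  have hv' := hv.sqrt
  rw [Real.sqrt_zero] at hu' hv'
  have t := (((hu'.const_mul C).mul hv').add ((hu'.const_mul C).mul_const (√(hn b)))).add
    (hv'.const_mul (C * √(hn a)))
  simp only [mul_zero, zero_mul, add_zero] at t
  refine tendsto_sub_nhds_zero_iff.1 (squeeze_zero_norm (fun m => ?_) t)
  have e1 : B (u m) (v m) - B a b = B (u m - a) (v m - b) + B (u m - a) b + B a (v m - b) := by
    simp only [h.sub_left, h.sub_right]
    ring
  rw [e1]
  exact (abs_add_three _ _ _).trans (add_le_add (add_le_add (hb _ _) (hb _ _)) (hb _ _))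

end Vale.Agent.P363
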