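import Vale.Agent.P363.A.Trunc
import Vale.Agent.P363.A.Cut

/-!
# P363 A/Hardy  (TASK)

`vf`: expand the square; `∫ X a ∂a = ½ ∫ X ∂(a²) = -½ ∫ (∂X) a²` is `ibp` applied to `a` and `X a` (`mul1`).
`hardy`: `vf` with `X = -(1/2) (x - c) / (‖x - c‖² + ε)`: `div X + |X|² ≤ -(1/4) ‖x-c‖² / (‖x-c‖² + ε)²`; monotone convergence (or Fatou) as `ε → 0`.
`fb_coul`: `1/r ≤ δ / r² + 1 / (4 δ)`.
-/

open MeasureTheory Filter Topology Set
open scoped ContDiff

set_option linter.unusedSectionVars false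

noncomputable section

namespace Vale.Agent.P363

theorem hd_int2 (a : S e3) {X : E3 → ℝ} (hX : Mul1 X) (k : Fin 3) :
    Integrable fun x => fderiv ℝ X x (e3 k) * a.f x ^ 2 := by
  obtain ⟨h1, C, hC⟩ := hX
  refine a.int_sq.bdd_mul (c := C)
    ((h1.continuous_fderiv one_ne_zero).clm_apply continuous_const).aestronglyMeasurable
    (Eventually.of_forall fun x => ((fderiv ℝ X x).le_opNorm _).trans ?_)
  rw [norm_e3, mul_one]
  exact (hC x).2

theorem vf (a : S e3) {X : Fin 3 → E3 → ℝ} (hX : ∀ k, Mul1 (X k)) :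
    ∫ x, ∑ k, (a.g k x - a.f x * X k x) ^ 2 =
      2 * kin a a + ∫ x, (∑ k, (fderiv ℝ (X k) x (e3 k) + X k x ^ 2)) * a.f x ^ 2 := by
  have hi : ∀ k, Integrable fun x => (a.g k x - a.f x * X k x) ^ 2 := fun k => by
    have := ((a.gmem k).sub (S.of (mul1 a (hX k))).mem).integrable_sq
    simpa only [S.of_f, Pi.sub_apply, mul_comm] using this
  have hj : ∀ k, Integrable fun x => (fderiv ℝ (X k) x (e3 k) + X k x ^ 2) * a.f x ^ 2 := fun k =>
    ((hd_int2 a (hX k) k).add (S.of (mul1 a (hX k))).int_sq).congr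
      (Eventually.of_forall fun x => by simp only [S.of_f, Pi.add_apply]; ring)
  simp only [Finset.sum_mul]
  rw [integral_finsetSum _ fun k _ => hi k, integral_finsetSum _ fun k _ => hj k, kin,
    ← mul_assoc, mul_one_div_cancel two_ne_zero, one_mul, ← Finset.sum_add_distrib]
  refine Finset.sum_congr rfl fun k _ => ?_
  have h1 := ibp a (S.of (mul1 a (hX k))) k
  simp only [S.of_f, S.of_g] at h1
  have i1 : Integrable fun x => a.g k x * (X k x * a.f x) :=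
    (a.gmem k).integrable_mul (S.of (mul1 a (hX k))).mem
  have i2 : Integrable fun x => a.f x * (X k x * a.g k x + fderiv ℝ (X k) x (e3 k) * a.f x) :=
    a.mem.integrable_mul ((S.of (mul1 a (hX k))).gmem k)
  rw [eq_neg_iff_add_eq_zero, ← integral_add i1 i2] at h1
  have i3 : Integrable fun x => a.g k x * (X k x * a.f x) +
    a.f x * (X k x * a.g k x + fderiv ℝ (X k) x (e3 k) * a.f x) := i1.add i2
  rw [← integral_add (a.int_gmul a k k) (hj k), ← add_zero (∫ x, (a.g k x - a.f x * X k x) ^ 2),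
    ← h1, ← integral_add (hi k) i3]
  exact integral_congr_ae (Eventually.of_forall fun x => by ring)

theorem hd_fatou {u : ℕ → E3 → ℝ} {f : E3 → ℝ} {C : ℝ} (hi : ∀ n, Integrable (u n))
    (h0 : ∀ n x, 0 ≤ u n x) (hC : ∀ n, ∫ x, u n x ≤ C) (hm : AEStronglyMeasurable f volume)
    (f0 : ∀ x, 0 ≤ f x) (hl : ∀ᵐ x, Tendsto (fun n => u n x) atTop (𝓝 (f x))) :
    Integrable f ∧ ∫ x, f x ≤ C := by
  have C0 : 0 ≤ C := (integral_nonneg (h0 0)).trans (hC 0)
  have h1 : ∫⁻ x, ENNReal.ofReal (f x) ≤ ENNReal.ofReal C := by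
    calc _ = ∫⁻ x, liminf (fun n => ENNReal.ofReal (u n x)) atTop := by
          refine lintegral_congr_ae ?_
          filter_upwards [hl] with x hx using (ENNReal.tendsto_ofReal hx).liminf_eq.symm
      _ ≤ _ := lintegral_liminf_le' fun n => (hi n).aemeasurable.ennreal_ofReal
      _ ≤ _ := liminf_le_of_frequently_le' (Frequently.of_forall fun n => by
          rw [← ofReal_integral_eq_lintegral_ofReal (hi n) (Eventually.of_forall (h0 n))]
          exact ENNReal.ofReal_le_ofReal (hC n))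
  have h2 : Integrable f := (lintegral_ofReal_ne_top_iff_integrable hm
    (Eventually.of_forall f0)).1 (ne_top_of_le_ne_top ENNReal.ofReal_ne_top h1)
  rw [← ofReal_integral_eq_lintegral_ofReal h2 (Eventually.of_forall f0),
    ENNReal.ofReal_le_ofReal_iff C0] at h1
  exact ⟨h2, h1⟩

/-- the regularised vector field -/
def hdX (c : E3) (ε : ℝ) (k : Fin 3) (x : E3) : ℝ := -(1 / 2) * ((x - c) k * (‖x - c‖ ^ 2 + ε)⁻¹)

theorem hd_fd (c : E3) {ε : ℝ} (hε : 0 < ε) (k : Fin 3) (x v : E3) :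
    fderiv ℝ (hdX c ε k) x v = -(1 / 2) * (v k / (‖x - c‖ ^ 2 + ε) -
      (x - c) k * (2 * inner ℝ (x - c) v) / (‖x - c‖ ^ 2 + ε) ^ 2) := by
  have h0 : ‖x - c‖ ^ 2 + ε ≠ 0 := by positivity
  have h1 : HasFDerivAt (fun y : E3 => y - c) (ContinuousLinearMap.id ℝ E3) x :=
    (hasFDerivAt_id x).sub_const c
  have h2 := (hasFDerivAt_coord k (x - c)).comp x h1
  have h3 := (hasDerivAt_inv h0).comp_hasFDerivAt x (h1.norm_sq.add_const ε)
  have h4 : HasFDerivAt (hdX c ε k) _ x := (h2.mul h3).const_mul (-(1 / 2))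
  rw [h4.fderiv, inner_sub_left]
  simp
  field_simp
  ring

theorem hd_mul1 (c : E3) {ε : ℝ} (hε : 0 < ε) (k : Fin 3) : Mul1 (hdX c ε k) := by
  refine ⟨contDiff_const.mul ((((contDiff_coord k).of_le (by simp)).comp
    (contDiff_id.sub contDiff_const)).mul (ContDiff.inv (((contDiff_norm_sq ℝ).comp
      (contDiff_id.sub contDiff_const)).add contDiff_const) fun x => by positivity)),
    1 + 2 / ε, fun x => ⟨?_, ?_⟩⟩
  · have h1 := abs_coord_le (x - c) k
    have h2 : ‖x - c‖ ≤ (1 + 2 / ε) * (‖x - c‖ ^ 2 + ε) := by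
      have : 2 / ε * ε = 2 := div_mul_cancel₀ _ hε.ne'
      have h3 : 0 ≤ 2 / ε * ‖x - c‖ ^ 2 := by positivity
      nlinarith [sq_nonneg (‖x - c‖ - 1)]
    rw [hdX, abs_mul, abs_mul, abs_of_pos (show 0 < (‖x - c‖ ^ 2 + ε)⁻¹ by positivity),
      ← div_eq_mul_inv, abs_neg, abs_of_pos one_half_pos]
    have h3 := (div_le_iff₀ (show 0 < ‖x - c‖ ^ 2 + ε by positivity)).2 (h1.trans h2)
    have h4 : 0 ≤ |(x - c) k| / (‖x - c‖ ^ 2 + ε) := by positivity
    linarith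
  · refine ContinuousLinearMap.opNorm_le_bound _ (by positivity) fun v => ?_
    have hρ : 0 < ‖x - c‖ ^ 2 + ε := by positivity
    have h1 : |v k / (‖x - c‖ ^ 2 + ε)| ≤ ‖v‖ / ε := by
      rw [abs_div, abs_of_pos hρ]
      exact div_le_div₀ (norm_nonneg _) (abs_coord_le v k) hε (by nlinarith [sq_nonneg ‖x - c‖])
    have h2 : |(x - c) k * (2 * inner ℝ (x - c) v) / (‖x - c‖ ^ 2 + ε) ^ 2| ≤ 2 * (‖v‖ / ε) := by
      rw [abs_div, abs_of_pos (pow_pos hρ 2), abs_mul, abs_mul, abs_two, div_le_iff₀ (pow_pos hρ 2)]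
      have h3 := mul_le_mul (abs_coord_le (x - c) k) (abs_real_inner_le_norm (x - c) v)
        (abs_nonneg _) (norm_nonneg _)
      have h4 : ‖x - c‖ ^ 2 * ε ≤ (‖x - c‖ ^ 2 + ε) ^ 2 := by nlinarith [sq_nonneg (‖x - c‖ ^ 2)]
      have h5 := mul_le_mul_of_nonneg_left h4 (show 0 ≤ ‖v‖ / ε by positivity)
      have h6 : ‖v‖ / ε * (‖x - c‖ ^ 2 * ε) = ‖x - c‖ * (‖x - c‖ * ‖v‖) := by field_simp
      linarith
    rw [hd_fd c hε, Real.norm_eq_abs, abs_mul, abs_neg, abs_of_pos one_half_pos]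
    have h3 := abs_sub (v k / (‖x - c‖ ^ 2 + ε))
      ((x - c) k * (2 * inner ℝ (x - c) v) / (‖x - c‖ ^ 2 + ε) ^ 2)
    have h4 : (1 + 2 / ε) * ‖v‖ = ‖v‖ + 2 * (‖v‖ / ε) := by ring
    have h5 : 0 ≤ ‖v‖ / ε := by positivity
    linarith [norm_nonneg v]

theorem hd_div (c : E3) {ε : ℝ} (hε : 0 < ε) (x : E3) :
    ∑ k, (fderiv ℝ (hdX c ε k) x (e3 k) + hdX c ε k x ^ 2) ≤ -(1 / 4) * (1 / (‖x - c‖ ^ 2 + ε)) := by
  have hρ : 0 < ‖x - c‖ ^ 2 + ε := by positivity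
  have h1 : ∀ k, fderiv ℝ (hdX c ε k) x (e3 k) + hdX c ε k x ^ 2 =
      -(1 / 2) * (1 / (‖x - c‖ ^ 2 + ε)) + (x - c) k ^ 2 * (5 / 4 / (‖x - c‖ ^ 2 + ε) ^ 2) := fun k => by
    have h2 : inner ℝ (x - c) (e3 k) = (x - c) k := by
      rw [e3, EuclideanSpace.inner_single_right]
      simp
    rw [hd_fd c hε, h2, e3_apply, if_pos rfl, hdX]
    field_simp
    ring
  simp only [h1]
  rw [Finset.sum_add_distrib, Finset.sum_const, ← Finset.sum_mul, sum_sq_coord, Finset.card_univ,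
    Fintype.card_fin, nsmul_eq_mul]
  have h2 : ‖x - c‖ ^ 2 * (5 / 4 / (‖x - c‖ ^ 2 + ε) ^ 2) ≤ 5 / 4 * (1 / (‖x - c‖ ^ 2 + ε)) := by
    rw [show 5 / 4 * (1 / (‖x - c‖ ^ 2 + ε)) =
      (‖x - c‖ ^ 2 + ε) * (5 / 4 / (‖x - c‖ ^ 2 + ε) ^ 2) by field_simp]
    exact mul_le_mul_of_nonneg_right (by linarith) (by positivity)
  push_cast
  linarith

theorem hd_eps (a : S e3) (c : E3) {ε : ℝ} (hε : 0 < ε) :
    Integrable (fun x => 1 / (‖x - c‖ ^ 2 + ε) * a.f x ^ 2) ∧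
      ∫ x, 1 / (‖x - c‖ ^ 2 + ε) * a.f x ^ 2 ≤ 8 * kin a a := by
  have hm : Measurable fun x : E3 => 1 / (‖x - c‖ ^ 2 + ε) := by fun_prop
  have h1 : Integrable (fun x => 1 / (‖x - c‖ ^ 2 + ε) * a.f x ^ 2) :=
    a.int_sq.bdd_mul (c := 1 / ε) hm.aestronglyMeasurable (Eventually.of_forall fun x => by
      rw [Real.norm_of_nonneg (by positivity)]
      exact one_div_le_one_div_of_le hε (by nlinarith [sq_nonneg ‖x - c‖]))
  refine ⟨h1, ?_⟩
  have h2 := vf a (hd_mul1 c hε)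
  have h3 : 0 ≤ ∫ x, ∑ k, (a.g k x - a.f x * hdX c ε k x) ^ 2 :=
    integral_nonneg fun x => Finset.sum_nonneg fun _ _ => sq_nonneg _
  have h4 : ∫ x, (∑ k, (fderiv ℝ (hdX c ε k) x (e3 k) + hdX c ε k x ^ 2)) * a.f x ^ 2 ≤
      ∫ x, -(1 / 4) * (1 / (‖x - c‖ ^ 2 + ε) * a.f x ^ 2) := by
    refine integral_mono ?_ (h1.const_mul _) fun x => ?_
    · simp only [Finset.sum_mul]
      exact integrable_finsetSum _ fun k _ =>
        ((hd_int2 a (hd_mul1 c hε k) k).add (S.of (mul1 a (hd_mul1 c hε k))).int_sq).congr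
          (Eventually.of_forall fun x => by simp only [S.of_f, Pi.add_apply]; ring)
    · simp only [← mul_assoc]
      exact mul_le_mul_of_nonneg_right (hd_div c hε x) (sq_nonneg _)
  rw [integral_const_mul] at h4
  linarith

theorem hardy (a : S e3) (c : E3) : Integrable (fun x => 1 / ‖x - c‖ ^ 2 * a.f x ^ 2) ∧
    ∫ x, 1 / ‖x - c‖ ^ 2 * a.f x ^ 2 ≤ 8 * kin a a := by
  have hm : Measurable fun x : E3 => 1 / ‖x - c‖ ^ 2 := by fun_prop
  refine hd_fatou (u := fun n x => 1 / (‖x - c‖ ^ 2 + 1 / ((n : ℝ) + 1)) * a.f x ^ 2)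
    (fun n => (hd_eps a c (by positivity)).1) (fun n x => by positivity)
    (fun n => (hd_eps a c (by positivity)).2)
    (hm.aestronglyMeasurable.mul (a.mem.1.pow 2)) (fun x => by positivity) ?_
  filter_upwards [Measure.ae_ne volume c] with x hx
  have h0 : ‖x - c‖ ^ 2 + 0 ≠ 0 := by
    have := norm_pos_iff.2 (sub_ne_zero.2 hx)
    positivity
  have := (tendsto_const_nhds (x := (1 : ℝ)).div (tendsto_const_nhds.add
    tendsto_one_div_add_atTop_nhds_zero_nat) h0).mul_const (a.f x ^ 2)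
  rwa [add_zero] at this

theorem coul_le (a : S e3) (c : E3) {δ : ℝ} (hδ : 0 < δ) :
    Integrable (fun x => 1 / ‖x - c‖ * a.f x ^ 2) ∧
      ∫ x, 1 / ‖x - c‖ * a.f x ^ 2 ≤ 8 * δ * kin a a + 1 / (4 * δ) * ip a a := by
  obtain ⟨h1, h2⟩ := hardy a c
  have hm : Measurable fun x : E3 => 1 / ‖x - c‖ := by fun_prop
  have h3 : Integrable fun x => δ * (1 / ‖x - c‖ ^ 2 * a.f x ^ 2) + 1 / (4 * δ) * a.f x ^ 2 :=
    (h1.const_mul δ).add (a.int_sq.const_mul _)
  have h4 : ∀ x, 1 / ‖x - c‖ * a.f x ^ 2 ≤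
      δ * (1 / ‖x - c‖ ^ 2 * a.f x ^ 2) + 1 / (4 * δ) * a.f x ^ 2 := fun x => by
    rw [← mul_assoc, ← add_mul, ← one_div_pow]
    refine mul_le_mul_of_nonneg_right ?_ (sq_nonneg _)
    generalize 1 / ‖x - c‖ = t
    have e : δ * t ^ 2 + 1 / (4 * δ) - t = (2 * δ * t - 1) ^ 2 / (4 * δ) := by
      field_simp
      ring
    have : 0 ≤ (2 * δ * t - 1) ^ 2 / (4 * δ) := by positivity
    linarith
  have h5 : Integrable fun x => 1 / ‖x - c‖ * a.f x ^ 2 :=
    h3.mono' (hm.aestronglyMeasurable.mul (a.mem.1.pow 2)) (Eventually.of_forall fun x => by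
      rw [Real.norm_of_nonneg (by positivity)]
      exact h4 x)
  refine ⟨h5, (integral_mono h5 h3 h4).trans ?_⟩
  rw [integral_add (h1.const_mul δ) (a.int_sq.const_mul _), integral_const_mul, integral_const_mul,
    ip_self]
  nlinarith

theorem fb_coul (c : E3) : FB e3 fun x => 1 / ‖x - c‖ := by
  have hm : Measurable fun x : E3 => 1 / ‖x - c‖ := by fun_prop
  refine ⟨hm.aestronglyMeasurable, fun ε hε => ⟨1 / (4 * (ε / 8)), by positivity, fun a => ?_⟩⟩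
  obtain ⟨h1, h2⟩ := coul_le a c (show 0 < ε / 8 by positivity)
  refine ⟨h1, ?_⟩
  have e : ∀ x : E3, |1 / ‖x - c‖| = 1 / ‖x - c‖ := fun x => abs_of_nonneg (by positivity)
  simp only [e]
  linarith

theorem fb_V0 : FB e3 V0 := by
  have := (fb_coul 0).neg
  simp only [sub_zero] at this
  exact this

theorem hd_VR (R : ℝ) :
    VR R = fun x => -(1 / 2) * (1 / ‖x - R • e3 2‖ + 1 / ‖x - -(R • e3 2)‖) := by
  funext x
  rw [VR, sub_neg_eq_add]
  ring

theorem fb_VR (R : ℝ) : FB e3 (VR R) := by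
  rw [hd_VR]
  exact ((fb_coul _).add (fb_coul _)).const_mul _

theorem memLp_coul (a : S e3) (c : E3) : MemLp (fun x => 1 / ‖x - c‖ * a.f x) 2 volume := by
  refine (memLp_two_iff_integrable_sq ((fb_coul c).1.mul a.mem.1)).2 ?_
  simpa only [Pi.mul_apply, mul_pow, one_div_pow] using (hardy a c).1

theorem memLp_VR (R : ℝ) (a : S e3) : MemLp (fun x => VR R x * a.f x) 2 volume ∧
    ∫ x, (VR R x * a.f x) ^ 2 ≤ 8 * kin a a := by
  have h0 : MemLp (fun x => VR R x * a.f x) 2 volume := by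
    have := ((memLp_coul a (R • e3 2)).add (memLp_coul a (-(R • e3 2)))).const_mul (-(1 / 2))
    simpa only [hd_VR, Pi.add_apply, mul_assoc, add_mul] using this
  obtain ⟨h1, h2⟩ := hardy a (R • e3 2)
  obtain ⟨h3, h4⟩ := hardy a (-(R • e3 2))
  have h5 : Integrable fun x => 1 / ‖x - R • e3 2‖ ^ 2 * a.f x ^ 2 +
    1 / ‖x - -(R • e3 2)‖ ^ 2 * a.f x ^ 2 := h1.add h3
  refine ⟨h0, (integral_mono h0.integrable_sq (h5.const_mul (1 / 2)) fun x => ?_).trans ?_⟩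
  · simp only [hd_VR, ← one_div_pow]
    generalize 1 / ‖x - R • e3 2‖ = s
    generalize 1 / ‖x - -(R • e3 2)‖ = t
    nlinarith [sq_nonneg ((s - t) * a.f x)]
  · rw [integral_const_mul, integral_add h1 h3]
    linarith

theorem memLp_V0 (a : S e3) : MemLp (fun x => V0 x * a.f x) 2 volume ∧
    ∫ x, (V0 x * a.f x) ^ 2 ≤ 8 * kin a a := by
  have h1 := (memLp_coul a 0).neg
  have h2 := (hardy a 0).2
  refine ⟨by simpa only [V0, sub_zero, neg_mul, Pi.neg_def] using h1, ?_⟩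
  simpa only [V0, sub_zero, mul_pow, neg_sq, one_div_pow] using h2

/-- Uniform coercivity. -/
theorem kin_le_VR (R : ℝ) (a : S e3) : kin a a ≤ 2 * qf (VR R) a a + 8 * ip a a := by
  obtain ⟨h1, h2⟩ := coul_le a (R • e3 2) (show (0 : ℝ) < 1 / 16 by norm_num)
  obtain ⟨h3, h4⟩ := coul_le a (-(R • e3 2)) (show (0 : ℝ) < 1 / 16 by norm_num)
  rw [qf, hd_VR, pot_const_mul, pot_add (fb_coul _) (fb_coul _), pot, pot]
  simp only [← sq]
  linarith

theorem kin_le_V0 (a : S e3) : kin a a ≤ 2 * qf V0 a a + 8 * ip a a := by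
  have h2 := (coul_le a 0 (show (0 : ℝ) < 1 / 16 by norm_num)).2
  rw [qf, pot]
  simp only [← sq, V0, neg_mul, integral_neg, sub_zero] at h2 ⊢
  linarith


end Vale.Agent.P363
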