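import Vale.Agent.P363.A.Limit

/-!
# P363 A/Iso  (TASK)

`comp_mem`: for a test function `φ` on `V'` use `φ ∘ (T⁻¹ (· - p))` on `V`; `T` maps Haar measure to a constant multiple of Haar measure (`Measure.isAddHaarMeasure_map`,
`isAddLeftInvariant_eq_smul` / `ContinuousLinearEquiv` and `MeasureTheory.Measure.map_addHaar...`); `fderiv` is linear in the direction.  Alternatively use `S.approx` and `mem_of_limit`.
`exists_sym_rot`: the matrix `c k l = L (e3 k) l` is orthogonal: `∑ k, c k l * c k l' = δ`.  `(dir i k) ∘ π = dir (π.symm i) k`.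
`eigen_extend`: `b = (b + s T b)/2 + (b - s T b)/2`; the second part is orthogonal to `a` for `ip` and `qf`.
-/

open MeasureTheory Filter Topology Set
open scoped ContDiff

set_option linter.unusedSectionVars false

noncomputable section

namespace Vale.Agent.P363

variable {V : Type} [NormedAddCommGroup V] [NormedSpace ℝ V] [FiniteDimensional ℝ V]
  [MeasureSpace V] [BorelSpace V] [(volume : Measure V).IsAddHaarMeasure]
  {ι : Type} [Fintype ι] {e : ι → V}

theorem iso_map {V' : Type} [NormedAddCommGroup V'] [NormedSpace ℝ V'] [FiniteDimensional ℝ V']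
    [MeasureSpace V'] [BorelSpace V'] [(volume : Measure V').IsAddHaarMeasure]
    (T : V' ≃L[ℝ] V) (p : V) : MeasurableEmbedding (fun x => T x + p) ∧
      ∃ C : NNReal, Measure.map (fun x => T x + p) volume = C • (volume : Measure V) := by
  refine ⟨(T.toHomeomorph.trans (Homeomorph.addRight p)).measurableEmbedding,
    Measure.addHaarScalarFactor (Measure.map T volume) volume, ?_⟩
  have h1 := Measure.isAddLeftInvariant_eq_smul (Measure.map T volume) (volume : Measure V)
  have h2 := Measure.map_map (μ := volume) (measurable_add_const p) T.continuous.measurable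
  have h3 : Measure.map (fun x => x + p) (Measure.map T volume) = Measure.map T volume :=
    map_add_right_eq_self _ p
  exact h2.symm.trans (h3.trans h1)

theorem comp_mem {V' : Type} [NormedAddCommGroup V'] [NormedSpace ℝ V'] [FiniteDimensional ℝ V']
    [MeasureSpace V'] [BorelSpace V'] [(volume : Measure V').IsAddHaarMeasure] {ι' : Type} [Fintype ι']
    {e' : ι' → V'} (T : V' ≃L[ℝ] V) (p : V) (c : ι' → ι → ℝ) (hT : ∀ k, T (e' k) = ∑ l, c k l • e l)
    (a : S e) :
    ((fun x => a.f (T x + p)), fun k x => ∑ l, c k l * a.g l (T x + p)) ∈ Sob e' := by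
  obtain ⟨hemb, C, hC⟩ := iso_map T p
  have hm : ∀ {f : V → ℝ}, MemLp f 2 volume → MemLp (fun x => f (T x + p)) 2 volume := by
    intro f hf
    refine MemLp.comp_of_map (g := f) (f := fun x => T x + p) ?_ hemb.measurable.aemeasurable
    rw [hC, ENNReal.smul_def]
    exact hf.smul_measure ENNReal.coe_ne_top
  have hi : ∀ F : V → ℝ, ∫ x, F (T x + p) = C * ∫ y, F y := by
    intro F
    rw [← hemb.integral_map, hC, integral_smul_nnreal_measure]
    rfl
  refine mem_Sob.2 ⟨hm a.mem, fun k => memLp_finsetSum _ fun l _ => (hm (a.gmem l)).const_mul _,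
    fun k φ h1 h2 => ?_⟩
  obtain ⟨ψ, hψ⟩ : ∃ ψ : V → ℝ, ψ = fun y => φ (T.symm (y - p)) := ⟨_, rfl⟩
  have e0 : φ = fun x => ψ (T x + p) := by
    funext x
    rw [hψ]
    simp
  have p1 : ContDiff ℝ ∞ ψ := by
    rw [hψ]
    exact h1.comp (T.symm.contDiff.comp (contDiff_id.sub contDiff_const))
  have p2 : HasCompactSupport ψ := by
    rw [hψ]
    exact h2.comp_homeomorph ((Homeomorph.subRight p).trans T.symm.toHomeomorph)
  have e1 : ∀ x, fderiv ℝ φ x (e' k) = ∑ l, c k l * fderiv ℝ ψ (T x + p) (e l) := by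
    intro x
    have h3 : HasFDerivAt (fun x => ψ (T x + p)) ((fderiv ℝ ψ (T x + p)).comp (T : V' →L[ℝ] V)) x :=
      ((p1.differentiable (by simp)) (T x + p)).hasFDerivAt.comp x (T.hasFDerivAt.add_const p)
    rw [e0, h3.fderiv, ContinuousLinearMap.comp_apply, ContinuousLinearEquiv.coe_coe, hT, map_sum]
    simp only [map_smul, smul_eq_mul]
  have e2 := hi fun y => (∑ l, c k l * fderiv ℝ ψ y (e l)) * a.f y
  have e3 := hi fun y => ψ y * ∑ l, c k l * a.g l y
  simp only [e1]
  rw [e2, e0, e3]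
  simp only [Finset.sum_mul, Finset.mul_sum, mul_assoc, mul_left_comm (ψ _)]
  rw [integral_finsetSum _ fun l _ => (int_test' _ p1 p2 a.mem).const_mul _,
    integral_finsetSum _ fun l _ => (int_test p1.continuous p2 (a.gmem l)).const_mul _,
    ← mul_neg, ← Finset.sum_neg_distrib]
  congr 1
  refine Finset.sum_congr rfl fun l _ => ?_
  rw [integral_const_mul, integral_const_mul, a.wd l ψ p1 p2, mul_neg]

/-- `T` is composition with the measure preserving map `τ` and preserves the kinetic energy. -/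
structure Sym (e : ι → V) (τ : V → V) (T : S e → S e) : Prop where
  mp : MeasurePreserving τ volume volume
  emb : MeasurableEmbedding τ
  f : ∀ a x, (T a).f x = a.f (τ x)
  kin : ∀ a b, kin (T a) (T b) = kin a b

variable {τ : V → V} {T : S e → S e}

theorem Sym.integral (h : Sym e τ T) (F : V → ℝ) : ∫ x, F (τ x) = ∫ x, F x := by
  exact h.mp.integral_comp h.emb F
theorem Sym.ip (h : Sym e τ T) (a b : S e) : ip (T a) (T b) = ip a b := by
  simp only [Vale.Agent.P363.ip, h.f]
  exact h.integral fun x => a.f x * b.f x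
theorem Sym.hn (h : Sym e τ T) (a : S e) : hn (T a) = hn a := by
  rw [Vale.Agent.P363.hn, Vale.Agent.P363.hn, h.ip, h.kin]
theorem Sym.pot (h : Sym e τ T) (U : V → ℝ) (a b : S e) :
    pot (fun x => U (τ x)) (T a) (T b) = pot U a b := by
  simp only [Vale.Agent.P363.pot, h.f]
  exact h.integral fun x => U x * (a.f x * b.f x)
theorem Sym.qf (h : Sym e τ T) {U : V → ℝ} (hU : ∀ x, U (τ x) = U x) (a b : S e) :
    qf U (T a) (T b) = qf U a b := by
  have h1 := h.pot U a b
  simp only [hU] at h1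
  rw [Vale.Agent.P363.qf, Vale.Agent.P363.qf, h.kin, h1]
theorem Sym.iso_tt (h : Sym e τ T) (hτ : ∀ x, τ (τ x) = x) (a : S e) :
    (T (T a)).f =ᵐ[volume] a.f :=
  Eventually.of_forall fun x => by rw [h.f, h.f, hτ]

theorem Sym.ip_swap (h : Sym e τ T) (hτ : ∀ x, τ (τ x) = x) (a b : S e) :
    Vale.Agent.P363.ip (T a) b = Vale.Agent.P363.ip a (T b) := by
  rw [← h.ip (T a) b]
  exact ip_congr (h.iso_tt hτ a) _
theorem Sym.qf_swap (h : Sym e τ T) (hτ : ∀ x, τ (τ x) = x) {U : V → ℝ} (hU : ∀ x, U (τ x) = U x)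
    (a b : S e) : Vale.Agent.P363.qf U (T a) b = Vale.Agent.P363.qf U a (T b) := by
  rw [← h.qf hU (T a) b]
  exact qf_congr U (h.iso_tt hτ a) _
/-- Functions of opposite parity are orthogonal. -/
theorem Sym.integral_odd (h : Sym e τ T) {F : V → ℝ} (hF : ∀ᵐ x, F (τ x) = -F x) : ∫ x, F x = 0 := by
  have h1 := h.integral F
  rw [integral_congr_ae hF, integral_neg] at h1
  linarith
theorem Sym.qf_odd (h : Sym e τ T) {U : V → ℝ} (hU : ∀ x, U (τ x) = U x) {a b : S e}
    (ha : ∀ᵐ x, a.f (τ x) = a.f x) (hb : ∀ᵐ x, b.f (τ x) = -b.f x) :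
    Vale.Agent.P363.qf U a b = 0 ∧ Vale.Agent.P363.ip a b = 0 ∧ Vale.Agent.P363.pot U a b = 0 := by
  have h1 : Vale.Agent.P363.ip a b = 0 := h.integral_odd (F := fun x => a.f x * b.f x) (by
    filter_upwards [ha, hb] with x h1 h2
    rw [h1, h2, mul_neg])
  have h2 : Vale.Agent.P363.pot U a b = 0 :=
    h.integral_odd (F := fun x => U x * (a.f x * b.f x)) (by
      filter_upwards [ha, hb] with x h1 h2
      rw [h1, h2, hU, mul_neg, mul_neg])
  have a1 : (T a).f =ᵐ[volume] a.f := ha.mono fun x hx => (h.f a x).trans hx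
  have a2 : (T b).f =ᵐ[volume] (-b).f := hb.mono fun x hx => (h.f b x).trans hx
  have h3 := h.kin a b
  rw [kin_congr a1, bil_kin.symm, kin_congr a2, bil_kin.neg_left, bil_kin.symm] at h3
  refine ⟨?_, h1, h2⟩
  rw [Vale.Agent.P363.qf, h2]
  linarith

/-- The functions with `a ∘ τ = s a`. -/
def symSub (e : ι → V) (τ : V → V) (s : ℝ) : Submodule ℝ (S e) where
  carrier := {a | ∀ᵐ x, a.f (τ x) = s * a.f x}
  zero_mem' := by
    show ∀ᵐ x, (0 : S e).f (τ x) = s * (0 : S e).f x
    simp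
  add_mem' := fun {a b} ha hb => by
    show ∀ᵐ x, (a + b).f (τ x) = s * (a + b).f x
    filter_upwards [(show ∀ᵐ x, a.f (τ x) = s * a.f x from ha),
      (show ∀ᵐ x, b.f (τ x) = s * b.f x from hb)] with x h1 h2
    simp [h1, h2, mul_add]
  smul_mem' := fun c a ha => by
    show ∀ᵐ x, (c • a).f (τ x) = s * (c • a).f x
    filter_upwards [(show ∀ᵐ x, a.f (τ x) = s * a.f x from ha)] with x h1
    simp [h1, mul_left_comm]

theorem mem_symSub {s : ℝ} {a : S e} : a ∈ symSub e τ s ↔ ∀ᵐ x, a.f (τ x) = s * a.f x := Iff.rfl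

theorem Sym.closed (h : Sym e τ T) (s : ℝ) (u : ℕ → S e) (a : S e) (hu : ∀ m, u m ∈ symSub e τ s)
    (hl : Tendsto (fun m => Vale.Agent.P363.hn (u m - a)) atTop (𝓝 0)) : a ∈ symSub e τ s := by
  have h1 : ∀ m, Vale.Agent.P363.ip (T a - s • a) (T a - s • a) ≤
      (2 * s ^ 2 + 2) * Vale.Agent.P363.hn (u m - a) := by
    intro m
    have e1 : (T a - s • a).f =ᵐ[volume] (s • (u m - a) - T (u m - a)).f := by
      filter_upwards [mem_symSub.1 (hu m)] with x hx
      simp only [S.sub_f, S.smul_f, h.f, hx]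
      ring
    rw [ip_congr e1, bil_ip.symm, ip_congr e1]
    refine (bil_ip.two_sub ip_nonneg _ _).trans ?_
    rw [bil_ip.smul_sq, h.ip]
    have h2 := ip_le_hn (u m - a)
    nlinarith [mul_le_mul_of_nonneg_left h2 (sq_nonneg s)]
  have h2 := hl.const_mul (2 * s ^ 2 + 2)
  rw [mul_zero] at h2
  have h3 := ip_eq_zero.1 (le_antisymm (ge_of_tendsto' h2 h1) (ip_nonneg _))
  filter_upwards [h3] with x hx
  rw [S.sub_f, S.smul_f, h.f] at hx
  linarith
theorem Sym.proj_mem (h : Sym e τ T) (hτ : ∀ x, τ (τ x) = x) {s : ℝ} (hs : s * s = 1) (b : S e) :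
    b + s • T b ∈ symSub e τ s := by
  refine mem_symSub.2 (Eventually.of_forall fun x => ?_)
  simp only [S.add_f, S.smul_f, h.f, hτ]
  rw [mul_add, ← mul_assoc, hs]
  ring
/-- The eigenvalue equation extends from a symmetry class to a larger invariant class. -/
theorem Sym.eigen_extend (h : Sym e τ T) (hτ : ∀ x, τ (τ x) = x) {U : V → ℝ} (hF : FB e U)
    (hU : ∀ x, U (τ x) = U x) {s E : ℝ} (hs : s * s = 1) {a : S e} (ha : a ∈ symSub e τ s)
    (N : Submodule ℝ (S e)) (hN : ∀ b ∈ N, T b ∈ N)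
    (he : ∀ b ∈ N, b ∈ symSub e τ s → Vale.Agent.P363.qf U a b = E * Vale.Agent.P363.ip a b) :
    ∀ b ∈ N, Vale.Agent.P363.qf U a b = E * Vale.Agent.P363.ip a b := by
  intro b hb
  have h1 := he _ (N.add_mem hb (N.smul_mem s (hN b hb))) (h.proj_mem hτ hs b)
  have e1 : (T a).f =ᵐ[volume] (s • a).f := (mem_symSub.1 ha).mono fun x hx => (h.f a x).trans hx
  rw [hF.bil_qf.add_right, hF.bil_qf.smul_right, bil_ip.add_right, bil_ip.smul_right,
    ← h.qf_swap hτ hU, ← h.ip_swap hτ, qf_congr U e1, ip_congr e1, hF.bil_qf.smul, bil_ip.smul,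
    ← mul_assoc, ← mul_assoc, hs] at h1
  linarith

theorem iso_sym [DecidableEq ι] (L : V ≃L[ℝ] V) (p : V) (c : ι → ι → ℝ)
    (hL : ∀ k, L (e k) = ∑ l, c k l • e l) (hτ : ∀ x, L x + p = τ x)
    (hmp : MeasurePreserving τ volume volume)
    (ho : ∀ l l', ∑ k, c k l * c k l' = if l = l' then 1 else 0) :
    ∃ T : S e → S e, Sym e τ T ∧ ∀ a k x, (T a).g k x = ∑ l, c k l * a.g l (τ x) := by
  obtain rfl : τ = fun x => L x + p := funext fun x => (hτ x).symm
  have hemb := (iso_map L p).1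
  refine ⟨fun a => S.of (comp_mem L p c hL a), ⟨hmp, hemb, fun _ _ => rfl, fun a b => ?_⟩,
    fun _ _ _ => rfl⟩
  rw [kin_eq, kin_eq, ← hmp.integral_comp hemb fun x => ∑ k, a.g k x * b.g k x]
  congr 2
  funext x
  simp only [S.of_g]
  generalize L x + p = y
  have e1 : ∀ k, (∑ l, c k l * a.g l y) * ∑ l, c k l * b.g l y =
      ∑ l, ∑ l', c k l * c k l' * (a.g l y * b.g l' y) := by
    intro k
    rw [Finset.sum_mul_sum]
    exact Finset.sum_congr rfl fun l _ => Finset.sum_congr rfl fun l' _ => by ring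
  simp only [e1]
  rw [Finset.sum_comm]
  refine Finset.sum_congr rfl fun l _ => ?_
  rw [Finset.sum_comm]
  simp only [← Finset.sum_mul, ho, ite_mul, one_mul, zero_mul, Finset.sum_ite_eq, Finset.mem_univ,
    if_true]

theorem iso_perm (L : V ≃L[ℝ] V) (p : V) (σ : ι ≃ ι) (s : ι → ℝ) (hs : ∀ k, s k * s k = 1)
    (hL : ∀ k, L (e k) = s k • e (σ k)) (hτ : ∀ x, L x + p = τ x)
    (hmp : MeasurePreserving τ volume volume) :
    ∃ T : S e → S e, Sym e τ T ∧ ∀ a k x, (T a).g k x = s k * a.g (σ k) (τ x) := by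
  classical
  obtain ⟨T, h1, h2⟩ := iso_sym (e := e) L p (fun k l => if σ k = l then s k else 0)
    (fun k => by simp [hL, ite_smul]) hτ hmp (fun l l' => by
      rw [Finset.sum_eq_single (σ.symm l)]
      · simp only [Equiv.apply_symm_apply, if_true]
        split_ifs
        exacts [hs _, mul_zero _]
      · intro k _ hk
        rw [if_neg fun h => hk (σ.eq_symm_apply.2 h), zero_mul]
      · simp)
  exact ⟨T, h1, fun a k x => by simp [h2, ite_mul]⟩

theorem exists_sym_shift (e : ι → V) (p : V) : ∃ T : S e → S e, Sym e (fun x => x + p) T ∧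
    ∀ a k x, (T a).g k x = a.g k (x + p) := by
  obtain ⟨T, h1, h2⟩ := iso_perm (e := e) (τ := fun x => x + p) (ContinuousLinearEquiv.refl ℝ V) p
    (Equiv.refl ι) (fun _ => 1) (fun _ => one_mul 1) (fun k => (one_smul ℝ _).symm) (fun _ => rfl)
    (measurePreserving_add_right volume p)
  exact ⟨T, h1, fun a k x => (h2 a k x).trans (one_mul _)⟩
theorem exists_sym_rot (L : E3 ≃ₗᵢ[ℝ] E3) : ∃ T : S e3 → S e3, Sym e3 L T := by
  have e1 : ∀ (x : E3) k, x k = inner ℝ (e3 k) x := fun x k => by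
    simp [e3, EuclideanSpace.inner_single_left]
  have e2 : ∀ k l, L (e3 k) l = L.symm (e3 l) k := by
    intro k l
    rw [e1, e1 _ k, ← L.inner_map_map (e3 k), L.apply_symm_apply, real_inner_comm]
  refine (iso_sym (e := e3) (τ := L) L.toContinuousLinearEquiv 0
    (fun k l => L (e3 k) l) (fun k => ?_) (fun x => add_zero _) L.measurePreserving
    fun l l' => ?_).imp fun T h => h.1
  · ext j
    simp [e3, Pi.single_apply]
  · have e3' : inner ℝ (L.symm (e3 l')) (L.symm (e3 l)) = inner ℝ (e3 l') (e3 l) :=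
      L.symm.inner_map_map _ _
    rw [PiLp.inner_apply, ← e1] at e3'
    simp only [e2]
    refine Eq.trans (Finset.sum_congr rfl fun k _ => ?_) (e3'.trans ?_)
    · simp
    · simp [e3, eq_comm]
theorem rf_apply (k l : Fin 3) (x : E3) : rf k x l = if l = k then -x l else x l := by
  by_cases h : l = k
  · subst h
    simp [rf, e3]
    ring
  · simp [rf, e3, h]
theorem rf_rf (k : Fin 3) (x : E3) : rf k (rf k x) = x := by
  ext l
  rw [rf_apply, rf_apply]
  split_ifs <;> simp
theorem norm_rf (k : Fin 3) (x : E3) : ‖rf k x‖ = ‖x‖ := by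
  rw [EuclideanSpace.norm_eq, EuclideanSpace.norm_eq]
  congr 1
  refine Finset.sum_congr rfl fun l _ => ?_
  rw [rf_apply]
  split_ifs <;> simp
theorem exists_rfL (k : Fin 3) : ∃ L : E3 ≃ₗᵢ[ℝ] E3, ∀ x, L x = rf k x := by
  let f : E3 →ₗ[ℝ] E3 :=
    { toFun := rf k
      map_add' := fun x y => by
        ext l
        simp only [rf_apply, PiLp.add_apply]
        split_ifs <;> ring
      map_smul' := fun c x => by
        ext l
        simp only [rf_apply, PiLp.smul_apply, smul_eq_mul, RingHom.id_apply]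
        split_ifs <;> ring }
  exact ⟨⟨LinearEquiv.ofInvolutive f (rf_rf k), norm_rf k⟩, fun _ => rfl⟩
theorem rf_comm (k l : Fin 3) (x : E3) : rf k (rf l x) = rf l (rf k x) := by
  ext j
  simp only [rf_apply]
  split_ifs <;> rfl
theorem rf_sub (k : Fin 3) (x y : E3) : rf k (x - y) = rf k x - rf k y := by
  ext j
  simp only [rf_apply, PiLp.sub_apply]
  split_ifs <;> ring
theorem VR_rf (R : ℝ) (k : Fin 3) (x : E3) : VR R (rf k x) = VR R x := by
  have e1 : ∀ y, ‖rf k x - y‖ = ‖x - rf k y‖ := fun y => by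
    rw [← norm_rf k, rf_sub, rf_rf]
  have e2 : ∀ r : ℝ, rf k (r • e3 2) = (if 2 = k then -r else r) • e3 2 := fun r => by
    ext l
    rw [rf_apply]
    by_cases h1 : l = 2
    · subst h1
      split_ifs <;> simp [e3]
    · split_ifs <;> simp [e3, h1]
  have e4 : ∀ y : E3, y + R • e3 2 = y - (-R) • e3 2 := fun y => by rw [neg_smul, sub_neg_eq_add]
  unfold VR
  rw [e4, e4, e1, e1, e2, e2]
  split_ifs
  · rw [neg_neg]
    ring
  · rfl
theorem exists_sym_rf (k : Fin 3) : ∃ T : S e3 → S e3, Sym e3 (rf k) T := by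
  obtain ⟨L, hL⟩ := exists_rfL k
  rw [← funext hL]
  exact exists_sym_rot L
theorem exists_sym_perm {n : ℕ} (π : Equiv.Perm (Fin n)) : ∃ T : S (eN n) → S (eN n),
    Sym (eN n) (fun X => X ∘ π) T ∧ ∀ a i k X, (T a).g (i, k) X = a.g (π.symm i, k) (X ∘ π) := by
  refine (iso_perm (e := eN n) (τ := fun X => X ∘ π)
    (LinearEquiv.funCongrLeft ℝ E3 π).toContinuousLinearEquiv 0
    (Equiv.prodCongr π.symm (Equiv.refl _)) (fun _ => 1) (fun _ => one_mul 1) (fun q => ?_)
    (fun _ => add_zero _) (volume_measurePreserving_piCongrLeft (fun _ => E3) π).symm).imp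
    fun T h => ⟨h.1, fun a i k X => (h.2 a (i, k) X).trans (one_mul _)⟩
  · rw [one_smul]
    funext j
    change dir q.1 q.2 (π j) = dir (π.symm q.1) q.2 j
    simp only [dir, Pi.single_apply, Equiv.eq_symm_apply]
theorem exists_sym_rfN (n : ℕ) (k : Fin 3) : ∃ T : S (eN n) → S (eN n),
    Sym (eN n) (fun X i => rf k (X i)) T := by
  obtain ⟨L, hL⟩ := exists_rfL k
  refine (iso_perm (e := eN n) (τ := fun X i => rf k (X i))
    (ContinuousLinearEquiv.piCongrRight fun _ => L.toContinuousLinearEquiv) 0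
    (Equiv.refl _) (fun q => if q.2 = k then -1 else 1) (fun q => by split_ifs <;> simp)
    (fun q => ?_) (fun X => (add_zero _).trans (funext fun i => hL (X i)))
    (volume_preserving_pi fun _ => funext hL ▸ L.measurePreserving)).imp fun T h => h.1
  · funext j
    change L (dir q.1 q.2 j) = (if q.2 = k then (-1 : ℝ) else 1) • dir q.1 q.2 j
    rw [hL]
    ext l
    rw [rf_apply]
    by_cases h2 : j = q.1
    · by_cases h3 : l = q.2
      · subst h3
        split_ifs <;> simp
      · split_ifs <;> simp [dir, h2, h3]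
    · simp [dir, h2]
theorem iso_wee {n : ℕ} (X : Cfg n) : 2 * Wee X = ∑ i, ∑ j, 1 / ‖X j - X i‖ := by
  have h := Finset.sum_sum_Ioi_add_eq_sum_sum_off_diag fun j i : Fin n => 1 / ‖X j - X i‖
  have e1 : ∀ i, ∑ j ∈ ({i}ᶜ : Finset (Fin n)), 1 / ‖X j - X i‖ = ∑ j, 1 / ‖X j - X i‖ := by
    intro i
    rw [← Finset.sum_compl_add_sum {i}]
    simp
  simp only [e1] at h
  rw [← h, Wee, Finset.mul_sum]
  refine Finset.sum_congr rfl fun i _ => ?_
  rw [Finset.mul_sum]
  refine Finset.sum_congr rfl fun j _ => ?_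
  rw [norm_sub_rev (X j), two_mul]

theorem Wee_perm {n : ℕ} (π : Equiv.Perm (Fin n)) (X : Cfg n) : Wee (X ∘ π) = Wee X := by
  have h1 := iso_wee (X ∘ π)
  have h2 := iso_wee X
  have h3 : ∑ i, ∑ j, 1 / ‖(X ∘ π) j - (X ∘ π) i‖ = ∑ i, ∑ j, 1 / ‖X j - X i‖ := by
    rw [← Equiv.sum_comp π fun i => ∑ j, 1 / ‖X j - X i‖]
    exact Finset.sum_congr rfl fun i _ => Equiv.sum_comp π fun j => 1 / ‖X j - X (π i)‖
  linarith
theorem UN_perm {n : ℕ} (R lam : ℝ) (π : Equiv.Perm (Fin n)) (X : Cfg n) :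
    UN R lam (X ∘ π) = UN R lam X := by
  rw [UN, UN, Wee_perm]
  congr 1
  exact Equiv.sum_comp π fun i => VR R (X i)
theorem UN_rf {n : ℕ} (R lam : ℝ) (k : Fin 3) (X : Cfg n) :
    UN R lam (fun i => rf k (X i)) = UN R lam X := by
  simp only [UN, Wee, VR_rf, ← rf_sub, norm_rf]

end Vale.Agent.P363
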