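import Vale.Agent.P363.A.Approx

/-!
# P363 A/Limit  (TASK)

`mem_of_limit`: pass to the limit in `WD` (Cauchy-Schwarz).  `complete`: completeness of `Lp ℝ 2` (`MemLp.toLp`, `cauchySeq_tendsto_of_complete`), or
`MeasureTheory.Lp.cauchy_complete_eLpNorm`.  `approx_ae`: subsequence with `hn ≤ 2^{-m}`; `∑ ∫ |h m - a|² < ∞` gives a.e. convergence of the terms to `0`
(`lintegral_tsum`, `ae_lt_top`).  `ibp`: approximate `b` by `Sm` functions.  `mem_of_dom`: dominated convergence.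
-/

open MeasureTheory Filter Topology Set
open scoped ContDiff

set_option linter.unusedSectionVars false

noncomputable section

namespace Vale.Agent.P363

variable {V : Type} [NormedAddCommGroup V] [NormedSpace ℝ V] [FiniteDimensional ℝ V]
  [MeasureSpace V] [BorelSpace V] [(volume : Measure V).IsAddHaarMeasure]
  {ι : Type} [Fintype ι] {e : ι → V}

theorem lim_inner {f g : V → ℝ} (hf : MemLp f 2 volume) (hg : MemLp g 2 volume) :
    inner ℝ (hf.toLp f) (hg.toLp g) = ∫ x, f x * g x := by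
  rw [L2.inner_def]
  refine integral_congr_ae ?_
  filter_upwards [hf.coeFn_toLp, hg.coeFn_toLp] with x h1 h2
  rw [h1, h2, RCLike.inner_apply, conj_trivial, mul_comm]

theorem lim_norm {f g : V → ℝ} (hf : MemLp f 2 volume) (hg : MemLp g 2 volume) :
    ‖hf.toLp f - hg.toLp g‖ ^ 2 = ∫ x, (f x - g x) ^ 2 := by
  rw [← MemLp.toLp_sub, ← real_inner_self_eq_norm_sq, lim_inner]
  simp only [Pi.sub_apply, sq]

theorem lim_sq {a : ℕ → ℝ} (h : Tendsto (fun m => a m ^ 2) atTop (𝓝 0)) :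
    Tendsto a atTop (𝓝 0) := by
  have h1 := h.sqrt
  simp only [Real.sqrt_sq_eq_abs, Real.sqrt_zero] at h1
  exact (tendsto_zero_iff_abs_tendsto_zero _).mpr h1

theorem lim_mul {u : ℕ → V → ℝ} {f ψ : V → ℝ} (hψ : MemLp ψ 2 volume)
    (hu : ∀ m, MemLp (u m) 2 volume) (hf : MemLp f 2 volume)
    (h : Tendsto (fun m => ∫ x, (u m x - f x) ^ 2) atTop (𝓝 0)) :
    Tendsto (fun m => ∫ x, ψ x * u m x) atTop (𝓝 (∫ x, ψ x * f x)) := by
  simp only [← lim_norm (hu _) hf] at h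
  simp only [← lim_inner hψ (hu _), ← lim_inner hψ hf]
  exact tendsto_const_nhds.inner (tendsto_iff_norm_sub_tendsto_zero.mpr (lim_sq h))

theorem lim_cauchy {u : ℕ → V → ℝ} (hu : ∀ m, MemLp (u m) 2 volume)
    (hc : ∀ ε : ℝ, 0 < ε → ∃ N, ∀ m ≥ N, ∀ l ≥ N, ∫ x, (u m x - u l x) ^ 2 ≤ ε) :
    ∃ f, MemLp f 2 volume ∧ Tendsto (fun m => ∫ x, (u m x - f x) ^ 2) atTop (𝓝 0) := by
  obtain ⟨F, hF⟩ := cauchySeq_tendsto_of_complete (u := fun m => (hu m).toLp _)
    (Metric.cauchySeq_iff.mpr fun ε hε => by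
      obtain ⟨N, hN⟩ := hc ((ε / 2) ^ 2) (by positivity)
      refine ⟨N, fun m hm l hl => ?_⟩
      have h := hN m hm l hl
      rw [← lim_norm (hu m) (hu l)] at h
      rw [dist_eq_norm]
      exact (abs_le_of_sq_le_sq' h (by positivity)).2.trans_lt (half_lt_self hε))
  refine ⟨F, Lp.memLp F, ?_⟩
  simp only [← lim_norm (hu _) (Lp.memLp F), Lp.toLp_coeFn]
  simpa using (tendsto_iff_norm_sub_tendsto_zero.mp hF).pow 2

theorem lim_ae {u : ℕ → V → ℝ} {f : V → ℝ} (hu : ∀ m, MemLp (u m) 2 volume)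
    (hf : MemLp f 2 volume) (hs : Summable fun m => ∫ x, (u m x - f x) ^ 2) :
    ∀ᵐ x, Tendsto (fun m => u m x) atTop (𝓝 (f x)) := by
  have hi : ∀ m, Integrable fun x => (u m x - f x) ^ 2 := fun m => ((hu m).sub hf).integrable_sq
  have e : ∀ m, eLpNorm (fun x => (u m x - f x) ^ 2) 1 volume =
      ENNReal.ofReal (∫ x, (u m x - f x) ^ 2) := fun m => by
    rw [eLpNorm_one_eq_lintegral_enorm, ← ofReal_integral_norm_eq_lintegral_enorm (hi m)]
    simp only [Real.norm_eq_abs, abs_pow, sq_abs]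
  have h := summable_norm_of_tsum_eLpNorm_ne_top (p := 1) le_rfl (fun m => (hi m).1) (by
    simp only [e]
    rw [← ENNReal.ofReal_tsum_of_nonneg (fun m => integral_nonneg fun x => sq_nonneg _) hs]
    exact ENNReal.ofReal_ne_top)
  filter_upwards [h] with x hx
  exact tendsto_sub_nhds_zero_iff.mp (lim_sq hx.of_norm.tendsto_atTop_zero)

theorem lim_hn (a b : S e) : hn (a - b) =
    (∫ x, (a.f x - b.f x) ^ 2) + 1 / 2 * ∑ k, ∫ x, (a.g k x - b.g k x) ^ 2 := by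
  simp only [hn, ip, kin, S.sub_f, S.sub_g, sq]

theorem lim_nn (u v : V → ℝ) : 0 ≤ ∫ x, (u x - v x) ^ 2 := integral_nonneg fun _ => sq_nonneg _

theorem lim_f (a b : S e) : ∫ x, (a.f x - b.f x) ^ 2 ≤ hn (a - b) := by
  rw [lim_hn]
  linarith [Finset.sum_nonneg fun k (_ : k ∈ Finset.univ) => lim_nn (a.g k) (b.g k)]

theorem lim_g (a b : S e) (k : ι) : ∫ x, (a.g k x - b.g k x) ^ 2 ≤ 2 * hn (a - b) := by
  rw [lim_hn]
  linarith [Finset.single_le_sum (fun k (_ : k ∈ Finset.univ) => lim_nn (a.g k) (b.g k))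
    (Finset.mem_univ k), lim_nn a.f b.f]

theorem lim_of {h : ℕ → S e} {a : S e}
    (h1 : Tendsto (fun m => ∫ x, ((h m).f x - a.f x) ^ 2) atTop (𝓝 0))
    (h2 : ∀ k, Tendsto (fun m => ∫ x, ((h m).g k x - a.g k x) ^ 2) atTop (𝓝 0)) :
    Tendsto (fun m => hn (h m - a)) atTop (𝓝 0) := by
  have h3 := h1.add ((tendsto_finsetSum Finset.univ fun k _ => h2 k).const_mul (1 / 2))
  rw [Finset.sum_const_zero, mul_zero, add_zero] at h3
  simp only [lim_hn]
  exact h3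

theorem mem_of_limit {h : ℕ → S e} {f : V → ℝ} {g : ι → V → ℝ} (hf : MemLp f 2 volume)
    (hg : ∀ k, MemLp (g k) 2 volume)
    (h1 : Tendsto (fun m => ∫ x, ((h m).f x - f x) ^ 2) atTop (𝓝 0))
    (h2 : ∀ k, Tendsto (fun m => ∫ x, ((h m).g k x - g k x) ^ 2) atTop (𝓝 0)) :
    (f, g) ∈ Sob e := by
  refine mem_Sob.mpr ⟨hf, hg, fun k φ p1 p2 => ?_⟩
  have t1 := lim_mul (((p1.continuous_fderiv (by simp)).clm_apply
    continuous_const).memLp_of_hasCompactSupport (p2.fderiv_apply ℝ (e k))) (fun m => (h m).mem) hf h1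
  have t2 := (lim_mul (p1.continuous.memLp_of_hasCompactSupport p2) (fun m => (h m).gmem k)
    (hg k) (h2 k)).neg
  exact tendsto_nhds_unique (t1.congr fun m => (h m).wd k φ p1 p2) t2

/-- Pointwise convergence dominated in `L²` gives convergence in `L²`. -/
theorem tendsto_sq_of_dom {u : ℕ → V → ℝ} {f b : V → ℝ} (hu : ∀ m, AEStronglyMeasurable (u m) volume)
    (hb : MemLp b 2 volume) (hle : ∀ m, ∀ᵐ x, |u m x| ≤ b x)
    (hl : ∀ᵐ x, Tendsto (fun m => u m x) atTop (𝓝 (f x))) :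
    MemLp f 2 volume ∧ Tendsto (fun m => ∫ x, (u m x - f x) ^ 2) atTop (𝓝 0) := by
  have hf := aestronglyMeasurable_of_tendsto_ae atTop hu hl
  have h1 : ∀ᵐ x, |f x| ≤ b x := by
    filter_upwards [ae_all_iff.mpr hle, hl] with x h1 h2
    exact le_of_tendsto' h2.abs h1
  refine ⟨hb.mono' hf h1, ?_⟩
  have h2 := tendsto_integral_of_dominated_convergence (F := fun m x => (u m x - f x) ^ 2)
    (f := fun _ => 0) (fun x => (2 * b x) ^ 2) (fun m => ((hu m).sub hf).pow 2)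
    (hb.const_mul 2).integrable_sq (fun m => by
      filter_upwards [hle m, h1] with x h2 h3
      rw [Real.norm_eq_abs, abs_pow]
      exact pow_le_pow_left₀ (abs_nonneg _) ((abs_sub _ _).trans (by linarith)) 2) (by
      filter_upwards [hl] with x hx
      simpa using (tendsto_sub_nhds_zero_iff.mpr hx).pow 2)
  rwa [integral_zero] at h2

theorem mem_of_dom {h : ℕ → S e} {f b : V → ℝ} {g : ι → V → ℝ} (hb : MemLp b 2 volume)
    (hle : ∀ m, ∀ᵐ x, |(h m).f x| ≤ b x ∧ ∀ k, |(h m).g k x| ≤ b x)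
    (hl : ∀ᵐ x, Tendsto (fun m => (h m).f x) atTop (𝓝 (f x)) ∧
      ∀ k, Tendsto (fun m => (h m).g k x) atTop (𝓝 (g k x))) :
    ∃ a : S e, a.f = f ∧ (∀ k, a.g k = g k) ∧ Tendsto (fun m => hn (h m - a)) atTop (𝓝 0) := by
  obtain ⟨f1, f2⟩ := tendsto_sq_of_dom (fun m => (h m).mem.1) hb
    (fun m => (hle m).mono fun x hx => hx.1) (hl.mono fun x hx => hx.1)
  have hg := fun k => tendsto_sq_of_dom (fun m => ((h m).gmem k).1) hb
    (fun m => (hle m).mono fun x hx => hx.2 k) (hl.mono fun x hx => hx.2 k)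
  exact ⟨S.of (mem_of_limit f1 (fun k => (hg k).1) f2 fun k => (hg k).2), rfl, fun _ => rfl,
    lim_of f2 fun k => (hg k).2⟩

theorem S.complete {h : ℕ → S e}
    (hc : ∀ ε : ℝ, 0 < ε → ∃ N, ∀ m ≥ N, ∀ l ≥ N, hn (h m - h l) ≤ ε) :
    ∃ a : S e, Tendsto (fun m => hn (h m - a)) atTop (𝓝 0) := by
  obtain ⟨f, f1, f2⟩ := lim_cauchy (fun m => (h m).mem) fun ε hε =>
    (hc ε hε).imp fun N hN m hm l hl => (lim_f _ _).trans (hN m hm l hl)
  choose g g1 g2 using fun k => lim_cauchy (fun m => (h m).gmem k) fun ε hε =>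
    (hc (ε / 2) (half_pos hε)).imp fun N hN m hm l hl =>
      (lim_g _ _ k).trans (by linarith [hN m hm l hl])
  exact ⟨S.of (mem_of_limit f1 g1 f2 g2), lim_of f2 g2⟩

theorem exists_subseq_ae {h : ℕ → S e} {a : S e}
    (hl : Tendsto (fun m => hn (h m - a)) atTop (𝓝 0)) :
    ∃ φ : ℕ → ℕ, StrictMono φ ∧ Summable (fun m => hn (h (φ m) - a)) ∧
      ∀ᵐ x, Tendsto (fun m => (h (φ m)).f x) atTop (𝓝 (a.f x)) ∧
        ∀ k, Tendsto (fun m => (h (φ m)).g k x) atTop (𝓝 (a.g k x)) := by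
  obtain ⟨φ, h1, h2⟩ := extraction_forall_of_eventually
    (P := fun n k => hn (h k - a) ≤ (1 / 2) ^ n) fun n => hl.eventually (ge_mem_nhds (by positivity))
  have h3 : Summable fun m => hn (h (φ m) - a) :=
    Summable.of_nonneg_of_le (fun _ => hn_nonneg _) h2 summable_geometric_two
  exact ⟨φ, h1, h3, (lim_ae (fun m => (h (φ m)).mem) a.mem
    (h3.of_nonneg_of_le (fun _ => lim_nn _ _) fun _ => lim_f _ _)).and (ae_all_iff.mpr fun k =>
      lim_ae (fun m => (h (φ m)).gmem k) (a.gmem k)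
        ((h3.mul_left 2).of_nonneg_of_le (fun _ => lim_nn _ _) fun _ => lim_g _ _ k))⟩

theorem S.approx_ae (a : S e) :
    ∃ h : ℕ → S e, (∀ m, Sm (h m)) ∧ Tendsto (fun m => hn (h m - a)) atTop (𝓝 0) ∧
      Summable (fun m => hn (h m - a)) ∧
      ∀ᵐ x, Tendsto (fun m => (h m).f x) atTop (𝓝 (a.f x)) ∧
        ∀ k, Tendsto (fun m => (h m).g k x) atTop (𝓝 (a.g k x)) := by
  obtain ⟨h, h1, h2⟩ := a.approx
  obtain ⟨φ, p1, p2, p3⟩ := exists_subseq_ae h2
  exact ⟨fun m => h (φ m), fun m => h1 _, h2.comp p1.tendsto_atTop, p2, p3⟩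

theorem ibp (a b : S e) (k : ι) : ∫ x, a.g k x * b.f x = -∫ x, a.f x * b.g k x := by
  obtain ⟨h, h1, h2⟩ := b.approx
  have t1 := lim_mul (a.gmem k) (fun m => (h m).mem) b.mem
    (squeeze_zero (fun _ => lim_nn _ _) (fun _ => lim_f _ _) h2)
  have t2 := (lim_mul a.mem (fun m => (h m).gmem k) (b.gmem k)
    (squeeze_zero (fun _ => lim_nn _ _) (fun _ => lim_g _ _ k) (by simpa using h2.const_mul 2))).neg
  refine tendsto_nhds_unique (t1.congr fun m => ?_) t2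
  have h3 := a.wd k _ (h1 m).1 (h1 m).2.1
  simp only [(h1 m).2.2 k, mul_comm (a.f _), mul_comm (a.g k _), h3, neg_neg]

/-- Testing against a `C²` function with compact support. -/
theorem kin_C2 (a : S e) {ξ : V → ℝ} (h2 : ContDiff ℝ 2 ξ) (hc : HasCompactSupport ξ) :
    ∃ b : S e, b.f = ξ ∧ (∀ k x, b.g k x = fderiv ℝ ξ x (e k)) ∧
      kin a b = -(1 / 2) * ∫ x, a.f x * ∑ k, fderiv ℝ (fun y => fderiv ℝ ξ y (e k)) x (e k) := by
  have hk := fun k => of_C1c (e := e) (f := fun y => fderiv ℝ ξ y (e k))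
    ((h2.fderiv_right (m := 1) (by norm_num)).clm_apply contDiff_const) (hc.fderiv_apply ℝ (e k))
  refine ⟨S.of (of_C1c (h2.of_le (by norm_num)) hc), rfl, fun _ _ => rfl, ?_⟩
  have h3 := fun k => ibp a (S.of (hk k)) k
  simp only [S.of_f, S.of_g] at h3
  simp only [kin, S.of_g, h3, Finset.mul_sum _ _ (a.f _)]
  rw [integral_finsetSum (f := fun k x => a.f x * fderiv ℝ (fun y => fderiv ℝ ξ y (e k)) x (e k)) _
    fun k _ => a.mem.integrable_mul ((S.of (hk k)).gmem k), Finset.sum_neg_distrib]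
  ring

end Vale.Agent.P363
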