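import Vale.Agent.P363.A.Trunc
import Vale.Agent.P363.A.Line

/-!
# P363 A/Log  (TASK)

`log_mem`: `chain1` with `G t = log (1 + t/ε)` for `t ≥ 0`, extended `C¹` to `t < 0` by `t / ε`; `mem_congr`.
`log_cacc`: test with `η = θ² / (f + ε) = θ² (H f - 1/ε) + θ²/ε` (`chain1`, `mul1`, `of_C1c`): `½ A ≤ ∫ θ ∇θ·L + ∫ |U| θ²`, `L = ∇f/(f+ε)`, `A = ∫ θ² |L|²`.
`pos_of_super`: if `{f = 0}` and `{f ≥ c}` both have positive measure in a ball-like compact convex part `K` of `O` (exhaust `O` by the compact convex sets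
`{x ∈ closedBall 0 m | infDist x Oᶜ ≥ 1/m}`, or argue with two small balls and the convex hull, or Lebesgue density points), then `shift_sq_le` for `log (1 + f/ε)` with
`B = {y ∈ Z | y + h ∈ P}` gives `log (1 + c/ε)² |B| ≤ ‖h‖² K` for all `ε`, so `|B| = 0` for every `h`; integrate over `h` (Tonelli): `|Z| |P| = 0`.
-/

open MeasureTheory Filter Topology Set
open scoped ContDiff

set_option linter.unusedSectionVars false

noncomputable section

namespace Vale.Agent.P363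

theorem log_chain (a : S e3) (h0 : ∀ᵐ x, 0 ≤ a.f x) {G G' : ℝ → ℝ}
    (hG : ∀ t, 0 ≤ t → HasDerivAt G (G' t) t) (hc : ContinuousOn G' (Ici 0)) {C : ℝ}
    (hC : ∀ t, 0 ≤ t → |G' t| ≤ C) (hz : G 0 = 0) :
    ((fun x => G (a.f x)), fun k x => G' (a.f x) * a.g k x) ∈ Sob e3 := by
  have hc' : Continuous fun t : ℝ => G' (max t 0) :=
    hc.comp_continuous (continuous_id.max continuous_const) fun t => le_max_right t 0
  have hd : ∀ t, HasDerivAt (fun u => ∫ s in (0 : ℝ)..u, G' (max s 0)) (G' (max t 0)) t :=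
    fun t => (hc'.integral_hasStrictDerivAt 0 t).hasDerivAt
  have hm := chain1 a (G := fun u => ∫ s in (0 : ℝ)..u, G' (max s 0))
    (G' := fun t => G' (max t 0)) hd hc' (C := C) (fun t => hC _ (le_max_right t 0)) (by simp)
  refine mem_congr hm ?_ fun k => ?_
  · filter_upwards [h0] with x hx
    have e1 : ∫ s in (0 : ℝ)..a.f x, G' (max s 0) = ∫ s in (0 : ℝ)..a.f x, G' s := by
      refine intervalIntegral.integral_congr fun s hs => ?_
      rw [uIcc_of_le hx] at hs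
      simp only [max_eq_left hs.1]
    rw [e1, intervalIntegral.integral_eq_sub_of_hasDerivAt (f := G), hz, sub_zero]
    · intro s hs
      rw [uIcc_of_le hx] at hs
      exact hG s hs.1
    · refine (hc.mono ?_).intervalIntegrable
      rw [uIcc_of_le hx]
      exact fun s hs => hs.1
  · filter_upwards [h0] with x hx
    simp only [max_eq_left hx]

theorem log_mem (a : S e3) (h0 : ∀ᵐ x, 0 ≤ a.f x) {ε : ℝ} (hε : 0 < ε) :
    ((fun x => Real.log (1 + a.f x / ε)), fun k x => a.g k x / (a.f x + ε)) ∈ Sob e3 := by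
  have hm := log_chain a h0 (G := fun t => Real.log (1 + t / ε)) (G' := fun t => 1 / (t + ε))
    (C := 1 / ε) ?_ ?_ ?_ (by simp)
  · refine mem_congr hm (ae_of_all _ fun x => rfl) fun k => ae_of_all _ fun x => ?_
    show 1 / (a.f x + ε) * a.g k x = a.g k x / (a.f x + ε)
    ring
  · intro t ht
    have h1 : (0 : ℝ) < 1 + t / ε := by positivity
    have h2 : HasDerivAt (fun t : ℝ => 1 + t / ε) (1 / ε) t :=
      ((hasDerivAt_id t).div_const ε).const_add 1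
    have h3 := h2.log h1.ne'
    have e : 1 / ε / (1 + t / ε) = 1 / (t + ε) := by
      field_simp
      ring
    rw [e] at h3
    exact h3
  · refine continuousOn_const.div (continuousOn_id.add continuousOn_const) fun t ht => ?_
    have : (0 : ℝ) ≤ t := ht
    positivity
  · intro t ht
    rw [abs_of_nonneg (by positivity)]
    exact one_div_le_one_div_of_le hε (by linarith)

theorem log_inv (a : S e3) (h0 : ∀ᵐ x, 0 ≤ a.f x) {ε : ℝ} (hε : 0 < ε) :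
    ((fun x => 1 / (a.f x + ε) - 1 / ε), fun k x => -(1 / (a.f x + ε) ^ 2) * a.g k x) ∈ Sob e3 := by
  refine log_chain a h0 (G := fun t => 1 / (t + ε) - 1 / ε) (G' := fun t => -(1 / (t + ε) ^ 2))
    (C := 1 / ε ^ 2) ?_ ?_ ?_ (by simp)
  · intro t ht
    have h1 : (0 : ℝ) < t + ε := by positivity
    have h2 : HasDerivAt (fun t : ℝ => t + ε) 1 t := (hasDerivAt_id t).add_const ε
    have h3 := (h2.inv h1.ne').sub_const (1 / ε)
    have e : -1 / (t + ε) ^ 2 = -(1 / (t + ε) ^ 2) := by ring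
    rw [e] at h3
    simpa only [one_div, Pi.inv_def] using h3
  · refine (continuousOn_const.div ((continuousOn_id.add continuousOn_const).pow 2)
      fun t ht => ?_).neg
    have : (0 : ℝ) ≤ t := ht
    show (t + ε) ^ 2 ≠ 0
    positivity
  · intro t ht
    rw [abs_neg, abs_of_nonneg (by positivity)]
    exact one_div_le_one_div_of_le (by positivity) (by nlinarith)

theorem log_eta (a : S e3) (h0 : ∀ᵐ x, 0 ≤ a.f x) {θ : E3 → ℝ}
    (h1 : ContDiff ℝ 1 θ) (h2 : HasCompactSupport θ) {ε : ℝ} (hε : 0 < ε) :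
    ((fun x => θ x ^ 2 / (a.f x + ε)), fun k x =>
      2 * θ x * fderiv ℝ θ x (e3 k) / (a.f x + ε) - θ x ^ 2 * a.g k x / (a.f x + ε) ^ 2) ∈
      Sob e3 := by
  have h3 : ContDiff ℝ 1 fun x => θ x ^ 2 := h1.pow 2
  have h4 : HasCompactSupport fun x => θ x ^ 2 :=
    h2.comp_left (g := fun t : ℝ => t ^ 2) (by simp)
  have hd : ∀ x k, fderiv ℝ (fun x => θ x ^ 2) x (e3 k) = 2 * θ x * fderiv ℝ θ x (e3 k) := by
    intro x k
    have := ((h1.differentiable one_ne_zero x).hasFDerivAt.pow 2).fderiv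
    rw [this]
    simp
  have m1 := mul1 (S.of (log_inv a h0 hε)) (mul1_of_compact h3 h4)
  have m2 := of_C1c (e := e3) h3 h4
  have m3 := (Sob e3).add_mem m1 ((Sob e3).smul_mem (1 / ε) m2)
  refine mem_congr (f := fun x => θ x ^ 2 * (1 / (a.f x + ε) - 1 / ε) + 1 / ε * θ x ^ 2)
    (g := fun k x => (θ x ^ 2 * (-(1 / (a.f x + ε) ^ 2) * a.g k x) +
      fderiv ℝ (fun x => θ x ^ 2) x (e3 k) * (1 / (a.f x + ε) - 1 / ε)) +
      1 / ε * fderiv ℝ (fun x => θ x ^ 2) x (e3 k)) m3 (ae_of_all _ fun x => ?_)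
    fun k => ae_of_all _ fun x => ?_
  · ring
  · simp only [hd]
    ring

theorem log_intA (a : S e3) (h0 : ∀ᵐ x, 0 ≤ a.f x) {θ : E3 → ℝ}
    (h1 : ContDiff ℝ 1 θ) (h2 : HasCompactSupport θ) {ε : ℝ} (hε : 0 < ε) :
    Integrable fun x => θ x ^ 2 * ∑ k, (a.g k x / (a.f x + ε)) ^ 2 := by
  obtain ⟨l, hlg⟩ : ∃ l : S e3, ∀ k x, l.g k x = a.g k x / (a.f x + ε) :=
    ⟨S.of (log_mem a h0 hε), fun _ _ => rfl⟩
  obtain ⟨C, hC⟩ := (mul1_of_compact h1 h2).2
  have : ∀ k, Integrable fun x => (θ x * l.g k x) ^ 2 := fun k =>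
    (ch_bmul h1.continuous.aestronglyMeasurable (ae_of_all _ fun x => (hC x).1)
      (l.gmem k)).integrable_sq
  refine (integrable_finsetSum Finset.univ fun k _ => this k).congr (ae_of_all _ fun x => ?_)
  simp only [hlg, mul_pow, Finset.mul_sum]

theorem log_cacc {U : E3 → ℝ} (hU : FB e3 U) {a : S e3} (h0 : ∀ᵐ x, 0 ≤ a.f x) {θ : E3 → ℝ}
    (h1 : ContDiff ℝ 1 θ) (h2 : HasCompactSupport θ)
    (hs : ∀ η : S e3, (∀ᵐ x, 0 ≤ η.f x) → (∀ᵐ x, θ x = 0 → η.f x = 0) → 0 ≤ qf U a η)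
    {ε : ℝ} (hε : 0 < ε) :
    ∫ x, θ x ^ 2 * ∑ k, (a.g k x / (a.f x + ε)) ^ 2 ≤
      4 * (∫ x, ‖fderiv ℝ θ x‖ ^ 2) + 4 * ∫ x, |U x| * θ x ^ 2 := by
  obtain ⟨η, hηf, hηg⟩ : ∃ η : S e3, (∀ x, η.f x = θ x ^ 2 / (a.f x + ε)) ∧ ∀ k x, η.g k x =
      2 * θ x * fderiv ℝ θ x (e3 k) / (a.f x + ε) - θ x ^ 2 * a.g k x / (a.f x + ε) ^ 2 :=
    ⟨S.of (log_eta a h0 h1 h2 hε), fun _ => rfl, fun _ _ => rfl⟩
  obtain ⟨b, hbf, hbg⟩ : ∃ b : S e3, (∀ x, b.f x = θ x) ∧ ∀ k x, b.g k x = fderiv ℝ θ x (e3 k) :=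
    ⟨S.of (of_C1c h1 h2), fun _ => rfl, fun _ _ => rfl⟩
  have hq := hs η (by
      filter_upwards [h0] with x hx
      rw [hηf]; positivity) (ae_of_all _ fun x hx => by rw [hηf, hx]; simp)
  have iA := log_intA a h0 h1 h2 hε
  have iD : Integrable fun x => ‖fderiv ℝ θ x‖ ^ 2 := by
    refine (integrable_finsetSum Finset.univ fun k _ => b.int_gsq k).congr
      (ae_of_all _ fun x => ?_)
    simp only [hbg, sum_sq_apply_e3]
  have iU : Integrable fun x => |U x| * θ x ^ 2 := by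
    obtain ⟨C', -, h⟩ := hU.abs.2 1 one_pos
    simpa only [hbf] using (h b).1
  have hk : ∫ x, ∑ k, a.g k x * η.g k x ≤ ∫ x, (2 * ‖fderiv ℝ θ x‖ ^ 2 -
      1 / 2 * (θ x ^ 2 * ∑ k, (a.g k x / (a.f x + ε)) ^ 2)) := by
    refine integral_mono_ae (integrable_finsetSum _ fun k _ => a.int_gmul η k k)
      ((iD.const_mul 2).sub (iA.const_mul _)) ?_
    filter_upwards [h0] with x hx
    rw [← sum_sq_apply_e3, Finset.mul_sum, Finset.mul_sum, Finset.mul_sum,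
      ← Finset.sum_sub_distrib]
    refine Finset.sum_le_sum fun k _ => ?_
    have hp : 0 < a.f x + ε := by linarith
    have e : a.g k x * η.g k x = 2 * (θ x * (a.g k x / (a.f x + ε))) * fderiv ℝ θ x (e3 k) -
        θ x ^ 2 * (a.g k x / (a.f x + ε)) ^ 2 := by
      rw [hηg]
      field_simp
    rw [e]
    nlinarith [sq_nonneg (θ x * (a.g k x / (a.f x + ε)) - 2 * fderiv ℝ θ x (e3 k))]
  have hp : pot U a η ≤ ∫ x, |U x| * θ x ^ 2 := by
    refine integral_mono_ae (hU.int a η) iU ?_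
    filter_upwards [h0] with x hx
    have hp : 0 < a.f x + ε := by linarith
    have e1 : 0 ≤ a.f x * η.f x := by rw [hηf]; positivity
    have e2 : a.f x * η.f x ≤ θ x ^ 2 := by
      rw [hηf, ← mul_div_assoc, div_le_iff₀ hp]
      nlinarith [sq_nonneg (θ x)]
    calc U x * (a.f x * η.f x) ≤ |U x| * (a.f x * η.f x) :=
          mul_le_mul_of_nonneg_right (le_abs_self _) e1
      _ ≤ |U x| * θ x ^ 2 := mul_le_mul_of_nonneg_left e2 (abs_nonneg _)
  rw [integral_sub (iD.const_mul 2) (iA.const_mul _), integral_const_mul, integral_const_mul] at hk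
  rw [qf, kin_eq] at hq
  linarith

theorem log_loc {U : E3 → ℝ} (hU : FB e3 U) {a : S e3} (h0 : ∀ᵐ x, 0 ≤ a.f x) {O : Set E3}
    (hs : ∀ η : S e3, (∀ᵐ x, 0 ≤ η.f x) → (∀ᵐ x, x ∉ O → η.f x = 0) → 0 ≤ qf U a η) {L L' : ℝ}
    (hL : 0 < L) (hL' : L < L') : ∃ K : ℝ, ∀ p : E3, Metric.ball p L' ⊆ O → ∀ ε : ℝ, 0 < ε →
      ∫ x in Metric.ball p L, ∑ k, (a.g k x / (a.f x + ε)) ^ 2 ≤ K := by
  let b : ContDiffBump (0 : E3) := ⟨L, L', hL, hL'⟩
  obtain ⟨β, hβ, hβ1, hβ0⟩ : ∃ β : E3 → ℝ, ContDiff ℝ 1 β ∧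
      (∀ x ∈ Metric.ball (0 : E3) L, β x = 1) ∧ ∀ x ∉ Metric.ball (0 : E3) L', β x = 0 :=
    ⟨b, b.contDiff, fun x hx => b.one_of_mem_closedBall (Metric.ball_subset_closedBall hx),
      fun x hx => b.zero_of_le_dist (by simpa using hx)⟩
  obtain ⟨C, -, hC⟩ := hU.2 1 one_pos
  refine ⟨4 * (∫ x, ‖fderiv ℝ β x‖ ^ 2) +
    4 * (1 * (1 / 2 * ∫ x, ‖fderiv ℝ β x‖ ^ 2) + C * ∫ x, β x ^ 2), fun p hp ε hε => ?_⟩
  have h1 : ContDiff ℝ 1 fun x => β (x - p) := hβ.comp (contDiff_id.sub contDiff_const)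
  have hz : ∀ x ∉ Metric.ball p L', β (x - p) = 0 := fun x hx =>
    hβ0 _ (by simpa [dist_eq_norm] using hx)
  have h2 : HasCompactSupport fun x => β (x - p) :=
    HasCompactSupport.intro (isCompact_closedBall p L') fun x hx =>
      hz x fun h => hx (Metric.ball_subset_closedBall h)
  have hc := log_cacc hU h0 h1 h2 (fun η e1 e2 => hs η e1 (by
    filter_upwards [e2] with x hx hO
    exact hx (hz x fun h => hO (hp h)))) hε
  have iA := log_intA a h0 h1 h2 hε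
  obtain ⟨c, hcf, hcg⟩ : ∃ c : S e3, (∀ x, c.f x = β (x - p)) ∧
      ∀ k x, c.g k x = fderiv ℝ (fun x => β (x - p)) x (e3 k) :=
    ⟨S.of (of_C1c h1 h2), fun _ => rfl, fun _ _ => rfl⟩
  have hd : ∀ x, fderiv ℝ (fun x => β (x - p)) x = fderiv ℝ β (x - p) := fun x =>
    fderiv_comp_sub p
  have e1 : ∫ x, ‖fderiv ℝ β (x - p)‖ ^ 2 = ∫ x, ‖fderiv ℝ β x‖ ^ 2 :=
    integral_sub_right_eq_self (fun x => ‖fderiv ℝ β x‖ ^ 2) p
  have e2 : ∫ x, β (x - p) ^ 2 = ∫ x, β x ^ 2 :=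
    integral_sub_right_eq_self (fun x => β x ^ 2) p
  have e3' := (hC c).2
  rw [kin_self, ip_self] at e3'
  simp only [hcf, hcg, sum_sq_apply_e3, hd, e1, e2] at e3'
  simp only [hd, e1] at hc
  have e4 : ∫ x in Metric.ball p L, ∑ k, (a.g k x / (a.f x + ε)) ^ 2 =
      ∫ x in Metric.ball p L, β (x - p) ^ 2 * ∑ k, (a.g k x / (a.f x + ε)) ^ 2 := by
    refine setIntegral_congr_fun measurableSet_ball fun x hx => ?_
    have : β (x - p) = 1 := hβ1 _ (by simpa [dist_eq_norm] using hx)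
    simp only [this, one_pow, one_mul]
  have e5 := setIntegral_le_integral (s := Metric.ball p L) iA
    (ae_of_all _ fun x => by positivity)
  rw [e4]
  linarith

/-- The logarithmic gradient is bounded on balls, uniformly in the centre. -/
theorem log_unif {U : E3 → ℝ} (hU : FB e3 U) {a : S e3} (h0 : ∀ᵐ x, 0 ≤ a.f x) {O : Set E3}
    (hs : ∀ η : S e3, (∀ᵐ x, 0 ≤ η.f x) → (∀ᵐ x, x ∉ O → η.f x = 0) → 0 ≤ qf U a η) {L : ℝ}
    (hL : 0 < L) : ∃ K : ℝ, ∀ p : E3, Metric.ball p (L + 1) ⊆ O → ∀ ε : ℝ, 0 < ε →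
      ∫ x in Metric.ball p L, ∑ k, (a.g k x / (a.f x + ε)) ^ 2 ≤ K :=
  log_loc hU h0 hs hL (lt_add_one L)

theorem log_null {a : S e3} (h0 : ∀ᵐ x, 0 ≤ a.f x) {A : Set E3} (hA : MeasurableSet A)
    (hc : Convex ℝ A) (hfin : volume A ≠ ⊤) {K : ℝ}
    (hK : ∀ ε : ℝ, 0 < ε → ∫ x in A, ∑ k, (a.g k x / (a.f x + ε)) ^ 2 ≤ K)
    {F : E3 → ℝ} (hF : Measurable F) (hf : a.f =ᵐ[volume] F) {c : ℝ} (hc0 : 0 < c) (h : E3) :
    ∀ᵐ y, ¬((y ∈ A ∧ F y = 0) ∧ (y + h ∈ A ∧ c ≤ F (y + h))) := by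
  obtain ⟨B, hBd⟩ : ∃ B : Set E3,
      B = {y | (y ∈ A ∧ F y = 0) ∧ (y + h ∈ A ∧ c ≤ F (y + h))} := ⟨_, rfl⟩
  have hT : Measurable fun y : E3 => y + h := measurable_add_const h
  have hB : MeasurableSet B := by
    rw [hBd]
    exact (hA.inter (measurableSet_eq_fun hF measurable_const)).inter
      ((hT hA).inter (measurableSet_le measurable_const (hF.comp hT)))
  have hBm : ∀ y ∈ B, (y ∈ A ∧ F y = 0) ∧ (y + h ∈ A ∧ c ≤ F (y + h)) := by
    rw [hBd]; exact fun y hy => hy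
  have hBfin : volume B ≠ ⊤ :=
    ne_top_of_le_ne_top hfin (measure_mono fun y hy => (hBm y hy).1.1)
  have hmp := measurePreserving_add_right (volume : Measure E3) h
  have hf2 : ∀ᵐ y, a.f (y + h) = F (y + h) := hmp.quasiMeasurePreserving.ae hf
  have key : ∀ M : ℝ, 0 < M → volume.real B * M ^ 2 ≤ ‖h‖ ^ 2 * K := by
    intro M hM
    have hE : 0 < Real.exp M - 1 := by
      have := Real.add_one_lt_exp hM.ne'
      linarith
    have hε : 0 < c / (Real.exp M - 1) := by positivity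
    obtain ⟨l, hlf, hlg⟩ : ∃ l : S e3,
        (∀ x, l.f x = Real.log (1 + a.f x / (c / (Real.exp M - 1)))) ∧
        ∀ k x, l.g k x = a.g k x / (a.f x + c / (Real.exp M - 1)) :=
      ⟨S.of (log_mem a h0 hε), fun _ => rfl, fun _ _ => rfl⟩
    have h1 := shift_sq_le l h hA hB fun y hy s hs =>
      hc.add_smul_mem (hBm y hy).1.1 (hBm y hy).2.1 hs
    have h2 : ∫ x in A, ∑ k, l.g k x ^ 2 ≤ K := by
      simpa only [hlg] using hK _ hε
    have i1 : Integrable fun y => (l.f (y + h) - l.f y) ^ 2 :=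
      ((l.mem.comp_measurePreserving hmp).sub l.mem).integrable_sq
    have h3 : ∫ _ in B, M ^ 2 ≤ ∫ y in B, (l.f (y + h) - l.f y) ^ 2 := by
      refine setIntegral_mono_on_ae (integrableOn_const hBfin) i1.integrableOn hB ?_
      filter_upwards [hf, hf2] with y e1 e2 hy
      obtain ⟨⟨-, u1⟩, -, u2⟩ := hBm y hy
      rw [hlf, hlf, e1, e2, u1, zero_div, add_zero, Real.log_one, sub_zero]
      refine pow_le_pow_left₀ hM.le ?_ 2
      rw [Real.le_log_iff_exp_le (by have := hc0.le.trans u2; positivity), div_div_eq_mul_div,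
        ← sub_le_iff_le_add', le_div_iff₀ hc0]
      nlinarith
    rw [setIntegral_const, smul_eq_mul] at h3
    have h4 := mul_le_mul_of_nonneg_left h2 (sq_nonneg ‖h‖)
    linarith
  have hz : volume.real B = 0 := by
    by_contra hne
    have hpos : 0 < volume.real B := lt_of_le_of_ne measureReal_nonneg (Ne.symm hne)
    have hK0 : 0 ≤ ‖h‖ ^ 2 * K := le_trans (by positivity) (key 1 one_pos)
    have h1 := key (‖h‖ ^ 2 * K / volume.real B + 1) (by positivity)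
    have h2 : volume.real B * (‖h‖ ^ 2 * K / volume.real B) = ‖h‖ ^ 2 * K := by field_simp
    have h3 : 0 ≤ ‖h‖ ^ 2 * K / volume.real B := by positivity
    nlinarith [mul_nonneg hpos.le (sq_nonneg (‖h‖ ^ 2 * K / volume.real B))]
  have hz' : volume B = 0 := by
    rwa [measureReal_eq_zero_iff hBfin] at hz
  rw [ae_iff]
  simpa only [not_not, hBd] using hz'

theorem log_dich {a : S e3} (h0 : ∀ᵐ x, 0 ≤ a.f x) {A : Set E3} (hA : MeasurableSet A)
    (hc : Convex ℝ A) (hfin : volume A ≠ ⊤) {K : ℝ}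
    (hK : ∀ ε : ℝ, 0 < ε → ∫ x in A, ∑ k, (a.g k x / (a.f x + ε)) ^ 2 ≤ K) :
    (∀ᵐ x, x ∈ A → a.f x = 0) ∨ ∀ᵐ x, x ∈ A → 0 < a.f x := by
  obtain ⟨F, hF, hf⟩ : ∃ F : E3 → ℝ, Measurable F ∧ a.f =ᵐ[volume] F :=
    ⟨a.mem.1.mk _, a.mem.1.stronglyMeasurable_mk.measurable, a.mem.1.ae_eq_mk⟩
  by_cases hZ : ∀ᵐ y, ¬(y ∈ A ∧ F y = 0)
  · right
    filter_upwards [hZ, h0, hf] with x hx h1 h2 hxA
    exact lt_of_le_of_ne h1 fun e => hx ⟨hxA, by rw [← h2, ← e]⟩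
  left
  have hP : ∀ c : ℝ, 0 < c → ∀ᵐ x, ¬(x ∈ A ∧ c ≤ F x) := by
    intro c hc0
    have h1 : ∀ᵐ h : E3, ∀ᵐ y : E3, ¬((y ∈ A ∧ F y = 0) ∧ (y + h ∈ A ∧ c ≤ F (y + h))) :=
      ae_of_all _ fun h => log_null h0 hA hc hfin hK hF hf hc0 h
    have hT : Measurable fun z : E3 × E3 => z.2 + z.1 := measurable_snd.add measurable_fst
    have hm : MeasurableSet {z : E3 × E3 |
        ¬((z.2 ∈ A ∧ F z.2 = 0) ∧ (z.2 + z.1 ∈ A ∧ c ≤ F (z.2 + z.1)))} :=
      (((measurable_snd hA).inter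
        (measurableSet_eq_fun (hF.comp measurable_snd) measurable_const)).inter
        ((hT hA).inter (measurableSet_le measurable_const (hF.comp hT)))).compl
    have h2 := (Measure.ae_ae_comm (μ := (volume : Measure E3)) (ν := (volume : Measure E3))
      (p := fun h y => ¬((y ∈ A ∧ F y = 0) ∧ (y + h ∈ A ∧ c ≤ F (y + h)))) hm).1 h1
    obtain ⟨y, hy, hy2⟩ := ((Filter.not_eventually.1 hZ).and_eventually h2).exists
    have h3 := (measurePreserving_add_left (volume : Measure E3) (-y)).quasiMeasurePreserving.ae hy2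
    filter_upwards [h3] with x hx hx2
    refine hx ⟨not_not.1 hy, ?_⟩
    rwa [add_neg_cancel_left]
  have h4 := ae_all_iff.2 fun m : ℕ => hP (1 / ((m : ℝ) + 1)) Nat.one_div_pos_of_nat
  filter_upwards [h4, h0, hf] with x hx h1 h2 hxA
  by_contra hne
  obtain ⟨m, hm⟩ := exists_nat_one_div_lt (lt_of_le_of_ne h1 (Ne.symm hne))
  exact hx m ⟨hxA, h2 ▸ hm.le⟩

theorem log_glob {P : E3 → Prop} {O : Set E3}
    (h : O ⊆ {p | ∃ t ∈ 𝓝 p, ∀ᵐ x, x ∈ t → P x}) : ∀ᵐ x, x ∈ O → P x := by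
  rw [ae_iff]
  refine measure_null_of_locally_null _ fun x hx => ?_
  obtain ⟨t, ht, h1⟩ := h (Classical.not_imp.1 hx).1
  refine ⟨_, inter_mem_nhdsWithin _ ht, measure_mono_null ?_ (ae_iff.1 h1)⟩
  exact fun y hy hy2 => (Classical.not_imp.1 hy.1).2 (hy2 hy.2)

theorem log_open (P : E3 → Prop) : IsOpen {p : E3 | ∃ t ∈ 𝓝 p, ∀ᵐ x, x ∈ t → P x} := by
  refine isOpen_iff_mem_nhds.2 fun p ⟨t, ht, h⟩ => ?_
  filter_upwards [eventually_mem_nhds_iff.2 ht] with q hq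
  exact ⟨t, hq, h⟩

theorem pos_of_super {U : E3 → ℝ} (hU : FB e3 U) {a : S e3} (h0 : ∀ᵐ x, 0 ≤ a.f x) {O : Set E3}
    (hO : IsOpen O) (hc : Convex ℝ O)
    (hs : ∀ η : S e3, (∀ᵐ x, 0 ≤ η.f x) → (∀ᵐ x, x ∉ O → η.f x = 0) → 0 ≤ qf U a η) :
    (∀ᵐ x, x ∈ O → a.f x = 0) ∨ ∀ᵐ x, x ∈ O → 0 < a.f x := by
  refine (IsPreconnected.subset_or_subset (log_open fun x => a.f x = 0)
    (log_open fun x => 0 < a.f x) ?_ ?_ hc.isPreconnected).imp log_glob log_glob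
  · refine disjoint_left.2 fun p ⟨t, ht, h1⟩ ⟨t', ht', h2⟩ => ?_
    have h3 : 0 < volume (t ∩ t') := Measure.measure_pos_of_mem_nhds _ (inter_mem ht ht')
    refine h3.ne' (measure_eq_zero_iff_ae_notMem.2 ?_)
    filter_upwards [h1, h2] with x e1 e2 hx
    exact (e2 hx.2).ne' (e1 hx.1)
  · intro p hp
    obtain ⟨r, hr, hb⟩ := Metric.isOpen_iff.1 hO p hp
    obtain ⟨K, hK⟩ := log_loc hU h0 hs (half_pos hr) (half_lt_self hr)
    have hn : Metric.ball p (r / 2) ∈ 𝓝 p := Metric.ball_mem_nhds p (half_pos hr)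
    rcases log_dich h0 measurableSet_ball (convex_ball p (r / 2)) measure_ball_lt_top.ne
      (hK p hb) with h | h
    · exact Or.inl ⟨_, hn, h⟩
    · exact Or.inr ⟨_, hn, h⟩

end Vale.Agent.P363
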