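import Vale.Agent.P363.A.Limit

/-!
# P363 A/Min  (TASK)

Existence of a minimiser under a rank one defect.  Let `E = inf {qf b b | b ∈ N, ip b b = 1}`, `Q = qf - E ip ≥ 0` on `N`.  For a minimising sequence pass to a subsequence
along which `ip d (b m)` converges (`tendsto_subseq_of_bounded`); `Q (b m - b l) ≤ 2 Q (b m) + 2 Q (b l)` (`Bil.two_on`) and the hypothesis give Cauchy in `L²`,
`FB.coercive` Cauchy in `hn`.  `ip d a ≠ 0` since `E < A`; replace `a` by `-a` if needed.  Gap: for `b' = b - ip a b • a` the combination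
`ip d a • b' - ip d b' • a` is orthogonal to `d`, hence `A ip b' b' ≤ qf b' b'`.
`eigen_unique`: apply the gap inequality to `b`; `b - ip a b • a` has norm zero.
-/

open MeasureTheory Filter Topology Set
open scoped ContDiff

set_option linter.unusedSectionVars false

noncomputable section

namespace Vale.Agent.P363

variable {V : Type} [NormedAddCommGroup V] [NormedSpace ℝ V] [FiniteDimensional ℝ V]
  [MeasureSpace V] [BorelSpace V] [(volume : Measure V).IsAddHaarMeasure]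
  {ι : Type} [Fintype ι] {e : ι → V}

theorem min_gap {M : Type} [AddCommGroup M] [Module ℝ M] {I Q : M → M → ℝ} (hI : Bil I) (hQ : Bil Q)
    (N : Submodule ℝ M) {d a : M} {A C E : ℝ} (h : ∀ b ∈ N, A * I b b - C * I d b ^ 2 ≤ Q b b)
    (hE : E < A) (ha : a ∈ N) (h1 : I a a = 1) (h2 : 0 < I d a) (h3 : ∀ b ∈ N, Q a b = E * I a b)
    {b : M} (hb : b ∈ N) : E * I b b + (A - E) * (I b b - I a b ^ 2) ≤ Q b b := by
  have hb' : b - I a b • a ∈ N := N.sub_mem hb (N.smul_mem _ ha)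
  have e1 : I a (b - I a b • a) = 0 := by rw [hI.sub_right, hI.smul_right, h1]; ring
  have e2 : I (b - I a b • a) (b - I a b • a) = I b b - I a b ^ 2 := by
    rw [hI.sub_sq, hI.smul_sq, hI.smul_right, h1, hI.symm b a]; ring
  have e3 : Q (b - I a b • a) (b - I a b • a) = Q b b - E * I a b ^ 2 := by
    rw [hQ.sub_sq, hQ.smul_sq, hQ.smul_right, hQ.symm b a, h3 a ha, h3 b hb, h1]; ring
  generalize b - I a b • a = c at hb' e1 e2 e3
  have h4 := h (I d a • c + (-I d c) • a) (N.add_mem (N.smul_mem _ hb') (N.smul_mem _ ha))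
  rw [hI.comb_sq, hQ.comb_sq, hI.add_right, hI.smul_right, hI.smul_right, hI.symm c a, hQ.symm c a,
    h3 c hb', h3 a ha, e1, e2, e3, h1] at h4
  have h5 : I d a ^ 2 * (A * (I b b - I a b ^ 2)) ≤ I d a ^ 2 * (Q b b - E * I a b ^ 2) := by
    nlinarith [mul_nonneg (sq_nonneg (I d c)) (sub_pos.2 hE).le]
  have h6 := le_of_mul_le_mul_left h5 (by positivity)
  linarith

theorem min_nonneg {U : V → ℝ} (hU : FB e U) (N : Submodule ℝ (S e)) {E : ℝ}
    (h : ∀ b ∈ N, ip b b = 1 → E ≤ qf U b b) (b : S e) (hb : b ∈ N) :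
    0 ≤ qf U b b - E * ip b b := by
  rcases (ip_nonneg b).eq_or_lt with h0 | h0
  · obtain ⟨C, -, hC⟩ := hU.coercive
    have h1 := hC b
    rw [← h0] at h1 ⊢
    linarith [hn_nonneg b]
  · have h1 : (√(ip b b))⁻¹ ^ 2 = (ip b b)⁻¹ := by rw [inv_pow, Real.sq_sqrt h0.le]
    have h2 := h ((√(ip b b))⁻¹ • b) (N.smul_mem _ hb) (by
      rw [bil_ip.smul_sq, h1, inv_mul_cancel₀ h0.ne'])
    rw [hU.bil_qf.smul_sq, h1, ← div_eq_inv_mul, le_div_iff₀ h0] at h2
    linarith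

theorem min_cauchy {U : V → ℝ} (hU : FB e U) (N : Submodule ℝ (S e)) {d : S e} {A C E : ℝ}
    (hE : E < A) (h : ∀ b ∈ N, A * ip b b - C * ip d b ^ 2 ≤ qf U b b)
    (h0 : ∀ b ∈ N, 0 ≤ qf U b b - E * ip b b) :
    ∃ K : ℝ, ∀ b ∈ N, ∀ c ∈ N, ∀ α : ℝ, hn (b - c) ≤
      K * (qf U b b - E * ip b b + (ip d b - α) ^ 2) +
        K * (qf U c c - E * ip c c + (ip d c - α) ^ 2) := by
  obtain ⟨C', -, hC⟩ := hU.coercive
  have hA := sub_pos.2 hE
  obtain ⟨K, hK0, hK⟩ : ∃ K : ℝ, 0 ≤ K ∧ 2 * E + C' ≤ K * (A - E) :=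
    ⟨|2 * E + C'| / (A - E), by positivity, by
      rw [div_mul_cancel₀ _ hA.ne']; exact le_abs_self _⟩
  refine ⟨2 * (2 + K) + 2 * (K * |C|), fun b hb c hc α => ?_⟩
  have hw := N.sub_mem hb hc
  have h1 := (hU.bil_qf.minus bil_ip E).two_on N h0 hb hc
  have h2 := h _ hw
  have h3 := hC (b - c)
  have h4 := ip_nonneg (b - c)
  have h5 := h0 _ hw
  have h6 := h0 b hb
  have h7 := h0 c hc
  have h8 : ip d (b - c) ^ 2 ≤ 2 * (ip d b - α) ^ 2 + 2 * (ip d c - α) ^ 2 := by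
    rw [bil_ip.sub_right]
    nlinarith [sq_nonneg (ip d b + ip d c - 2 * α)]
  have h9 : C * ip d (b - c) ^ 2 ≤ |C| * (2 * (ip d b - α) ^ 2 + 2 * (ip d c - α) ^ 2) :=
    mul_le_mul (le_abs_self C) h8 (sq_nonneg _) (abs_nonneg C)
  have h10 : (A - E) * ip (b - c) (b - c) ≤ (qf U (b - c) (b - c) - E * ip (b - c) (b - c)) +
      |C| * (2 * (ip d b - α) ^ 2 + 2 * (ip d c - α) ^ 2) := by linarith
  have h11 := mul_le_mul_of_nonneg_left h10 hK0
  have h12 := mul_le_mul_of_nonneg_right hK h4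
  have h13 := mul_le_mul_of_nonneg_left h1 (by positivity : (0 : ℝ) ≤ 2 + K)
  have h14 : 0 ≤ K * |C| := by positivity
  nlinarith [mul_nonneg h14 h6, mul_nonneg h14 h7, sq_nonneg (ip d b - α), sq_nonneg (ip d c - α),
    mul_nonneg hK0 (sq_nonneg (ip d b - α)), mul_nonneg hK0 (sq_nonneg (ip d c - α))]

theorem exists_min {U : V → ℝ} (hU : FB e U) (N : Submodule ℝ (S e))
    (hN : ∀ (u : ℕ → S e) (a : S e), (∀ m, u m ∈ N) →
      Tendsto (fun m => hn (u m - a)) atTop (𝓝 0) → a ∈ N)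
    {d : S e} (hd : d ∈ N) (hd1 : ip d d = 1) {A C : ℝ} (hA : qf U d d < A)
    (h : ∀ b ∈ N, A * ip b b - C * ip d b ^ 2 ≤ qf U b b) :
    ∃ a ∈ N, ∃ E : ℝ, ip a a = 1 ∧ 0 < ip d a ∧ E ≤ qf U d d ∧ (∀ b ∈ N, qf U a b = E * ip a b) ∧
      ∀ b ∈ N, E * ip b b + (A - E) * (ip b b - ip a b ^ 2) ≤ qf U b b := by
  obtain ⟨C', -, hC⟩ := hU.coercive
  have hT : ({t | ∃ b ∈ N, ip b b = 1 ∧ qf U b b = t} : Set ℝ).Nonempty := ⟨_, d, hd, hd1, rfl⟩
  have hT' : BddBelow ({t | ∃ b ∈ N, ip b b = 1 ∧ qf U b b = t} : Set ℝ) := by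
    refine ⟨-C' / 2, ?_⟩
    rintro _ ⟨b, -, h1, rfl⟩
    have h2 := hC b
    rw [h1] at h2
    linarith [hn_nonneg b]
  obtain ⟨u, -, hu, hu'⟩ := exists_seq_tendsto_sInf hT hT'
  have hE : ∀ b ∈ N, ip b b = 1 → sInf {t | ∃ b ∈ N, ip b b = 1 ∧ qf U b b = t} ≤ qf U b b :=
    fun b hb h1 => csInf_le hT' ⟨b, hb, h1, rfl⟩
  generalize sInf {t | ∃ b ∈ N, ip b b = 1 ∧ qf U b b = t} = E at hu hE
  choose b hb h1 h2 using hu'
  have h0 := min_nonneg hU N hE
  have hEA := (hE d hd hd1).trans_lt hA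
  obtain ⟨α, -, φ, hφ, hα⟩ := (isCompact_Icc (a := (-1 : ℝ)) (b := 1)).tendsto_subseq
    (x := fun m => ip d (b m)) fun m => by
      have h3 := bil_ip.cs ip_nonneg d (b m)
      rw [hd1, h1, one_mul] at h3
      exact abs_le.1 ((sq_le_one_iff_abs_le_one _).1 h3)
  obtain ⟨K, hK⟩ := min_cauchy hU N hEA h h0
  have hu2 := hu.comp hφ.tendsto_atTop
  have hr : Tendsto (fun m => K * (qf U (b (φ m)) (b (φ m)) - E * ip (b (φ m)) (b (φ m)) +
      (ip d (b (φ m)) - α) ^ 2)) atTop (𝓝 0) := by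
    have h3 := ((hu2.sub_const E).add ((hα.sub_const α).pow 2)).const_mul K
    simp only [sub_self, Function.comp_def] at h3
    simpa only [h1, h2, mul_one, ne_eq, OfNat.ofNat_ne_zero, not_false_eq_true, zero_pow, add_zero,
      mul_zero] using h3
  obtain ⟨a, ha⟩ := S.complete (h := fun m => b (φ m)) fun ε hε => by
    obtain ⟨M, hM⟩ := eventually_atTop.1 (hr.eventually (ge_mem_nhds (half_pos hε)))
    refine ⟨M, fun m hm l hl => (hK _ (hb _) _ (hb _) α).trans ?_⟩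
    linarith [hM m hm, hM l hl]
  have haN := hN _ a (fun m => hb (φ m)) ha
  have e1 : ip a a = 1 := by
    have h3 := bil_ip.tendsto abs_ip_le ha ha
    simp only [h1] at h3
    exact tendsto_nhds_unique h3 tendsto_const_nhds
  have e2 : qf U a a = E := by
    obtain ⟨C2, -, hC2⟩ := hU.abs_qf_le
    have h3 := hU.bil_qf.tendsto hC2 ha ha
    simp only [h2] at h3
    exact tendsto_nhds_unique h3 hu2
  have e3 : ∀ c ∈ N, qf U a c = E * ip a c := fun c hc =>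
    sub_eq_zero.1 ((hU.bil_qf.minus bil_ip E).null_on N h0 haN (by rw [e1, e2]; simp) hc)
  have e4 : ip d a ≠ 0 := by
    intro h3
    have h4 := h a haN
    rw [h3, e1, e2] at h4
    linarith
  rcases e4.lt_or_gt with h3 | h3
  · have g1 : ip (-a) (-a) = 1 := by rw [bil_ip.neg_left, bil_ip.neg_right, neg_neg, e1]
    have g2 : 0 < ip d (-a) := by rw [bil_ip.neg_right]; linarith
    have g3 : ∀ c ∈ N, qf U (-a) c = E * ip (-a) c := fun c hc => by
      rw [bil_ip.neg_left, hU.bil_qf.neg_left, e3 c hc]; ring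
    exact ⟨-a, N.neg_mem haN, E, g1, g2, hE d hd hd1, g3, fun c hc =>
      min_gap bil_ip hU.bil_qf N h hEA (N.neg_mem haN) g1 g2 g3 hc⟩
  · exact ⟨a, haN, E, e1, h3, hE d hd hd1, e3, fun c hc =>
      min_gap bil_ip hU.bil_qf N h hEA haN e1 h3 e3 hc⟩

theorem eigen_unique {U : V → ℝ} {a b : S e} {E g : ℝ} (hg : 0 < g) (ha : ip a a = 1)
    (h : E * ip b b + g * (ip b b - ip a b ^ 2) ≤ qf U b b) (hb : qf U b b ≤ E * ip b b) :
    ∀ᵐ x, b.f x = ip a b * a.f x := by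
  have h1 : ip b b - ip a b ^ 2 ≤ 0 := by
    by_contra h2
    have := mul_pos hg (not_le.1 h2)
    linarith
  have h2 : ip (b - ip a b • a) (b - ip a b • a) = 0 := by
    refine le_antisymm ?_ (ip_nonneg _)
    rw [bil_ip.sub_sq, bil_ip.smul_sq, bil_ip.smul_right, ha, bil_ip.symm b a]
    linarith
  filter_upwards [ip_eq_zero.1 h2] with x hx
  rwa [S.sub_f, S.smul_f, sub_eq_zero] at hx

end Vale.Agent.P363
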