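import Vale.Agent.P363.A.Slot2
import Vale.Agent.P363.A.Iso

/-!
# P363 A/Pauli  (TASK)

Let `P i f X = φ (X i) * red i φ f (removeNth i X) = φ (X i) ∫ φ y f (update X i y)` (`Fin.insertNth_removeNth`), for `∫ φ² = 1` (scale; `φ = 0` a.e. is trivial).  `∫ (P i f) g = ∫ red f * red g`.
For `i ≠ j`, `G = P i (P j f)` is invariant under `X ↦ X ∘ swap i j` at every point (`update (update (X ∘ swap) i y) j z = update (update X i y) j z`), so `∫ G f = ∫ (G∘swap) (f∘swap) = -∫ G f = 0`,
and `∫ G f = ∫ (P j f) (P i f)`.  Then expand `0 ≤ ∫ (f - ∑ P i f)²`.  `occ_sum_le`: Bessel in slot `i` for a.e. value of the other slots.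
-/

open MeasureTheory Filter Topology Set
open scoped ContDiff

set_option linter.unusedSectionVars false

noncomputable section

namespace Vale.Agent.P363

variable {n : ℕ}

theorem pauli_cs {α : Type} [MeasurableSpace α] {μ : Measure α} {a b : α → ℝ} (ha : MemLp a 2 μ)
    (hb : MemLp b 2 μ) : (∫ x, a x * b x ∂μ) ^ 2 ≤ (∫ x, a x ^ 2 ∂μ) * ∫ x, b x ^ 2 ∂μ := by
  have h := discrim_le_zero (a := ∫ x, a x ^ 2 ∂μ) (b := 2 * ∫ x, a x * b x ∂μ)
    (c := ∫ x, b x ^ 2 ∂μ) fun t => by
      have h1 : Integrable (fun x => t * t * a x ^ 2) μ := ha.integrable_sq.const_mul _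
      have h2 : Integrable (fun x => 2 * t * (a x * b x)) μ := (ha.integrable_mul hb).const_mul _
      have h3 : Integrable (fun x => t * t * a x ^ 2 + 2 * t * (a x * b x)) μ := h1.add h2
      have h4 : 0 ≤ ∫ x, t * t * a x ^ 2 + 2 * t * (a x * b x) + b x ^ 2 ∂μ :=
        integral_nonneg fun x => (sq_nonneg (t * a x + b x)).trans_eq (by ring)
      rw [integral_add h3 hb.integrable_sq, integral_add h1 h2, integral_const_mul,
        integral_const_mul] at h4
      linarith
  rw [discrim] at h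
  linarith

theorem pauli_mp (π : Equiv.Perm (Fin n)) :
    MeasurePreserving (fun X : Cfg n => X ∘ π) volume volume := by
  obtain ⟨T, hT, -⟩ := exists_sym_perm π
  exact hT.mp

theorem pauli_int (π : Equiv.Perm (Fin n)) (F : Cfg n → ℝ) : ∫ X : Cfg n, F (X ∘ π) = ∫ X, F X := by
  obtain ⟨T, hT, -⟩ := exists_sym_perm π
  exact hT.integral F

theorem pauli_zero {i j : Fin n} {f G : Cfg n → ℝ} (h : Anti i j f)
    (hG : ∀ X, G (X ∘ Equiv.swap i j) = G X) : ∫ X, G X * f X = 0 := by
  obtain ⟨T, hT, -⟩ := exists_sym_perm (Equiv.swap i j)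
  refine hT.integral_odd (h.mono fun X hX => ?_)
  rw [hG, hX, mul_neg]

theorem pauli_swap (i : Fin (n + 1)) (j l : Fin n) (x : E3) (Y : Cfg n) :
    (Fin.insertNth i x Y : Cfg (n + 1)) ∘ Equiv.swap (i.succAbove j) (i.succAbove l) =
      Fin.insertNth i x (Y ∘ Equiv.swap j l) := by
  funext k
  induction k using Fin.succAboveCases i with
  | x => simp [Equiv.swap_apply_of_ne_of_ne (Fin.ne_succAbove i j) (Fin.ne_succAbove i l)]
  | p m => simp [Fin.succAbove_right_injective.swap_apply]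

theorem pauli_perm (π : Equiv.Perm (Fin (n + 1))) (i : Fin (n + 1)) : ∃ σ : Equiv.Perm (Fin n),
    ∀ (x : E3) (Y : Cfg n), (Fin.insertNth (π i) x Y : Cfg (n + 1)) ∘ π =
      Fin.insertNth i x (Y ∘ σ) := by
  choose σ hσ using fun j : Fin n =>
    Fin.exists_succAbove_eq (π.injective.ne (Fin.succAbove_ne i j))
  have hi : Function.Injective σ := fun j l e =>
    Fin.succAbove_right_injective (π.injective (by rw [← hσ, ← hσ, e]))
  refine ⟨Equiv.ofBijective σ (Finite.injective_iff_bijective.1 hi), fun x Y => funext fun k => ?_⟩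
  induction k using Fin.succAboveCases i with
  | x => simp
  | p m => simp [← hσ]

theorem occ_nonneg (i : Fin (n + 1)) (φ : E3 → ℝ) (f : Cfg (n + 1) → ℝ) : 0 ≤ occ i φ f :=
  integral_nonneg fun _ => sq_nonneg _
theorem red_memLp (i : Fin (n + 1)) {φ : E3 → ℝ} {f : Cfg (n + 1) → ℝ} (hφ : MemLp φ 2 volume)
    (hf : MemLp f 2 volume) : MemLp (red i φ f) 2 volume ∧ occ i φ f ≤ (∫ x, φ x ^ 2) * ∫ X, f X ^ 2 := by
  obtain ⟨-, h1, -, h2, -, h3⟩ := integral_ins i hf.integrable_sq
  have hm : AEStronglyMeasurable (fun z : E3 × Cfg n => f (Fin.insertNth i z.1 z.2))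
      (volume.prod volume) := hf.1.comp_measurePreserving (mp_ins i)
  have hr : AEStronglyMeasurable (red i φ f) volume :=
    (hφ.1.comp_fst.mul hm).prod_swap.integral_prod_right'
  have hb : ∀ᵐ Y : Cfg n, red i φ f Y ^ 2 ≤
      (∫ x, φ x ^ 2) * ∫ x : E3, f (Fin.insertNth i x Y) ^ 2 := by
    filter_upwards [h2, hm.prodMk_right] with Y a1 a2
    exact pauli_cs hφ ((memLp_two_iff_integrable_sq a2).2 a1)
  have hi : Integrable fun Y => red i φ f Y ^ 2 :=
    (h1.const_mul _).mono' (hr.pow 2) (hb.mono fun Y hY => by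
      rwa [Real.norm_of_nonneg (sq_nonneg _)])
  refine ⟨(memLp_two_iff_integrable_sq hr).2 hi, ?_⟩
  rw [h3, ← integral_const_mul]
  exact integral_mono_ae hi (h1.const_mul _) hb
theorem integral_red (i : Fin (n + 1)) {φ : E3 → ℝ} {f : Cfg (n + 1) → ℝ} {Ξ : Cfg n → ℝ}
    (hφ : MemLp φ 2 volume) (hf : MemLp f 2 volume) (hΞ : MemLp Ξ 2 volume) :
    ∫ X, φ (X i) * Ξ (Fin.removeNth i X) * f X = ∫ Y, red i φ f Y * Ξ Y := by
  rw [(integral_ins i (G := fun X => φ (X i) * Ξ (Fin.removeNth i X) * f X)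
    ((memLp_tensor i hφ hΞ).integrable_mul hf)).2.2.2.2.2]
  refine integral_congr_ae (Eventually.of_forall fun Y => ?_)
  simp only [Fin.insertNth_apply_same, Fin.removeNth_insertNth, red, ← integral_mul_const]
  exact integral_congr_ae (Eventually.of_forall fun x => mul_right_comm _ _ _)
theorem pauli (s : Finset (Fin (n + 1))) {f : Cfg (n + 1) → ℝ} (hf : MemLp f 2 volume)
    (h : ∀ i ∈ s, ∀ j ∈ s, i ≠ j → Anti i j f) {φ : E3 → ℝ} (hφ : MemLp φ 2 volume) :
    ∑ i ∈ s, occ i φ f ≤ (∫ x, φ x ^ 2) * ∫ X, f X ^ 2 := by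
  have hr := fun i => (red_memLp i hφ hf).1
  obtain ⟨P, hP⟩ : ∃ P : Fin (n + 1) → Cfg (n + 1) → ℝ,
    ∀ i X, P i X = φ (X i) * red i φ f (Fin.removeNth i X) := ⟨_, fun _ _ => rfl⟩
  have hm : ∀ i, MemLp (P i) 2 volume := fun i => by
    rw [funext (hP i)]
    exact memLp_tensor i hφ (hr i)
  have h1 : ∀ i, ∫ X, P i X * f X = occ i φ f := fun i => by
    simp only [hP, integral_red i hφ hf (hr i), occ, sq]
  have h2 : ∀ i j, ∫ X, P i X * P j X = ∫ Y, red i φ (P j) Y * red i φ f Y := fun i j => by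
    simp only [hP i, integral_red i hφ (hm j) (hr i)]
  have h3 : ∀ i, ∫ X, P i X * P i X = (∫ x, φ x ^ 2) * occ i φ f := fun i => by
    rw [h2, occ, ← integral_const_mul]
    refine integral_congr_ae (Eventually.of_forall fun Y => ?_)
    have : red i φ (P i) Y = (∫ x, φ x ^ 2) * red i φ f Y := by
      rw [red, ← integral_mul_const]
      simp only [hP, Fin.insertNth_apply_same, Fin.removeNth_insertNth, sq, mul_assoc]
    simp only [this, sq, mul_assoc]
  have h4 : ∀ i ∈ s, ∀ j ∈ s, j ≠ i → ∫ X, P i X * P j X = 0 := fun i hi j hj hji => by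
    rw [h2]
    simp only [mul_comm (red i φ (P j) _)]
    rw [← integral_red i hφ hf (red_memLp i hφ (hm j)).1]
    have e : ∀ X : Cfg (n + 1), φ (X i) * red i φ (P j) (Fin.removeNth i X) = φ (X i) * φ (X j) *
        ∫ y, φ y * ∫ z, φ z * f (Function.update (Function.update X i y) j z) := fun X => by
      simp only [red, hP, Fin.insertNth_removeNth, Function.update_of_ne hji, mul_assoc,
        mul_left_comm _ (φ (X j)), integral_const_mul]
    refine pauli_zero (h i hi j hj hji.symm) fun X => ?_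
    have e2 : ∀ y z : E3, Function.update (Function.update (X ∘ Equiv.swap i j) i y) j z =
        Function.update (Function.update X i y) j z := fun y z => by
      funext k
      by_cases k1 : k = j
      · simp [k1]
      by_cases k2 : k = i
      · simp [k2, hji.symm]
      · simp [k1, k2, Equiv.swap_apply_of_ne_of_ne k2 k1]
    rw [e, e]
    simp only [e2, Function.comp_apply, Equiv.swap_apply_left, Equiv.swap_apply_right,
      mul_comm (φ (X j))]
  have i1 : ∀ i, Integrable fun X => P i X * f X := fun i => (hm i).integrable_mul hf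
  have i2 : ∀ i j, Integrable fun X => P i X * P j X := fun i j => (hm i).integrable_mul (hm j)
  have h5 := pauli_cs (memLp_finsetSum s fun i _ => hm i) hf
  have h6 : ∫ X, (∑ i ∈ s, P i X) * f X = ∑ i ∈ s, occ i φ f := by
    simp only [Finset.sum_mul]
    rw [integral_finsetSum _ fun i _ => i1 i]
    simp only [h1]
  have h7 : ∫ X, (∑ i ∈ s, P i X) ^ 2 = (∫ x, φ x ^ 2) * ∑ i ∈ s, occ i φ f := by
    simp only [sq (∑ i ∈ s, P i _), Finset.sum_mul_sum]
    rw [integral_finsetSum _ fun i _ => integrable_finsetSum _ fun j _ => i2 i j,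
      Finset.mul_sum]
    refine Finset.sum_congr rfl fun i hi => ?_
    rw [integral_finsetSum _ fun j _ => i2 i j,
      Finset.sum_eq_single_of_mem i hi (h4 i hi), h3]
  rw [h6, h7] at h5
  rcases (Finset.sum_nonneg fun i (_ : i ∈ s) => occ_nonneg i φ f).eq_or_lt with h0 | h0
  · rw [← h0]
    exact mul_nonneg (integral_nonneg fun _ => sq_nonneg _) (integral_nonneg fun _ => sq_nonneg _)
  · exact le_of_mul_le_mul_left (by linarith) h0
theorem occ_sum_le {κ : Type} [Fintype κ] [DecidableEq κ] {φ : κ → S e3}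
    (ho : ∀ j l, ip (φ j) (φ l) = if j = l then 1 else 0) (i : Fin (n + 1)) (a : S (eN (n + 1))) :
    ∑ j, occ i (φ j).f a.f ≤ ip a a := by
  have hi : ∀ j, Integrable fun Y => red i (φ j).f a.f Y ^ 2 := fun j =>
    (red_memLp i (φ j).mem a.mem).1.integrable_sq
  rw [← integral_rho i a, ← slotFib_n, ← (slotFib i a).int_ip_sl.2]
  simp only [occ]
  rw [← integral_finsetSum _ fun j _ => hi j]
  refine integral_mono_ae (integrable_finsetSum _ fun j _ => hi j) (slotFib i a).int_ip_sl.1 ?_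
  filter_upwards [ae_all_iff.2 fun j => (slotFib i a).ip_sl (φ j)] with Y hY
  have h1 := (bil_ip.bessel ho ((slotFib i a).sl Y)).2
  have h2 := ip_nonneg ((slotFib i a).sl Y - ∑ j, ip (φ j) ((slotFib i a).sl Y) • φ j)
  rw [h1] at h2
  simp only [hY, slotFib_red] at h2
  linarith
theorem Anti.symm {i j : Fin n} {f : Cfg n → ℝ} (h : Anti i j f) : Anti j i f := by
  rwa [Anti, Equiv.swap_comm]
theorem Anti.trans {i j l : Fin n} {f : Cfg n → ℝ} (h : Anti i j f) (h' : Anti j l f) (hij : i ≠ j)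
    (hjl : j ≠ l) (hil : i ≠ l) : Anti i l f := by
  have m1 := (pauli_mp (Equiv.swap i j)).quasiMeasurePreserving
  have m2 := (pauli_mp (Equiv.swap j l)).quasiMeasurePreserving
  filter_upwards [h, m1.ae h', m1.ae (m2.ae h)] with X a1 a2 a3
  have e : X ∘ Equiv.swap i l = ((X ∘ Equiv.swap i j) ∘ Equiv.swap j l) ∘ Equiv.swap i j := by
    funext k
    have := (Equiv.swap i j).injective.swap_apply j l (Equiv.swap i j k)
    rw [Equiv.swap_apply_self, Equiv.swap_apply_right,
      Equiv.swap_apply_of_ne_of_ne hil.symm hjl.symm] at this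
    simp only [Function.comp_apply, this]
  rw [e, a3, a2, a1, neg_neg]
theorem Anti.perm {i j : Fin n} {f : Cfg n → ℝ} (π : Equiv.Perm (Fin n)) (h : Anti i j f) :
    Anti (π i) (π j) fun X => f (X ∘ π) := by
  filter_upwards [(pauli_mp π).quasiMeasurePreserving.ae h] with X hX
  rw [← hX]
  congr 1
  funext k
  simp only [Function.comp_apply, π.injective.swap_apply]
theorem Anti.slice (i : Fin (n + 1)) {j l : Fin n} {f : Cfg (n + 1) → ℝ}
    (h : Anti (i.succAbove j) (i.succAbove l) f) :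
    ∀ᵐ x : E3, Anti j l fun Y => f (Fin.insertNth i x Y) := by
  filter_upwards [(ae_ins i h).1] with x hx
  simpa only [Anti, pauli_swap] using hx
theorem Anti.red (i : Fin (n + 1)) {j l : Fin n} {f : Cfg (n + 1) → ℝ}
    (h : Anti (i.succAbove j) (i.succAbove l) f) (φ : E3 → ℝ) : Anti j l (red i φ f) := by
  filter_upwards [(ae_ins i h).2] with Y hY
  simp only [pauli_swap] at hY
  rw [Vale.Agent.P363.red, Vale.Agent.P363.red, ← integral_neg]
  exact integral_congr_ae (hY.mono fun x hx => by simp only [hx, mul_neg])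
theorem anti_iff {i j : Fin n} {a : S (eN n)} :
    Anti i j a.f ↔ a ∈ symSub (eN n) (fun X => X ∘ Equiv.swap i j) (-1) := by
  simp only [mem_symSub, Anti, neg_one_mul]
theorem Anti.integral_zero {i j : Fin n} {f G : Cfg n → ℝ} (h : Anti i j f)
    (hG : ∀ X, G (X ∘ Equiv.swap i j) = G X) : ∫ X, G X * f X = 0 :=
  pauli_zero h hG
/-- Permuting the slots permutes the slot densities and occupations. -/
theorem rho_perm (π : Equiv.Perm (Fin (n + 1))) (i : Fin (n + 1)) (f : Cfg (n + 1) → ℝ) (x : E3) :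
    rho (π i) (fun X => f (X ∘ π)) x = rho i f x := by
  obtain ⟨σ, hσ⟩ := pauli_perm π i
  simp only [rho, hσ]
  exact pauli_int σ fun Y => f (Fin.insertNth i x Y) ^ 2
theorem occ_perm (π : Equiv.Perm (Fin (n + 1))) (i : Fin (n + 1)) (φ : E3 → ℝ)
    (f : Cfg (n + 1) → ℝ) : occ (π i) φ (fun X => f (X ∘ π)) = occ i φ f := by
  obtain ⟨σ, hσ⟩ := pauli_perm π i
  simp only [occ, red, hσ]
  exact pauli_int σ fun Y => (∫ x, φ x * f (Fin.insertNth i x Y)) ^ 2
theorem rho_congr (i : Fin (n + 1)) {f f' : Cfg (n + 1) → ℝ} (h : ∀ᵐ X, f X ^ 2 = f' X ^ 2) :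
    rho i f =ᵐ[volume] rho i f' :=
  (ae_ins i h).1.mono fun _ hx => integral_congr_ae hx
theorem occ_congr (i : Fin (n + 1)) (φ : E3 → ℝ) {f f' : Cfg (n + 1) → ℝ} {s : ℝ} (hs : s * s = 1)
    (h : ∀ᵐ X, f X = s * f' X) : occ i φ f = occ i φ f' := by
  refine integral_congr_ae ((ae_ins i h).2.mono fun Y hY => ?_)
  have e : red i φ f Y = s * red i φ f' Y := by
    rw [red, red, ← integral_const_mul]
    exact integral_congr_ae (hY.mono fun x hx => by simp only [hx, mul_left_comm s])
  simp only [e, mul_pow, sq s, hs, one_mul]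
theorem rho_rf (i : Fin (n + 1)) (k : Fin 3) (f : Cfg (n + 1) → ℝ) (x : E3) :
    rho i (fun X => f fun j => rf k (X j)) x = rho i f (rf k x) := by
  obtain ⟨T, hT⟩ := exists_sym_rfN n k
  have e : ∀ Y : Cfg n, (fun j => rf k ((Fin.insertNth i x Y : Cfg (n + 1)) j)) =
      (Fin.insertNth i (rf k x) fun j => rf k (Y j) : Cfg (n + 1)) := fun Y => by
    funext m
    induction m using Fin.succAboveCases i with
    | x => simp
    | p m => simp
  simp only [rho, e]
  exact hT.integral fun Y => f (Fin.insertNth i (rf k x) Y) ^ 2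

end Vale.Agent.P363
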