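import Vale.Agent.P363.A.Limit

/-!
# P363 A/Slot1B: slices of `H¹` functions (helper file of Slot1)
-/

open MeasureTheory Filter Topology Set
open scoped ContDiff

set_option linter.unusedSectionVars false

noncomputable section

namespace Vale.Agent.P363

theorem slot1_ae_zero {Y : Type} [MeasurableSpace Y] {ν : Measure Y} {G : ℕ → Y → ℝ}
    (hG : ∀ m, Integrable (G m) ν) (h0 : ∀ m y, 0 ≤ G m y)
    (hs : Summable fun m => ∫ y, G m y ∂ν) : ∀ᵐ y ∂ν, Tendsto (fun m => G m y) atTop (𝓝 0) := by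
  have hm : ∀ m, AEMeasurable (fun y => ENNReal.ofReal (G m y)) ν := fun m =>
    (hG m).aemeasurable.ennreal_ofReal
  have h1 : ∫⁻ y, ∑' m, ENNReal.ofReal (G m y) ∂ν ≠ ⊤ := by
    rw [lintegral_tsum hm]
    simp only [← fun m => ofReal_integral_eq_lintegral_ofReal (hG m) (ae_of_all _ (h0 m))]
    rw [← ENNReal.ofReal_tsum_of_nonneg (fun m => integral_nonneg (h0 m)) hs]
    exact ENNReal.ofReal_ne_top
  refine (ae_lt_top' (AEMeasurable.tsum hm) h1).mono fun y hy => ?_
  have h2 := (ENNReal.tendsto_toReal ENNReal.zero_ne_top).comp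
    (ENNReal.tendsto_atTop_zero_of_tsum_ne_top hy.ne)
  exact h2.congr fun m => ENNReal.toReal_ofReal (h0 m y)

variable {V : Type} [NormedAddCommGroup V] [NormedSpace ℝ V] [FiniteDimensional ℝ V]
  [MeasureSpace V] [BorelSpace V] [(volume : Measure V).IsAddHaarMeasure]
  {ι : Type} [Fintype ι] {e : ι → V}
  {W : Type} [NormedAddCommGroup W] [NormedSpace ℝ W] [FiniteDimensional ℝ W]
  [MeasureSpace W] [BorelSpace W] [(volume : Measure W).IsAddHaarMeasure]
  {κ : Type} [Fintype κ] {e' : κ → W}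
  {Y : Type} [MeasurableSpace Y] {ν : Measure Y} [SFinite ν] {T : Y × W → V}

theorem slot1_mem (hT : MeasurePreserving T (ν.prod volume) volume) {f : V → ℝ}
    (hf : MemLp f 2 volume) : ∀ᵐ y ∂ν, MemLp (fun w => f (T (y, w))) 2 volume := by
  have h := hf.comp_measurePreserving hT
  filter_upwards [h.1.prodMk_left, h.integrable_sq.prod_right_ae] with y h1 h2
  exact (memLp_two_iff_integrable_sq h1).2 h2

theorem slot1_tend (hT : MeasurePreserving T (ν.prod volume) volume) {F : ℕ → V → ℝ}
    (hF : ∀ m, Integrable fun x => F m x ^ 2) {b : ℕ → ℝ} (hb : Summable b)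
    (h : ∀ m, ∫ x, F m x ^ 2 ≤ b m) :
    ∀ᵐ y ∂ν, Tendsto (fun m => ∫ w, F m (T (y, w)) ^ 2) atTop (𝓝 0) := by
  have h1 : ∀ m, Integrable (fun z => F m (T z) ^ 2) (ν.prod volume) := fun m =>
    hT.integrable_comp_of_integrable (hF m)
  refine slot1_ae_zero (fun m => (h1 m).integral_prod_left)
    (fun m y => integral_nonneg fun w => sq_nonneg _) (Summable.of_nonneg_of_le
      (fun m => integral_nonneg fun y => integral_nonneg fun w => sq_nonneg _) (fun m => ?_) hb)
  have h2 : ∫ x, F m x ^ 2 = ∫ z, F m (T z) ^ 2 ∂ν.prod volume := by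
    rw [← hT.map_eq, integral_map hT.measurable.aemeasurable (hT.map_eq.symm ▸ (hF m).1)]
  rw [← integral_prod _ (h1 m), ← h2]
  exact h m

theorem slot1_gsq (a : S e) (k : ι) : ∫ x, a.g k x ^ 2 ≤ 2 * hn a := by
  have h1 := Finset.single_le_sum (f := fun k => ∫ x, a.g k x * a.g k x)
    (fun k _ => integral_nonneg fun x => mul_self_nonneg _) (Finset.mem_univ k)
  have h2 := kin_le_hn a
  simp only [sq]
  unfold kin at h2
  linarith

theorem slot1_slice (hT : MeasurePreserving T (ν.prod volume) volume) (L : W →ₗ[ℝ] V)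
    (hL : LinearMap.ker L = ⊥) (c : Y → V) (hc : ∀ y w, T (y, w) = c y + L w) (σ : κ → ι)
    (hσ : ∀ k, L (e' k) = e (σ k)) (a : S e) :
    ∀ᵐ y ∂ν, ((fun w => a.f (T (y, w))), fun k w => a.g (σ k) (T (y, w))) ∈ Sob e' := by
  obtain ⟨h, hs, -, hsum, -⟩ := a.approx_ae
  have hD : ∀ y w, HasFDerivAt (fun w => c y + L w) L.toContinuousLinearMap w := fun y w =>
    L.toContinuousLinearMap.hasFDerivAt.const_add _
  have h1 : ∀ m y, ((fun w => (h m).f (T (y, w))), fun k w => (h m).g (σ k) (T (y, w))) ∈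
      Sob e' := fun m y => by
    obtain ⟨s1, s2, s3⟩ := hs m
    have c1 : ContDiff ℝ 1 fun w => (h m).f (c y + L w) :=
      (s1.of_le (by simp)).comp (contDiff_const.add L.toContinuousLinearMap.contDiff)
    have c2 : HasCompactSupport fun w => (h m).f (c y + L w) :=
      s2.comp_isClosedEmbedding ((Homeomorph.addLeft (c y)).isClosedEmbedding.comp
        (LinearMap.isClosedEmbedding_of_injective hL))
    have c3 : ∀ k w, fderiv ℝ (fun w => (h m).f (c y + L w)) w (e' k) =
        (h m).g (σ k) (c y + L w) := fun k w => by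
      have := ((s1.differentiable (by simp) (c y + L w)).hasFDerivAt.comp w (hD y w)).fderiv
      rw [s3, ← hσ]
      exact DFunLike.congr_fun this (e' k)
    have c4 := of_C1c (e := e') c1 c2
    simp only [c3] at c4
    simp only [hc]
    exact c4
  have t1 := slot1_tend hT (F := fun m => (h m - a).f) (fun m => (h m - a).int_sq) hsum
    fun m => (ip_self _).ge.trans (ip_le_hn _)
  have t2 := ae_all_iff.2 fun k : κ => slot1_tend hT (F := fun m => (h m - a).g (σ k))
    (fun m => (h m - a).int_gsq _) (hsum.mul_left 2) fun m => slot1_gsq _ _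
  filter_upwards [t1, t2, slot1_mem hT a.mem,
    ae_all_iff.2 fun k : κ => slot1_mem hT (a.gmem (σ k))] with y a1 a2 a3 a4
  exact mem_of_limit (h := fun m => S.of (h1 m y)) a3 a4 a1 a2

theorem slot1_ton (hT : MeasurePreserving T (ν.prod volume) volume) {G H : V → ℝ}
    (hG : AEStronglyMeasurable G volume) (hH : Integrable H)
    (h : ∀ᵐ y ∂ν, Integrable (fun w => G (T (y, w))) ∧
      ∫ w, |G (T (y, w))| ≤ ∫ w, H (T (y, w))) : Integrable G ∧ ∫ x, |G x| ≤ ∫ x, H x := by
  have g1 : AEStronglyMeasurable (fun z => G (T z)) (ν.prod volume) :=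
    hG.comp_measurePreserving hT
  have h1 : Integrable (fun z => H (T z)) (ν.prod volume) := hT.integrable_comp_of_integrable hH
  have g2 : Integrable (fun z => G (T z)) (ν.prod volume) :=
    (integrable_prod_iff g1).2 ⟨h.mono fun y hy => hy.1, h1.integral_prod_left.mono'
      g1.norm.integral_prod_right' (h.mono fun y hy => by
        rw [Real.norm_of_nonneg (integral_nonneg fun w => norm_nonneg _)]
        exact hy.2)⟩
  have g3 : Integrable G := (hT.integrable_comp hG).1 g2
  have e1 : ∀ {F : V → ℝ}, Integrable F → ∫ x, F x = ∫ y, (∫ w, F (T (y, w))) ∂ν :=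
    fun {F} hF => by
      rw [← integral_prod (fun z => F (T z)) (hT.integrable_comp_of_integrable hF), ← hT.map_eq,
        integral_map hT.measurable.aemeasurable (hT.map_eq.symm ▸ hF.1)]
  refine ⟨g3, ?_⟩
  rw [e1 g3.abs, e1 hH]
  exact integral_mono_ae g2.abs.integral_prod_left h1.integral_prod_left (h.mono fun y hy => hy.2)

theorem slot1_lift (hT : MeasurePreserving T (ν.prod volume) volume) (σ : κ → ι) (a : S e)
    (ha : ∀ᵐ y ∂ν, ((fun w => a.f (T (y, w))), fun k w => a.g (σ k) (T (y, w))) ∈ Sob e')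
    {U : V → ℝ} (hU : AEStronglyMeasurable U volume) {α β : ℝ}
    (h : ∀ y (b : S e'), Integrable (fun w => U (T (y, w)) * b.f w ^ 2) ∧
      ∫ w, |U (T (y, w))| * b.f w ^ 2 ≤ α * kin b b + β * ip b b) :
    Integrable (fun x => U x * a.f x ^ 2) ∧ ∫ x, |U x| * a.f x ^ 2 ≤
      α * (1 / 2 * ∑ k, ∫ x, a.g (σ k) x * a.g (σ k) x) + β * ip a a := by
  have i1 : Integrable fun x => ∑ k, a.g (σ k) x ^ 2 :=
    integrable_finsetSum _ fun k _ => a.int_gsq _
  have e1 : ∀ u t : ℝ, |u * t ^ 2| = |u| * t ^ 2 := fun u t => by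
    rw [abs_mul, abs_of_nonneg (sq_nonneg t)]
  have h1 := slot1_ton hT (G := fun x => U x * a.f x ^ 2)
    (H := fun x => α * (1 / 2 * ∑ k, a.g (σ k) x ^ 2) + β * a.f x ^ 2)
    (hU.mul a.int_sq.1) (((i1.const_mul _).const_mul _).add (a.int_sq.const_mul _))
    (ha.mono fun y hy => by
      have h2 := h y (S.of hy)
      have i2 : Integrable fun w => ∑ k, a.g (σ k) (T (y, w)) ^ 2 :=
        integrable_finsetSum _ fun k _ => (S.of hy).int_gsq k
      have i3 : Integrable fun w => a.f (T (y, w)) ^ 2 := (S.of hy).int_sq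
      rw [kin_self, ip_self] at h2
      simp only [e1]
      rw [integral_add ((i2.const_mul _).const_mul _) (i3.const_mul _), integral_const_mul,
        integral_const_mul, integral_const_mul]
      exact h2)
  simp only [e1] at h1
  rw [integral_add ((i1.const_mul _).const_mul _) (a.int_sq.const_mul _), integral_const_mul,
    integral_const_mul, integral_const_mul, ← ip_self,
    integral_finsetSum _ fun k _ => a.int_gsq _] at h1
  simp only [← sq]
  exact h1

end Vale.Agent.P363
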