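import Vale.Agent.P363.A.Fib1
import Vale.Agent.P363.A.Hardy
import Vale.Agent.P363.A.Slot1B

/-!
# P363 A/Slot1  (TASK)

`volume_preserving_piFinSuccAbove` (its inverse is `insertNth`), see `Vale/Agent/P349/HHardy.lean`.  Slices: with `h m` from `approx_ae` (summable `hn (h m - a)`), Tonelli gives for a.e. parameter
that the squared `L²` distances of the slices are summable, so tend to zero; slices of `Sm` functions are `C¹` with compact support (`of_C1c`) and
`fderiv (x ↦ h (insertNth i x Y)) x (e3 k) = fderiv h _ (dir i k)`; `mem_of_limit`.  `memLp_pair`: `hardy` on the slices with centre `X j`.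
-/

open MeasureTheory Filter Topology Set
open scoped ContDiff

set_option linter.unusedSectionVars false

noncomputable section

namespace Vale.Agent.P363

variable {n : ℕ}

theorem mp_ins (i : Fin (n + 1)) : MeasurePreserving
    (fun z : E3 × Cfg n => (Fin.insertNth i z.1 z.2 : Cfg (n + 1))) (volume.prod volume) volume :=
  (volume_preserving_piFinSuccAbove (fun _ : Fin (n + 1) => E3) i).symm
theorem emb_ins (i : Fin (n + 1)) :
    MeasurableEmbedding fun z : E3 × Cfg n => (Fin.insertNth i z.1 z.2 : Cfg (n + 1)) :=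
  (MeasurableEquiv.piFinSuccAbove (fun _ : Fin (n + 1) => E3) i).symm.measurableEmbedding
theorem integral_ins (i : Fin (n + 1)) {G : Cfg (n + 1) → ℝ} (hG : Integrable G) :
    Integrable (fun x : E3 => ∫ Y : Cfg n, G (Fin.insertNth i x Y)) ∧
    Integrable (fun Y : Cfg n => ∫ x : E3, G (Fin.insertNth i x Y)) ∧
    (∀ᵐ x : E3, Integrable fun Y : Cfg n => G (Fin.insertNth i x Y)) ∧
    (∀ᵐ Y : Cfg n, Integrable fun x : E3 => G (Fin.insertNth i x Y)) ∧
    ∫ X, G X = ∫ x : E3, ∫ Y : Cfg n, G (Fin.insertNth i x Y) ∧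
    ∫ X, G X = ∫ Y : Cfg n, ∫ x : E3, G (Fin.insertNth i x Y) := by
  have h1 : Integrable (fun p : E3 × Cfg n => G (Fin.insertNth i p.1 p.2)) (volume.prod volume) :=
    (mp_ins i).integrable_comp_of_integrable hG
  have h2 := ((mp_ins i).integral_comp (emb_ins i) G).symm
  exact ⟨h1.integral_prod_left, h1.integral_prod_right, h1.prod_right_ae, h1.prod_left_ae,
    h2.trans (integral_prod _ h1), h2.trans (integral_prod_symm _ h1)⟩
theorem slot1_mp (i : Fin (n + 1)) : MeasurePreserving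
    (fun z : Cfg n × E3 => (Fin.insertNth i z.2 z.1 : Cfg (n + 1))) (volume.prod volume) volume :=
  (mp_ins i).comp Measure.measurePreserving_swap
theorem slot1_qslot (i : Fin n) :
    Measure.QuasiMeasurePreserving (fun X : Cfg n => X i) volume volume :=
  Measure.quasiMeasurePreserving_eval (fun _ : Fin n => (volume : Measure E3)) i
theorem slot1_qrest (i : Fin (n + 1)) : Measure.QuasiMeasurePreserving
    (fun X : Cfg (n + 1) => (Fin.removeNth i X : Cfg n)) volume volume :=
  Measure.quasiMeasurePreserving_snd.comp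
    (volume_preserving_piFinSuccAbove (fun _ : Fin (n + 1) => E3) i).quasiMeasurePreserving
theorem ae_ins (i : Fin (n + 1)) {P : Cfg (n + 1) → Prop} (h : ∀ᵐ X, P X) :
    (∀ᵐ x : E3, ∀ᵐ Y : Cfg n, P (Fin.insertNth i x Y)) ∧
    ∀ᵐ Y : Cfg n, ∀ᵐ x : E3, P (Fin.insertNth i x Y) := by
  have h1 := Measure.ae_ae_of_ae_prod ((mp_ins i).quasiMeasurePreserving.ae h)
  have h2 := Measure.ae_ae_of_ae_prod ((slot1_mp i).quasiMeasurePreserving.ae h)
  exact ⟨h1, h2⟩
theorem ae_slot (i : Fin n) {P : E3 → Prop} (h : ∀ᵐ x, P x) : ∀ᵐ X : Cfg n, P (X i) :=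
  (slot1_qslot i).ae h
theorem ae_rest (i : Fin (n + 1)) {P : Cfg n → Prop} (h : ∀ᵐ Y, P Y) :
    ∀ᵐ X : Cfg (n + 1), P (Fin.removeNth i X) :=
  (slot1_qrest i).ae h
theorem memLp_tensor (i : Fin (n + 1)) {φ : E3 → ℝ} {Ξ : Cfg n → ℝ} (hφ : MemLp φ 2 volume)
    (hΞ : MemLp Ξ 2 volume) :
    MemLp (fun X : Cfg (n + 1) => φ (X i) * Ξ (Fin.removeNth i X)) 2 volume := by
  have h1 : MemLp (fun z : E3 × Cfg n => φ z.1 * Ξ z.2) 2 (volume.prod volume) := by
    refine (memLp_two_iff_integrable_sq (hφ.1.comp_fst.mul hΞ.1.comp_snd)).2 ?_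
    simp only [Pi.mul_apply, mul_pow]
    exact hφ.integrable_sq.mul_prod hΞ.integrable_sq
  exact h1.comp_measurePreserving (volume_preserving_piFinSuccAbove (fun _ : Fin (n + 1) => E3) i)
theorem slice_slot (i : Fin (n + 1)) (a : S (eN (n + 1))) : ∀ᵐ Y : Cfg n,
    ((fun x => a.f (Fin.insertNth i x Y)), fun k x => a.g (i, k) (Fin.insertNth i x Y)) ∈ Sob e3 := by
  refine slot1_slice (slot1_mp i) (LinearMap.single ℝ (fun _ : Fin (n + 1) => E3) i)
    (LinearMap.ker_single _ _ _) (fun Y => Fin.insertNth i 0 Y) (fun Y x => funext fun j => ?_)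
    (fun k => (i, k)) (fun k => rfl) a
  induction j using Fin.succAboveCases i <;> simp
theorem slice_rest (i : Fin (n + 1)) (a : S (eN (n + 1))) : ∀ᵐ x : E3,
    ((fun Y => a.f (Fin.insertNth i x Y)),
      fun p Y => a.g (i.succAbove p.1, p.2) (Fin.insertNth i x Y)) ∈ Sob (eN n) := by
  let L : Cfg n →ₗ[ℝ] Cfg (n + 1) :=
    { toFun := fun Y => Fin.insertNth i 0 Y
      map_add' := fun Y Z => funext fun j => by
        induction j using Fin.succAboveCases i <;> simp
      map_smul' := fun t Y => funext fun j => by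
        induction j using Fin.succAboveCases i <;> simp }
  have hL : ∀ Y, L Y = Fin.insertNth i 0 Y := fun _ => rfl
  have h1 : LinearMap.ker L = ⊥ := LinearMap.ker_eq_bot'.2 fun Y h => funext fun j => by
    have := congrFun h (i.succAbove j)
    rwa [hL, Fin.insertNth_apply_succAbove] at this
  have h2 : ∀ (x : E3) (Y : Cfg n), (Fin.insertNth i x Y : Cfg (n + 1)) = Pi.single i x + L Y :=
    fun x Y => funext fun j => by
      rw [hL]
      induction j using Fin.succAboveCases i <;> simp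
  have h3 : ∀ p : Fin n × Fin 3, L (eN n p) = eN (n + 1) (i.succAbove p.1, p.2) :=
    fun p => funext fun j => by
      rw [hL]
      induction j using Fin.succAboveCases i <;> simp [eN, dir, Pi.single_apply]
  exact slot1_slice (e' := eN n) (mp_ins i) L h1 (fun x => Pi.single i x) h2
    (fun p => (i.succAbove p.1, p.2)) h3 a

/-- A function on configuration space as a fibred function of slot `i`. -/
def slotFib (i : Fin (n + 1)) (a : S (eN (n + 1))) : Fib (volume : Measure (Cfg n)) where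
  F x Y := a.f (Fin.insertNth i x Y)
  D k x Y := a.g (i, k) (Fin.insertNth i x Y)
  mF := a.mem.comp_measurePreserving (mp_ins i)
  mD k := (a.gmem (i, k)).comp_measurePreserving (mp_ins i)
  slice := slice_slot i a

theorem slotFib_n (i : Fin (n + 1)) (a : S (eN (n + 1))) : (slotFib i a).n = rho i a.f := rfl
theorem slotFib_red (i : Fin (n + 1)) (a : S (eN (n + 1))) (φ : E3 → ℝ) :
    (slotFib i a).red φ = red i φ a.f := rfl
theorem slotFib_pr (i : Fin (n + 1)) (a : S (eN (n + 1))) {Ξ : Cfg n → ℝ} (hΞ : MemLp Ξ 2 volume) :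
    ((slotFib i a).pr hΞ).f = pair i a.f Ξ := rfl
theorem slotFib_gam (i : Fin (n + 1)) (a : S (eN (n + 1))) (φ : E3 → ℝ) :
    (slotFib i a).gam φ φ = occ i φ a.f := by
  simp only [Fib.gam, occ, sq, slotFib_red]
theorem integral_rho (i : Fin (n + 1)) (a : S (eN (n + 1))) : ∫ x, rho i a.f x = ip a a :=
  (integral_ins i a.int_sq).2.2.2.2.1.symm.trans (ip_self a).symm
theorem integral_tau (i : Fin (n + 1)) (a : S (eN (n + 1))) :
    1 / 2 * ∫ x, (slotFib i a).tau x = kinI i a a := by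
  have h := fun k => integral_ins i (a.int_gsq (i, k))
  have e : ∫ x, (slotFib i a).tau x =
      ∑ k, ∫ x : E3, ∫ Y : Cfg n, a.g (i, k) (Fin.insertNth i x Y) ^ 2 :=
    integral_finsetSum _ fun k _ => (h k).1
  simp only [e, kinI, ← sq, fun k => (h k).2.2.2.2.1]
theorem kin_eq_sum (a b : S (eN n)) : kin a b = ∑ i, kinI i a b := by
  simp only [kin, kinI, Fintype.sum_prod_type, Finset.mul_sum]
theorem bil_kinI (i : Fin n) : Bil (kinI i) := by
  refine ⟨fun a b => ?_, fun a b c => ?_, fun t a b => ?_⟩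
  · simp only [kinI, mul_comm (a.g _ _)]
  · simp only [kinI, S.add_g, add_mul, ← mul_add, ← Finset.sum_add_distrib,
      integral_add (a.int_gmul c _ _) (b.int_gmul c _ _)]
  · simp only [kinI, S.smul_g, mul_assoc, integral_const_mul, ← Finset.mul_sum]
    ring
theorem kinI_nonneg (i : Fin n) (a : S (eN n)) : 0 ≤ kinI i a a :=
  mul_nonneg one_half_pos.le
    (Finset.sum_nonneg fun _ _ => integral_nonneg fun _ => mul_self_nonneg _)
theorem kinI_le (i : Fin n) (a : S (eN n)) : kinI i a a ≤ kin a a := by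
  rw [kin_eq_sum]
  exact Finset.single_le_sum (f := fun i => kinI i a a) (fun j _ => kinI_nonneg j a)
    (Finset.mem_univ i)
theorem integral_slot (i : Fin (n + 1)) (a : S (eN (n + 1))) {w : E3 → ℝ}
    (h : Integrable fun X : Cfg (n + 1) => w (X i) * a.f X ^ 2) :
    Integrable (fun x => w x * rho i a.f x) ∧
      ∫ X, w (X i) * a.f X ^ 2 = ∫ x, w x * rho i a.f x := by
  have h1 := integral_ins i h
  simp only [Fin.insertNth_apply_same, integral_const_mul] at h1
  exact ⟨h1.1, h1.2.2.2.2.1⟩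
theorem integrable_slot (i : Fin (n + 1)) (a : S (eN (n + 1))) {w : E3 → ℝ}
    (hw : AEStronglyMeasurable w volume) (h : Integrable fun x => w x * rho i a.f x) :
    Integrable fun X : Cfg (n + 1) => w (X i) * a.f X ^ 2 := by
  refine ((mp_ins i).integrable_comp_emb (emb_ins i)).1 ?_
  have h1 : Integrable (fun z : E3 × Cfg n => a.f (Fin.insertNth i z.1 z.2) ^ 2)
      (volume.prod volume) := (mp_ins i).integrable_comp_of_integrable a.int_sq
  simp only [Function.comp_def, Fin.insertNth_apply_same]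
  refine (integrable_prod_iff (hw.comp_fst.mul h1.1)).2 ⟨h1.prod_right_ae.mono fun x hx =>
    hx.const_mul (w x), h.norm.congr (ae_of_all _ fun x => ?_)⟩
  have h2 : 0 ≤ rho i a.f x := integral_nonneg fun _ => sq_nonneg _
  simp only [Pi.mul_apply, norm_mul, Real.norm_of_nonneg h2, Real.norm_of_nonneg (sq_nonneg _),
    integral_const_mul]
  rfl
theorem slot1_one (i : Fin (n + 1)) (a : S (eN (n + 1))) {U : Cfg (n + 1) → ℝ}
    (hU : AEStronglyMeasurable U volume) {α β : ℝ}
    (h : ∀ (Y : Cfg n) (b : S e3), Integrable (fun x => U (Fin.insertNth i x Y) * b.f x ^ 2) ∧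
      ∫ x, |U (Fin.insertNth i x Y)| * b.f x ^ 2 ≤ α * kin b b + β * ip b b) :
    Integrable (fun X => U X * a.f X ^ 2) ∧
      ∫ X, |U X| * a.f X ^ 2 ≤ α * kinI i a a + β * ip a a :=
  slot1_lift (slot1_mp i) (fun k => (i, k)) a (slice_slot i a) hU h
theorem FB.slot {U : E3 → ℝ} (hU : FB e3 U) (i : Fin n) : FB (eN n) fun X => U (X i) := by
  obtain ⟨m, rfl⟩ : ∃ m, n = m + 1 := ⟨n - 1, by have := i.pos; omega⟩
  have hm := hU.1.comp_quasiMeasurePreserving (slot1_qslot i)
  refine ⟨hm, fun ε hε => ?_⟩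
  obtain ⟨C, hC, h⟩ := hU.2 ε hε
  refine ⟨C, hC, fun a => ?_⟩
  have h1 := slot1_one i a (U := fun X => U (X i)) hm (α := ε) (β := C) fun Y b => by
    simpa only [Fin.insertNth_apply_same] using h b
  exact ⟨h1.1, h1.2.trans (add_le_add_left (mul_le_mul_of_nonneg_left (kinI_le i a) hε.le) _)⟩
theorem FB.slots {U : E3 → ℝ} (hU : FB e3 U) : FB (eN n) fun X => ∑ i, U (X i) :=
  fb_sum _ fun i _ => hU.slot i
theorem FB.rest {U : Cfg n → ℝ} (hU : FB (eN n) U) (i : Fin (n + 1)) :
    FB (eN (n + 1)) fun X => U (Fin.removeNth i X) := by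
  have hm := hU.1.comp_quasiMeasurePreserving (slot1_qrest i)
  refine ⟨hm, fun ε hε => ?_⟩
  obtain ⟨C, hC, h⟩ := hU.2 ε hε
  refine ⟨C, hC, fun a => ?_⟩
  have h1 := slot1_lift (mp_ins i) (fun p : Fin n × Fin 3 => (i.succAbove p.1, p.2)) a
    (slice_rest i a) (U := fun X => U (Fin.removeNth i X)) hm (α := ε) (β := C) fun Y b => by
      simpa only [Fin.removeNth_insertNth] using h b
  refine ⟨h1.1, h1.2.trans (add_le_add_left (mul_le_mul_of_nonneg_left ?_ hε.le) _)⟩
  have h2 := kinI_nonneg i a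
  rw [kin_eq_sum, Fin.sum_univ_succAbove _ i, Fintype.sum_prod_type, Finset.mul_sum]
  exact le_add_of_nonneg_left h2
theorem slotFib_en {U : E3 → ℝ} (hU : FB e3 U) (i : Fin (n + 1)) (a : S (eN (n + 1))) :
    (slotFib i a).en U = kinI i a a + pot (fun X => U (X i)) a a := by
  have h1 : Integrable fun X : Cfg (n + 1) => U (X i) * a.f X ^ 2 := by
    simpa only [sq] using (hU.slot i).int a a
  rw [Fib.en, integral_tau, slotFib_n, ← (integral_slot i a h1).2]
  simp only [pot, sq]
theorem qf_slots {U : E3 → ℝ} (hU : FB e3 U) (a : S (eN (n + 1))) :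
    qf (fun X => ∑ i, U (X i)) a a = ∑ i, (slotFib i a).en U := by
  simp only [slotFib_en hU, Finset.sum_add_distrib]
  rw [qf, kin_eq_sum, pot_sum _ fun i _ => hU.slot i]
theorem lift_slot {U : E3 → ℝ} (hU : FB e3 U) {κ : Type} [Fintype κ] (φ : κ → S e3)
    (c : κ → ℝ) (c₀ : ℝ) (h : ∀ a : S e3, c₀ * ip a a + ∑ j, c j * ip (φ j) a ^ 2 ≤ qf U a a)
    (a : S (eN (n + 1))) :
    (n + 1) * c₀ * ip a a + ∑ j, c j * ∑ i, occ i (φ j).f a.f ≤
      qf (fun X => ∑ i, U (X i)) a a := by
  have h1 := Finset.sum_le_sum fun i (_ : i ∈ Finset.univ) => (slotFib i a).lift hU φ c c₀ h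
  simp only [slotFib_n, integral_rho, slotFib_gam, Finset.sum_add_distrib, Finset.sum_const,
    Finset.card_univ, Fintype.card_fin, nsmul_eq_mul] at h1
  rw [Finset.sum_comm] at h1
  simp only [← Finset.mul_sum] at h1
  rw [qf_slots hU]
  push_cast at h1
  linarith
theorem slot1_hardy (a : S (eN (n + 1))) (i : Fin (n + 1)) {c : Cfg (n + 1) → E3}
    (hc : Measurable c) (c' : Cfg n → E3) (h : ∀ x Y, c (Fin.insertNth i x Y) = c' Y) :
    MemLp (fun X => 1 / ‖X i - c X‖ * a.f X) 2 volume ∧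
      ∫ X, (1 / ‖X i - c X‖ * a.f X) ^ 2 ≤ 8 * kinI i a a := by
  have hm : Measurable fun X : Cfg (n + 1) => ‖X i - c X‖ := ((measurable_pi_apply i).sub hc).norm
  have e1 : ∀ t : ℝ, |1 / t ^ 2| = 1 / t ^ 2 := fun t => abs_of_nonneg (by positivity)
  have h1 := slot1_one i a (U := fun X => 1 / ‖X i - c X‖ ^ 2)
    (measurable_const.div (hm.pow_const 2)).aestronglyMeasurable (α := 8) (β := 0) fun Y b => by
      simpa only [Fin.insertNth_apply_same, h, e1, zero_mul, add_zero] using hardy b (c' Y)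
  simp only [e1, zero_mul, add_zero] at h1
  refine ⟨(memLp_two_iff_integrable_sq
    ((measurable_const.div hm).aestronglyMeasurable.mul a.mem.1)).2 ?_, ?_⟩
  · simpa only [Pi.mul_apply, Pi.div_apply, mul_pow, div_pow, one_pow] using h1.1
  · simpa only [mul_pow, div_pow, one_pow] using h1.2
theorem memLp_point (a : S (eN n)) (i : Fin n) (c : E3) :
    MemLp (fun X => 1 / ‖X i - c‖ * a.f X) 2 volume ∧
      ∫ X, (1 / ‖X i - c‖ * a.f X) ^ 2 ≤ 8 * kinI i a a := by
  obtain ⟨m, rfl⟩ : ∃ m, n = m + 1 := ⟨n - 1, by have := i.pos; omega⟩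
  exact slot1_hardy a i (c := fun _ => c) measurable_const (fun _ => c) fun _ _ => rfl
theorem memLp_pair (a : S (eN n)) (i j : Fin n) :
    MemLp (fun X => 1 / ‖X i - X j‖ * a.f X) 2 volume ∧
      ∫ X, (1 / ‖X i - X j‖ * a.f X) ^ 2 ≤ 8 * kinI i a a := by
  obtain ⟨m, rfl⟩ : ∃ m, n = m + 1 := ⟨n - 1, by have := i.pos; omega⟩
  by_cases h : j = i
  · subst h
    simp only [sub_self, norm_zero, div_zero, zero_mul, ne_eq, OfNat.ofNat_ne_zero,
      not_false_eq_true, zero_pow, integral_zero]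
    exact ⟨MemLp.zero, mul_nonneg (by norm_num) (kinI_nonneg j a)⟩
  · obtain ⟨j, rfl⟩ := Fin.exists_succAbove_eq h
    exact slot1_hardy a i (c := fun X => X (i.succAbove j)) (measurable_pi_apply _)
      (fun Y => Y j) fun x Y => Fin.insertNth_apply_succAbove (α := fun _ => E3) i x Y j
theorem fb_pair (i j : Fin n) : FB (eN n) fun X => 1 / ‖X i - X j‖ := by
  obtain ⟨m, rfl⟩ : ∃ m, n = m + 1 := ⟨n - 1, by have := i.pos; omega⟩
  by_cases h : j = i
  · subst h
    simp only [sub_self, norm_zero, div_zero]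
    exact fb_const 0
  obtain ⟨j, rfl⟩ := Fin.exists_succAbove_eq h
  have hm : AEStronglyMeasurable (fun X : Cfg (m + 1) => 1 / ‖X i - X (i.succAbove j)‖) volume :=
    Measurable.aestronglyMeasurable (by fun_prop)
  refine ⟨hm, fun ε hε => ⟨1 / (4 * (ε / 8)), by positivity, fun a => ?_⟩⟩
  have h1 := slot1_one i a hm (α := 8 * (ε / 8)) (β := 1 / (4 * (ε / 8))) fun Y b => by
    have h2 : ∀ x : E3, |1 / ‖x - Y j‖| = 1 / ‖x - Y j‖ := fun x => abs_of_nonneg (by positivity)
    simpa only [Fin.insertNth_apply_same, Fin.insertNth_apply_succAbove, h2] using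
      coul_le b (Y j) (δ := ε / 8) (by positivity)
  refine ⟨h1.1, h1.2.trans (add_le_add_left ?_ _)⟩
  have h2 := mul_le_mul_of_nonneg_left (kinI_le i a) hε.le
  linarith
theorem fb_Wee : FB (eN n) Wee :=
  fb_sum _ fun i _ => fb_sum _ fun k _ => fb_pair i k
theorem Wee_nonneg (X : Cfg n) : 0 ≤ Wee X :=
  Finset.sum_nonneg fun _ _ => Finset.sum_nonneg fun _ _ => by positivity
theorem memLp_Wee (a : S (eN n)) : MemLp (fun X => Wee X * a.f X) 2 volume ∧
    ∫ X, (Wee X * a.f X) ^ 2 ≤ 8 * (n : ℝ) ^ 4 * kin a a := by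
  have e : ∀ X, Wee X * a.f X = ∑ i, ∑ k ∈ Finset.Ioi i, 1 / ‖X i - X k‖ * a.f X := fun X => by
    simp only [Wee, Finset.sum_mul]
  have h1 : MemLp (fun X => Wee X * a.f X) 2 volume := by
    simp only [e]
    exact memLp_finsetSum _ fun i _ => memLp_finsetSum _ fun k _ => (memLp_pair a i k).1
  have h2 := fun i k => (memLp_pair a i k).1.integrable_sq
  have h3 : ∀ i : Fin n, Integrable fun X => ∑ k, (1 / ‖X i - X k‖ * a.f X) ^ 2 := fun i =>
    integrable_finsetSum _ fun k _ => h2 i k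
  have n0 : (0 : ℝ) ≤ n := Nat.cast_nonneg n
  refine ⟨h1, (integral_mono h1.integrable_sq
    ((integrable_finsetSum Finset.univ fun i _ => h3 i).const_mul ((n : ℝ) ^ 2))
    fun X => ?_).trans ?_⟩
  · have a1 : ∀ i : Fin n, (∑ k ∈ Finset.Ioi i, 1 / ‖X i - X k‖ * a.f X) ^ 2 ≤
        n * ∑ k, (1 / ‖X i - X k‖ * a.f X) ^ 2 := fun i => by
      refine sq_sum_le_card_mul_sum_sq.trans (mul_le_mul ?_ (Finset.sum_le_sum_of_subset_of_nonneg
        (Finset.subset_univ _) fun _ _ _ => sq_nonneg _)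
        (Finset.sum_nonneg fun _ _ => sq_nonneg _) n0)
      exact_mod_cast (Finset.card_le_univ _).trans_eq (Fintype.card_fin n)
    have a2 := mul_le_mul_of_nonneg_left (Finset.sum_le_sum fun i (_ : i ∈ Finset.univ) => a1 i) n0
    beta_reduce
    rw [e]
    refine sq_sum_le_card_mul_sum_sq.trans ?_
    rw [Finset.card_univ, Fintype.card_fin]
    rw [← Finset.mul_sum] at a2
    linarith
  · rw [integral_const_mul, integral_finsetSum _ fun i _ => h3 i]
    have a1 : ∀ i : Fin n, ∫ X, ∑ k, (1 / ‖X i - X k‖ * a.f X) ^ 2 ≤ n * (8 * kin a a) :=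
      fun i => by
        rw [integral_finsetSum _ fun k _ => h2 i k]
        refine (Finset.sum_le_sum fun k _ => (memLp_pair a i k).2.trans
          (mul_le_mul_of_nonneg_left (kinI_le i a) (by norm_num))).trans_eq ?_
        rw [Finset.sum_const, Finset.card_univ, Fintype.card_fin, nsmul_eq_mul]
    have a2 := Finset.sum_le_sum fun i (_ : i ∈ Finset.univ) => a1 i
    rw [Finset.sum_const, Finset.card_univ, Fintype.card_fin, nsmul_eq_mul] at a2
    exact (mul_le_mul_of_nonneg_left a2 (sq_nonneg _)).trans_eq (by ring)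
theorem fb_UN (R lam : ℝ) : FB (eN n) (UN R lam) :=
  (fb_VR R).slots.add (fb_Wee.const_mul lam)
theorem Wee_zero (X : Cfg (n + 1)) :
    Wee X = ∑ j : Fin n, 1 / ‖X 0 - X j.succ‖ + Wee (Fin.removeNth 0 X) := by
  simp only [Wee, Fin.sum_univ_succ, Fin.sum_Ioi_zero, Fin.sum_Ioi_succ, Fin.removeNth_zero,
    Fin.tail]
theorem kin_le_UN (R : ℝ) {lam : ℝ} (h : 0 ≤ lam) (a : S (eN n)) :
    kin a a ≤ 2 * qf (UN R lam) a a + 8 * n * ip a a := by
  have h1 : pot (UN R lam) a a = pot (fun X => ∑ i, VR R (X i)) a a + lam * pot Wee a a := by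
    rw [← pot_const_mul]
    exact pot_add (fb_VR R).slots (fb_Wee.const_mul lam) a a
  have h2 : 0 ≤ lam * pot Wee a a := mul_nonneg h
    (integral_nonneg fun X => mul_nonneg (Wee_nonneg X) (mul_self_nonneg _))
  have h3 := kin_nonneg a
  rw [qf, h1]
  cases n with
  | zero =>
    simp only [pot, Finset.univ_eq_empty, Finset.sum_empty, zero_mul, integral_zero,
      Nat.cast_zero, mul_zero] at h2 ⊢
    linarith
  | succ n =>
    have h4 := lift_slot ((fb_VR R).const_mul 2) (κ := Fin 0) Fin.elim0 Fin.elim0 (-8)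
      (fun b => by
        have := kin_le_VR R b
        rw [qf] at this
        rw [qf, pot_const_mul, Fin.sum_univ_zero]
        linarith) a
    simp only [← Finset.mul_sum] at h4
    rw [qf, pot_const_mul, Fin.sum_univ_zero] at h4
    push_cast
    linarith

end Vale.Agent.P363
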