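import Vale.Agent.P363.A.Slot2B

/-!
# P363 A/Slot2  (TASK)

`mem_of_slices`: Fubini in the definition of `WD` (slices of a test function are test functions).  `tens_mem`, `prd_mem`, `mulSlot`: `mem_of_slices` with `wd_mul`, `S.wd`, `slice_slot`;
for `tens_mem` in a slot `i.succAbove j` it is easier to verify `WD` directly by Fubini in the other order (`x` outside, `Φ.wd` inside).  `prd`: `integral_fintype_prod_volume_eq_prod`,
`Integrable.fintype_prod`; treat `n = 0` separately (no directions; or `cases n`).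
-/

open MeasureTheory Filter Topology Set
open scoped ContDiff

set_option linter.unusedSectionVars false

noncomputable section

namespace Vale.Agent.P363

variable {n : ℕ}

theorem mem_of_slices {f : Cfg (n + 1) → ℝ} {g : Fin (n + 1) × Fin 3 → Cfg (n + 1) → ℝ}
    (hf : MemLp f 2 volume) (hg : ∀ p, MemLp (g p) 2 volume)
    (h : ∀ i k, ∀ᵐ Y : Cfg n, WD (e3 k) (fun x => f (Fin.insertNth i x Y))
      fun x => g (i, k) (Fin.insertNth i x Y)) : (f, g) ∈ Sob (eN (n + 1)) := by
  exact ⟨hf, hg, fun p => sl2_wd_slot hf (hg p) p.1 p.2 (h p.1 p.2)⟩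

theorem tens_mem (i : Fin (n + 1)) (φ : S e3) (Φ : S (eN n)) :
    ((fun X => φ.f (X i) * Φ.f (Fin.removeNth i X)), fun p X =>
      (Fin.insertNth i (φ.g p.2 (X i) * Φ.f (Fin.removeNth i X))
        (fun j => φ.f (X i) * Φ.g (j, p.2) (Fin.removeNth i X)) : Fin (n + 1) → ℝ) p.1) ∈
      Sob (eN (n + 1)) := by
  have h0 := memLp_tensor i φ.mem Φ.mem
  have h1 := fun k => memLp_tensor i (φ.gmem k) Φ.mem
  have h2 := fun p => memLp_tensor i φ.mem (Φ.gmem p)
  refine mem_Sob.2 ⟨h0, fun p => ?_, fun p => ?_⟩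
  · obtain ⟨l, k⟩ := p
    refine Fin.succAboveCases i ?_ (fun j => ?_) l
    · simpa only [Fin.insertNth_apply_same] using h1 k
    · simpa only [Fin.insertNth_apply_succAbove] using h2 (j, k)
  · obtain ⟨l, k⟩ := p
    refine Fin.succAboveCases i ?_ (fun j => ?_) l
    · simp only [Fin.insertNth_apply_same]
      refine sl2_wd_slot h0 (h1 k) i k (Eventually.of_forall fun Y => ?_)
      simp only [Fin.insertNth_apply_same, Fin.removeNth_insertNth]
      exact sl2_mulc (φ.wd k) _
    · simp only [Fin.insertNth_apply_succAbove]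
      refine sl2_wd_rest h0 (h2 (j, k)) i j k (Eventually.of_forall fun x => ?_)
      simp only [Fin.insertNth_apply_same, Fin.removeNth_insertNth]
      exact sl2_cmul (Φ.wd (j, k)) _

/-- The tensor product with `φ` in slot `i`. -/
def tens (i : Fin (n + 1)) (φ : S e3) (Φ : S (eN n)) : S (eN (n + 1)) := S.of (tens_mem i φ Φ)

theorem tens_f (i : Fin (n + 1)) (φ : S e3) (Φ : S (eN n)) (X : Cfg (n + 1)) :
    (tens i φ Φ).f X = φ.f (X i) * Φ.f (Fin.removeNth i X) := rfl
theorem tens_g_same (i : Fin (n + 1)) (φ : S e3) (Φ : S (eN n)) (k : Fin 3) (X : Cfg (n + 1)) :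
    (tens i φ Φ).g (i, k) X = φ.g k (X i) * Φ.f (Fin.removeNth i X) := by
  simp only [tens, S.of_g, Fin.insertNth_apply_same]
theorem tens_g_succ (i : Fin (n + 1)) (φ : S e3) (Φ : S (eN n)) (j : Fin n) (k : Fin 3)
    (X : Cfg (n + 1)) :
    (tens i φ Φ).g (i.succAbove j, k) X = φ.f (X i) * Φ.g (j, k) (Fin.removeNth i X) := by
  simp only [tens, S.of_g, Fin.insertNth_apply_succAbove]
theorem ip_tens (i : Fin (n + 1)) (φ : S e3) (Φ : S (eN n)) (a : S (eN (n + 1))) :
    ip (tens i φ Φ) a = ip φ ((slotFib i a).pr Φ.mem) := by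
  exact sl2_fub i (S.int_mul (tens i φ Φ) a)
theorem kinI_tens (i : Fin (n + 1)) (φ : S e3) (Φ : S (eN n)) (a : S (eN (n + 1))) :
    kinI i (tens i φ Φ) a = kin φ ((slotFib i a).pr Φ.mem) := by
  unfold kinI kin
  congr 1
  refine Finset.sum_congr rfl fun k _ => ?_
  have h := S.int_gmul (tens i φ Φ) a (i, k) (i, k)
  simp only [tens_g_same] at h ⊢
  exact sl2_fub i h
theorem pot_tens {U : E3 → ℝ} (hU : FB e3 U) (i : Fin (n + 1)) (φ : S e3) (Φ : S (eN n))
    (a : S (eN (n + 1))) :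
    pot (fun X => U (X i)) (tens i φ Φ) a = pot U φ ((slotFib i a).pr Φ.mem) := by
  have h := (hU.slot i).int (tens i φ Φ) a
  have e : ∀ X : Cfg (n + 1), U (X i) * ((tens i φ Φ).f X * a.f X) =
      U (X i) * φ.f (X i) * Φ.f (Fin.removeNth i X) * a.f X := fun X => by
    rw [tens_f]; ring
  unfold pot
  simp only [e] at h ⊢
  rw [sl2_fub i (u := fun x => U x * φ.f x) h]
  exact integral_congr_ae (Eventually.of_forall fun x => mul_assoc _ _ _)

open Classical in
/-- The slice with slot `i` frozen at `x`. -/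
def rsl (i : Fin (n + 1)) (a : S (eN (n + 1))) (x : E3) : S (eN n) :=
  if h : ((fun Y => a.f (Fin.insertNth i x Y)),
      fun p Y => a.g (i.succAbove p.1, p.2) (Fin.insertNth i x Y)) ∈ Sob (eN n) then S.of h else 0

theorem rsl_ae (i : Fin (n + 1)) (a : S (eN (n + 1))) : ∀ᵐ x : E3,
    (∀ Y, (rsl i a x).f Y = a.f (Fin.insertNth i x Y)) ∧
    ∀ j k Y, (rsl i a x).g (j, k) Y = a.g (i.succAbove j, k) (Fin.insertNth i x Y) := by
  filter_upwards [slice_rest i a] with x hx
  unfold rsl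
  rw [dif_pos hx]
  exact ⟨fun _ => rfl, fun _ _ _ => rfl⟩
/-- The energy of the other slots, computed slice by slice. -/
theorem qf_rsl {U : Cfg n → ℝ} (hU : FB (eN n) U) (i : Fin (n + 1)) (a b : S (eN (n + 1))) :
    Integrable (fun x => qf U (rsl i a x) (rsl i b x)) ∧
    ∫ x, qf U (rsl i a x) (rsl i b x) =
      kin a b - kinI i a b + pot (fun X => U (Fin.removeNth i X)) a b := by
  have hG := fun p : Fin n × Fin 3 =>
    integral_ins i (S.int_gmul a b (i.succAbove p.1, p.2) (i.succAbove p.1, p.2))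
  have hH := integral_ins i ((hU.rest i).int a b)
  have hK : Integrable fun x : E3 => 1 / 2 * ∑ p : Fin n × Fin 3, ∫ Y : Cfg n,
      a.g (i.succAbove p.1, p.2) (Fin.insertNth i x Y) *
        b.g (i.succAbove p.1, p.2) (Fin.insertNth i x Y) :=
    (integrable_finsetSum _ fun p _ => (hG p).1).const_mul _
  have e : (fun x => qf U (rsl i a x) (rsl i b x)) =ᵐ[volume] fun x : E3 =>
      1 / 2 * (∑ p : Fin n × Fin 3, ∫ Y : Cfg n,
        a.g (i.succAbove p.1, p.2) (Fin.insertNth i x Y) *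
          b.g (i.succAbove p.1, p.2) (Fin.insertNth i x Y)) +
      ∫ Y : Cfg n, U (Fin.removeNth i (Fin.insertNth i x Y : Cfg (n + 1))) *
        (a.f (Fin.insertNth i x Y) * b.f (Fin.insertNth i x Y)) := by
    filter_upwards [rsl_ae i a, rsl_ae i b] with x ha hb
    unfold qf kin pot
    simp only [ha.1, hb.1, Fin.removeNth_insertNth]
    congr 2
    refine Finset.sum_congr rfl fun p _ => ?_
    obtain ⟨j, k⟩ := p
    simp only [ha.2, hb.2]
  refine ⟨(hK.add hH.1).congr e.symm, ?_⟩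
  rw [integral_congr_ae e, integral_add hK hH.1, integral_const_mul,
    integral_finsetSum _ fun p _ => (hG p).1, ← hH.2.2.2.2.1,
    ← Finset.sum_congr rfl fun p _ => (hG p).2.2.2.2.1]
  unfold kin kinI pot
  rw [Fintype.sum_prod_type, Fintype.sum_prod_type, Fin.sum_univ_succAbove _ i]
  ring

theorem prd_mem (φ : Fin n → S e3) :
    ((fun X => ∏ i, (φ i).f (X i)), fun p X =>
      (φ p.1).g p.2 (X p.1) * ∏ j ∈ Finset.univ.erase p.1, (φ j).f (X j)) ∈ Sob (eN n) := by
  have h0 := sl2_mem_prod fun i => (φ i).mem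
  have h1 := fun p : Fin n × Fin 3 => sl2_mem_upd p.1 (fun i => (φ i).mem) ((φ p.1).gmem p.2)
  cases n with
  | zero => exact mem_Sob.2 ⟨h0, h1, fun p => p.1.elim0⟩
  | succ n =>
    refine mem_of_slices h0 h1 fun i k => Eventually.of_forall fun Y => ?_
    simp only [Fin.prod_univ_succAbove _ i, sl2_erase, Fin.insertNth_apply_same,
      Fin.insertNth_apply_succAbove]
    exact sl2_mulc ((φ i).wd k) _

/-- A product of orbitals. -/
def prd (φ : Fin n → S e3) : S (eN n) := S.of (prd_mem φ)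

theorem prd_f (φ : Fin n → S e3) (X : Cfg n) : (prd φ).f X = ∏ i, (φ i).f (X i) := rfl
theorem ip_prd (φ χ : Fin n → S e3) : ip (prd φ) (prd χ) = ∏ i, ip (φ i) (χ i) := by
  unfold ip
  simp only [prd_f, ← Finset.prod_mul_distrib]
  exact integral_fintype_prod_volume_eq_prod (E := fun _ : Fin n => E3)
    fun i x => (φ i).f x * (χ i).f x
theorem sl2_prd_g (φ : Fin n → S e3) (i : Fin n) (k : Fin 3) (X : Cfg n) :
    (prd φ).g (i, k) X = (φ i).g k (X i) * ∏ j ∈ Finset.univ.erase i, (φ j).f (X j) := rfl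
theorem qf_prd {U : E3 → ℝ} (hU : FB e3 U) (φ χ : Fin n → S e3) :
    qf (fun X => ∑ i, U (X i)) (prd φ) (prd χ) =
      ∑ i, qf U (φ i) (χ i) * ∏ j ∈ Finset.univ.erase i, ip (φ j) (χ j) := by
  unfold qf
  rw [kin_eq_sum, pot_sum _ fun i _ => hU.slot i, ← Finset.sum_add_distrib]
  refine Finset.sum_congr rfl fun i _ => ?_
  rw [add_mul]
  congr 1
  · unfold kinI kin ip
    rw [mul_assoc, Finset.sum_mul]
    congr 1
    refine Finset.sum_congr rfl fun k _ => ?_
    rw [← sl2_int_upd i (fun j x => (φ j).f x * (χ j).f x) fun x => (φ i).g k x * (χ i).g k x]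
    refine integral_congr_ae (Eventually.of_forall fun X => ?_)
    simp only [sl2_prd_g, Finset.prod_mul_distrib]
    ring
  · unfold pot ip
    rw [← sl2_int_upd i (fun j x => (φ j).f x * (χ j).f x)
      fun x => U x * ((φ i).f x * (χ i).f x)]
    refine integral_congr_ae (Eventually.of_forall fun X => ?_)
    simp only [prd_f, Finset.prod_mul_distrib,
      ← Finset.mul_prod_erase Finset.univ _ (Finset.mem_univ i)]
    ring
theorem prd_eq_tens (i : Fin (n + 1)) (φ : Fin (n + 1) → S e3) (X : Cfg (n + 1)) :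
    (prd φ).f X = (tens i (φ i) (prd fun j => φ (i.succAbove j))).f X := by
  exact Fin.prod_univ_succAbove (fun j => (φ j).f (X j)) i
theorem qf_prd_left {U : E3 → ℝ} (hU : FB e3 U) (φ : Fin (n + 1) → S e3) (a : S (eN (n + 1))) :
    qf (fun X => ∑ i, U (X i)) (prd φ) a =
      ∑ i, qf U (φ i) ((slotFib i a).pr (prd fun j => φ (i.succAbove j)).mem) := by
  unfold qf
  rw [kin_eq_sum, pot_sum _ fun i _ => hU.slot i, ← Finset.sum_add_distrib]
  refine Finset.sum_congr rfl fun i _ => ?_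
  have h : (prd φ).f =ᵐ[volume] (tens i (φ i) (prd fun j => φ (i.succAbove j))).f :=
    Eventually.of_forall (prd_eq_tens i φ)
  rw [← kinI_tens, ← pot_tens hU, pot_congr _ h]
  congr 1
  unfold kinI
  congr 1
  refine Finset.sum_congr rfl fun k _ => integral_congr_ae ?_
  filter_upwards [S.g_congr h (i, k)] with X hX
  rw [hX]
theorem exists_mulSlot (i : Fin (n + 1)) (a : S (eN (n + 1))) (μ : S e3) {C : ℝ}
    (hC : ∀ᵐ x, |μ.f x| ≤ C) (hi : ∀ k, Integrable fun x => rho i a.f x * μ.g k x ^ 2) :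
    ∃ b : S (eN (n + 1)), (∀ X, b.f X = μ.f (X i) * a.f X) ∧
      (∀ k X, b.g (i, k) X = μ.f (X i) * a.g (i, k) X + μ.g k (X i) * a.f X) ∧
      ∀ j k X, j ≠ i → b.g (j, k) X = μ.f (X i) * a.g (j, k) X := by
  have hm := sl2_meas i μ.mem.1
  have hb := ae_slot i hC
  have h0 := ch_bmul hm hb a.mem
  have h1 := fun p => ch_bmul hm hb (a.gmem p)
  have h2 : ∀ k, MemLp (fun X : Cfg (n + 1) => μ.g k (X i) * a.f X) 2 volume := fun k => by
    refine (memLp_two_iff_integrable_sq ((sl2_meas i (μ.gmem k).1).mul a.mem.1)).2 ?_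
    simp only [Pi.mul_apply, mul_pow]
    exact integrable_slot i a (w := fun x => μ.g k x ^ 2) ((μ.gmem k).1.pow 2)
      (by simpa only [mul_comm] using hi k)
  have key : ((fun X : Cfg (n + 1) => μ.f (X i) * a.f X), fun (p : Fin (n + 1) × Fin 3) X =>
      μ.f (X i) * a.g p X + if p.1 = i then μ.g p.2 (X i) * a.f X else 0) ∈
      Sob (eN (n + 1)) := by
    refine mem_Sob.2 ⟨h0, fun p => ?_, fun p => ?_⟩
    · by_cases h : p.1 = i
      · simp only [if_pos h]
        exact (h1 p).add (h2 p.2)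
      · simp only [if_neg h, add_zero]
        exact h1 p
    · obtain ⟨l, k⟩ := p
      refine Fin.succAboveCases i ?_ (fun j => ?_) l
      · simp only [if_true]
        refine sl2_wd_slot h0 ((h1 (i, k)).add (h2 k)) i k ?_
        filter_upwards [slice_slot i a] with Y hY
        simp only [Pi.add_apply, Fin.insertNth_apply_same]
        exact wd_mul μ (S.of hY) k
      · simp only [if_neg (Fin.succAbove_ne i j), add_zero]
        refine sl2_wd_rest h0 (h1 _) i j k ?_
        filter_upwards [slice_rest i a] with x hx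
        simp only [Fin.insertNth_apply_same]
        exact sl2_cmul ((S.of hx).wd (j, k)) _
  refine ⟨S.of key, fun _ => rfl, fun k X => ?_, fun j k X h => ?_⟩
  · simp only [S.of_g, if_true]
  · simp only [S.of_g, if_neg h, add_zero]
theorem exists_mul1Slot (i : Fin n) (a : S (eN n)) {θ : E3 → ℝ} (hθ : Mul1 θ) :
    ∃ b : S (eN n), (∀ X, b.f X = θ (X i) * a.f X) ∧
      (∀ k X, b.g (i, k) X = θ (X i) * a.g (i, k) X + fderiv ℝ θ (X i) (e3 k) * a.f X) ∧
      ∀ j k X, j ≠ i → b.g (j, k) X = θ (X i) * a.g (j, k) X := by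
  obtain ⟨h1, h2⟩ := sl2_mul1 i hθ
  refine ⟨S.of (mul1 a h1), fun _ => rfl, fun k X => ?_, fun j k X h => ?_⟩
  · simp only [S.of_g, h2, eN, dir, Pi.single_eq_same]
    rfl
  · simp only [S.of_g, h2, eN, dir, Pi.single_eq_of_ne h.symm, map_zero, zero_mul, add_zero]

end Vale.Agent.P363
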