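import Vale.Agent.P363.A.Slot1

/-!
# P363 A/Slot2B: helper lemmas for Slot2 (slices of test functions, products)
-/

open MeasureTheory Filter Topology Set
open scoped ContDiff

set_option linter.unusedSectionVars false

noncomputable section

namespace Vale.Agent.P363

variable {n : ℕ}

theorem sl2_test {W V : Type} [NormedAddCommGroup W] [NormedSpace ℝ W] [NormedAddCommGroup V]
    [NormedSpace ℝ V] (L : W →L[ℝ] V) (c : V) {A : W → V} (hA : ∀ x, A x = L x + c) {r : V → W}
    (hr : Continuous r) (hl : ∀ x, r (A x) = x) {φ : V → ℝ} (h1 : ContDiff ℝ ∞ φ)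
    (h2 : HasCompactSupport φ) :
    ContDiff ℝ ∞ (fun x => φ (A x)) ∧ HasCompactSupport (fun x => φ (A x)) ∧
      ∀ x w, fderiv ℝ (fun x => φ (A x)) x w = fderiv ℝ φ (A x) (L w) := by
  obtain rfl : A = fun x => L x + c := funext hA
  have hc : ContDiff ℝ ∞ fun x => L x + c := L.contDiff.add contDiff_const
  refine ⟨h1.comp hc, h2.comp_isClosedEmbedding
    (Function.LeftInverse.isClosedEmbedding hl hr hc.continuous), fun x w => ?_⟩
  have h3 := ((h1.differentiable (by simp)) (L x + c)).hasFDerivAt.comp x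
    (L.hasFDerivAt.add_const c)
  exact congrArg (fun l : W →L[ℝ] ℝ => l w) h3.fderiv

theorem sl2_wd_slot {f g : Cfg (n + 1) → ℝ} (hf : MemLp f 2 volume) (hg : MemLp g 2 volume)
    (i : Fin (n + 1)) (k : Fin 3)
    (h : ∀ᵐ Y : Cfg n, WD (e3 k) (fun x => f (Fin.insertNth i x Y))
      fun x => g (Fin.insertNth i x Y)) : WD (eN (n + 1) (i, k)) f g := by
  intro φ h1 h2
  rw [(integral_ins i (int_test' _ h1 h2 hf)).2.2.2.2.2,
    (integral_ins i (int_test h1.continuous h2 hg)).2.2.2.2.2, ← integral_neg]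
  refine integral_congr_ae ?_
  filter_upwards [h] with Y hY
  obtain ⟨a1, a2, a3⟩ := sl2_test (ContinuousLinearMap.single ℝ (fun _ : Fin (n + 1) => E3) i)
    (Fin.insertNth i (0 : E3) Y : Cfg (n + 1))
    (A := fun x : E3 => (Fin.insertNth i x Y : Cfg (n + 1)))
    (fun x => by
      funext j
      refine Fin.succAboveCases i ?_ (fun j => ?_) j <;> simp)
    (r := fun X => X i) (continuous_apply i) (fun x => by simp) h1 h2
  have := hY _ a1 a2
  simp only [a3] at this
  exact this

/-- The inclusion of the other slots. -/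
def sl2M (i : Fin (n + 1)) : Cfg n →L[ℝ] Cfg (n + 1) :=
  ContinuousLinearMap.pi (Fin.insertNth (α := fun _ => Cfg n →L[ℝ] E3) i 0
    fun j => ContinuousLinearMap.proj j)

theorem sl2M_apply (i : Fin (n + 1)) (Y : Cfg n) :
    sl2M i Y = (Fin.insertNth i (0 : E3) Y : Cfg (n + 1)) := by
  funext j
  refine Fin.succAboveCases i ?_ (fun j => ?_) j <;> simp [sl2M]

theorem sl2M_dir (i : Fin (n + 1)) (j : Fin n) (k : Fin 3) :
    sl2M i (eN n (j, k)) = eN (n + 1) (i.succAbove j, k) := by
  rw [sl2M_apply]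
  funext l
  refine Fin.succAboveCases i ?_ (fun l => ?_) l
  · simp [eN, dir]
  · simp [eN, dir, Pi.single_apply]

theorem sl2_wd_rest {f g : Cfg (n + 1) → ℝ} (hf : MemLp f 2 volume) (hg : MemLp g 2 volume)
    (i : Fin (n + 1)) (j : Fin n) (k : Fin 3)
    (h : ∀ᵐ x : E3, WD (eN n (j, k)) (fun Y => f (Fin.insertNth i x Y))
      fun Y => g (Fin.insertNth i x Y)) : WD (eN (n + 1) (i.succAbove j, k)) f g := by
  intro φ h1 h2
  rw [(integral_ins i (int_test' _ h1 h2 hf)).2.2.2.2.1,
    (integral_ins i (int_test h1.continuous h2 hg)).2.2.2.2.1, ← integral_neg]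
  refine integral_congr_ae ?_
  filter_upwards [h] with x hx
  obtain ⟨a1, a2, a3⟩ := sl2_test (sl2M i) (Fin.insertNth i x (0 : Cfg n) : Cfg (n + 1))
    (A := fun Y : Cfg n => (Fin.insertNth i x Y : Cfg (n + 1)))
    (fun Y => by
      rw [sl2M_apply]
      funext j
      refine Fin.succAboveCases i ?_ (fun j => ?_) j <;> simp)
    (r := fun X => Fin.removeNth i X) (continuous_pi fun j => continuous_apply _)
    (fun x => by simp) h1 h2
  have := hx _ a1 a2
  simp only [a3, sl2M_dir] at this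
  exact this

section
variable {V : Type} [NormedAddCommGroup V] [NormedSpace ℝ V] [MeasureSpace V]

theorem sl2_cmul {w : V} {f g : V → ℝ} (h : WD w f g) (c : ℝ) :
    WD w (fun x => c * f x) fun x => c * g x := by
  intro φ h1 h2
  simp only [mul_left_comm _ c]
  rw [integral_const_mul, integral_const_mul, h φ h1 h2, mul_neg]

theorem sl2_mulc {w : V} {f g : V → ℝ} (h : WD w f g) (c : ℝ) :
    WD w (fun x => f x * c) fun x => g x * c := by
  simpa only [mul_comm c] using sl2_cmul h c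

end

theorem sl2_fub (i : Fin (n + 1)) {u : E3 → ℝ} {Ξ : Cfg n → ℝ} {F : Cfg (n + 1) → ℝ}
    (h : Integrable fun X : Cfg (n + 1) => u (X i) * Ξ (Fin.removeNth i X) * F X) :
    ∫ X : Cfg (n + 1), u (X i) * Ξ (Fin.removeNth i X) * F X =
      ∫ x, u x * ∫ Y : Cfg n, F (Fin.insertNth i x Y) * Ξ Y := by
  rw [(integral_ins i h).2.2.2.2.1]
  refine integral_congr_ae (Eventually.of_forall fun x => ?_)
  simp only [Fin.insertNth_apply_same, Fin.removeNth_insertNth]
  rw [← integral_const_mul]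
  exact integral_congr_ae (Eventually.of_forall fun Y => by ring)

theorem sl2_meas (i : Fin n) {u : E3 → ℝ} (hu : AEStronglyMeasurable u volume) :
    AEStronglyMeasurable (fun X : Cfg n => u (X i)) volume :=
  hu.comp_quasiMeasurePreserving
    (Measure.quasiMeasurePreserving_eval (fun _ : Fin n => (volume : Measure E3)) i)

theorem sl2_mem_prod {u : Fin n → E3 → ℝ} (hu : ∀ i, MemLp (u i) 2 volume) :
    MemLp (fun X : Cfg n => ∏ i, u i (X i)) 2 volume := by
  refine (memLp_two_iff_integrable_sq (Finset.aestronglyMeasurable_fun_prod _ fun i _ =>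
    sl2_meas i (hu i).1)).2 ?_
  simp only [← Finset.prod_pow]
  exact Integrable.fintype_prod (f := fun i x => u i x ^ 2) fun i => (hu i).integrable_sq

theorem sl2_upd {β : Type} (i : Fin n) (u : Fin n → β) (w : β) (F : Fin n → β → ℝ) :
    F i w * ∏ j ∈ Finset.univ.erase i, F j (u j) = ∏ j, F j (Function.update u i w j) := by
  rw [← Finset.mul_prod_erase Finset.univ _ (Finset.mem_univ i), Function.update_self]
  congr 1
  exact Finset.prod_congr rfl fun j hj => by
    rw [Function.update_of_ne (Finset.ne_of_mem_erase hj)]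

theorem sl2_mem_upd (i : Fin n) {u : Fin n → E3 → ℝ} {w : E3 → ℝ} (hu : ∀ i, MemLp (u i) 2 volume)
    (hw : MemLp w 2 volume) :
    MemLp (fun X : Cfg n => w (X i) * ∏ j ∈ Finset.univ.erase i, u j (X j)) 2 volume := by
  have e : ∀ X : Cfg n, w (X i) * ∏ j ∈ Finset.univ.erase i, u j (X j) =
      ∏ j, Function.update u i w j (X j) := fun X => sl2_upd i u w fun j v => v (X j)
  simp only [e]
  refine sl2_mem_prod fun j => ?_
  rcases eq_or_ne j i with rfl | h
  · rwa [Function.update_self]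
  · rw [Function.update_of_ne h]
    exact hu j

theorem sl2_int_upd (i : Fin n) (u : Fin n → E3 → ℝ) (w : E3 → ℝ) :
    ∫ X : Cfg n, w (X i) * ∏ j ∈ Finset.univ.erase i, u j (X j) =
      (∫ x, w x) * ∏ j ∈ Finset.univ.erase i, ∫ x, u j x := by
  have e : ∀ X : Cfg n, w (X i) * ∏ j ∈ Finset.univ.erase i, u j (X j) =
      ∏ j, Function.update u i w j (X j) := fun X => sl2_upd i u w fun j v => v (X j)
  simp only [e]
  rw [integral_fintype_prod_volume_eq_prod (E := fun _ : Fin n => E3) (Function.update u i w)]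
  exact (sl2_upd i u w fun _ v => ∫ x, v x).symm

theorem sl2_erase (i : Fin (n + 1)) (F : Fin (n + 1) → ℝ) :
    ∏ j ∈ Finset.univ.erase i, F j = ∏ j : Fin n, F (i.succAbove j) := by
  rw [Fin.univ_succAbove n i, Finset.erase_cons, Finset.prod_map]
  rfl

theorem sl2_mul1 (i : Fin n) {θ : E3 → ℝ} (hθ : Mul1 θ) :
    Mul1 (fun X : Cfg n => θ (X i)) ∧
      ∀ X w : Cfg n, fderiv ℝ (fun X : Cfg n => θ (X i)) X w = fderiv ℝ θ (X i) (w i) := by
  obtain ⟨h1, C, hC⟩ := hθ
  have hd : ∀ X w : Cfg n, fderiv ℝ (fun X : Cfg n => θ (X i)) X w = fderiv ℝ θ (X i) (w i) := by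
    intro X w
    have h3 := ((h1.differentiable (by simp)) (X i)).hasFDerivAt.comp X
      (ContinuousLinearMap.proj (R := ℝ) (φ := fun _ : Fin n => E3) i).hasFDerivAt
    exact congrArg (fun l : Cfg n →L[ℝ] ℝ => l w) h3.fderiv
  refine ⟨⟨h1.comp (contDiff_apply ℝ E3 i), C, fun X => ⟨(hC _).1, ?_⟩⟩, hd⟩
  have h0 : 0 ≤ C := (abs_nonneg _).trans (hC 0).1
  refine ContinuousLinearMap.opNorm_le_bound _ h0 fun w => ?_
  rw [hd]
  exact ((fderiv ℝ θ (X i)).le_opNorm _).trans
    (mul_le_mul (hC _).2 (norm_le_pi_norm w i) (norm_nonneg _) h0)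

end Vale.Agent.P363
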