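import Vale.Agent.P363.A.Limit
import Vale.Agent.P363.A.Cut

/-!
# P363 A/Sobolev  (TASK)

`MeasureTheory.eLpNorm_le_eLpNorm_fderiv_of_eq_inner` (or `..._of_eq`) for `Sm` functions, `‖fderiv‖² = ∑ (∂ₖ)²` (`sum_sq_apply_e3`), Fatou along `approx_ae`
(`eLpNorm_lim_le_liminf_eLpNorm` / `lintegral_liminf_le`).  `holder32`: Hoelder with exponents `3/2, 3`.  `InV.fb`: split `a = a 1_{|a| > M} + a 1_{|a| ≤ M}`, the first part
has small `L^{3/2}` norm (dominated convergence).  `sob_supp`: Hoelder `∫ a² = ∫ 1_A a² ≤ |A|^{2/3} ‖a‖₆²`.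
-/

open MeasureTheory Filter Topology Set
open scoped ContDiff

set_option linter.unusedSectionVars false

noncomputable section

namespace Vale.Agent.P363

theorem sbl_core : ∃ K : ℝ, 0 ≤ K ∧ ∀ a : S e3,
    eLpNorm a.f 6 volume ≤ ENNReal.ofReal (K * √(2 * kin a a)) := by
  refine ⟨eLpNormLESNormFDerivOfEqInnerConst (volume : Measure E3) 2, NNReal.coe_nonneg _,
    fun a => ?_⟩
  have key : ∀ b : S e3, Sm b → eLpNorm b.f 6 volume ≤ ENNReal.ofReal
      ((eLpNormLESNormFDerivOfEqInnerConst (volume : Measure E3) 2 : ℝ) * √(2 * kin b b)) := by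
    rintro b ⟨b1, b2, b3⟩
    have h1 := eLpNorm_le_eLpNorm_fderiv_of_eq_inner (volume : Measure E3) (u := b.f)
      (b1.of_le (by simp)) b2 (p := 2) (p' := 6) one_le_two (by simp) (by simp; norm_num)
    have h2 : MemLp (fderiv ℝ b.f) 2 volume :=
      (b1.continuous_fderiv (by simp)).memLp_of_hasCompactSupport (b2.fderiv ℝ)
    have h3 : ∫ x, ‖fderiv ℝ b.f x‖ ^ (2 : ℝ) = 2 * kin b b := by
      rw [kin_self, ← mul_assoc, mul_one_div_cancel two_ne_zero, one_mul]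
      refine integral_congr_ae (ae_of_all _ fun x => ?_)
      simp only [b3, sum_sq_apply_e3, Real.rpow_ofNat]
    rw [ENNReal.coe_ofNat, ENNReal.coe_ofNat, h2.eLpNorm_eq_integral_rpow_norm (by simp) (by simp),
      ENNReal.toReal_ofNat, h3] at h1
    rw [ENNReal.ofReal_mul (NNReal.coe_nonneg _), ENNReal.ofReal_coe_nnreal, Real.sqrt_eq_rpow,
      one_div]
    exact h1
  obtain ⟨h, h1, h2, -, h3⟩ := a.approx_ae
  refine (Lp.eLpNorm_lim_le_liminf_eLpNorm (fun m => (h m).mem.1) _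
    (h3.mono fun x hx => hx.1)).trans ?_
  have h4 := ENNReal.tendsto_ofReal ((((bil_kin.tendsto abs_kin_le h2 h2).const_mul 2).sqrt).const_mul
    (eLpNormLESNormFDerivOfEqInnerConst (volume : Measure E3) 2 : ℝ))
  rw [← h4.liminf_eq]
  exact liminf_le_liminf (Eventually.of_forall fun m => key _ (h1 m))

theorem sbl_holder {p q : ℝ} (hpq : p.HolderConjugate q) {w u : E3 → ℝ}
    (hw : MemLp w (ENNReal.ofReal p) volume) (hu : MemLp u (ENNReal.ofReal q) volume) :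
    Integrable (fun x => w x * u x) ∧
      ∫ x, |w x| * |u x| ≤ (∫ x, |w x| ^ p) ^ (1 / p) * (∫ x, |u x| ^ q) ^ (1 / q) := by
  have := hpq.ennrealOfReal
  exact ⟨hw.integrable_mul hu, integral_mul_norm_le_Lp_mul_Lq hpq hw hu⟩

theorem sbl_32 : (3 / 2 : ENNReal) = ENNReal.ofReal (3 / 2) := by
  rw [ENNReal.ofReal_div_of_pos two_pos, ENNReal.ofReal_ofNat, ENNReal.ofReal_ofNat]

theorem sbl_third {I C k : ℝ} (hI : 0 ≤ I) (hC : 0 < C) (hk : 0 ≤ k) (h : I ≤ C * k ^ 3) :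
    I ^ (1 / 3 : ℝ) ≤ C ^ (1 / 3 : ℝ) * k := by
  refine (Real.rpow_le_rpow hI h (by norm_num)).trans_eq ?_
  rw [Real.mul_rpow hC.le (by positivity), one_div]
  exact congrArg _ (Real.pow_rpow_inv_natCast hk three_ne_zero)

theorem sobolev : ∃ C : ℝ, 0 < C ∧ ∀ a : S e3, MemLp a.f 6 volume ∧
    ∫ x, a.f x ^ 6 ≤ C * kin a a ^ 3 := by
  obtain ⟨K, hK, h⟩ := sbl_core
  refine ⟨(K + 1) ^ 6 * 2 ^ 3, by positivity, fun a => ?_⟩
  have h1 : MemLp a.f 6 volume := ⟨a.mem.1, (h a).trans_lt ENNReal.ofReal_lt_top⟩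
  refine ⟨h1, ?_⟩
  have h2 := h a
  have k0 := kin_nonneg a
  rw [h1.eLpNorm_eq_integral_rpow_norm (by simp) (by simp),
    ENNReal.ofReal_le_ofReal_iff (by positivity), ENNReal.toReal_ofNat] at h2
  have h3 : ∫ x, ‖a.f x‖ ^ (6 : ℝ) = ∫ x, a.f x ^ 6 :=
    integral_congr_ae (ae_of_all _ fun x => by
      simp only [Real.rpow_ofNat, Real.norm_eq_abs]
      exact (show Even 6 by decide).pow_abs _)
  have h4 : 0 ≤ ∫ x, a.f x ^ 6 := integral_nonneg fun x => by positivity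
  rw [h3, Real.rpow_inv_le_iff_of_pos h4 (by positivity) (by norm_num), Real.rpow_ofNat, mul_pow,
    show 6 = 2 * 3 from rfl, pow_mul (√_), Real.sq_sqrt (by positivity), mul_pow] at h2
  rw [mul_assoc]
  refine h2.trans ?_
  gcongr
  linarith
theorem holder32 : ∃ C : ℝ, 0 < C ∧ ∀ (w : E3 → ℝ) (a : S e3), MemLp w (3 / 2) volume →
    Integrable (fun x => w x * a.f x ^ 2) ∧
      ∫ x, |w x| * a.f x ^ 2 ≤ C * (∫ x, |w x| ^ (3 / 2 : ℝ)) ^ (2 / 3 : ℝ) * kin a a := by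
  obtain ⟨C, hC, h⟩ := sobolev
  refine ⟨C ^ (1 / 3 : ℝ), by positivity, fun w a hw => ?_⟩
  have h6 : MemLp a.f (ENNReal.ofReal 6) volume := by
    rw [ENNReal.ofReal_ofNat]
    exact (h a).1
  have := (show Real.HolderTriple 6 6 3 from ⟨by norm_num, by norm_num, by norm_num⟩).ennrealOfReal
  have h3 : MemLp (fun x => a.f x ^ 2) (ENNReal.ofReal 3) volume := by
    simp only [sq]
    exact h6.mul' h6
  obtain ⟨h1, h2⟩ := sbl_holder (show Real.HolderConjugate (3 / 2) 3 from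
    ⟨by norm_num, by norm_num, by norm_num⟩) (sbl_32 ▸ hw) h3
  refine ⟨h1, ?_⟩
  simp only [abs_sq, Real.rpow_ofNat, ← pow_mul, one_div_div] at h2
  refine h2.trans ?_
  rw [mul_comm (C ^ _), mul_assoc]
  exact mul_le_mul_of_nonneg_left (sbl_third
    (integral_nonneg fun x => (show Even 6 by decide).pow_nonneg _) hC (kin_nonneg a) (h a).2)
    (Real.rpow_nonneg (integral_nonneg fun x => by positivity) _)
theorem holder65 : ∃ C : ℝ, 0 < C ∧ ∀ (w : E3 → ℝ) (a : S e3), MemLp w (6 / 5) volume →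
    Integrable (fun x => w x * a.f x) ∧
      (∫ x, w x * a.f x) ^ 2 ≤ C * (∫ x, |w x| ^ (6 / 5 : ℝ)) ^ (5 / 3 : ℝ) * kin a a := by
  obtain ⟨C, hC, h⟩ := sobolev
  refine ⟨C ^ (1 / 3 : ℝ), by positivity, fun w a hw => ?_⟩
  have h6 : MemLp a.f (ENNReal.ofReal 6) volume := by
    rw [ENNReal.ofReal_ofNat]
    exact (h a).1
  have e : (6 / 5 : ENNReal) = ENNReal.ofReal (6 / 5) := by
    rw [ENNReal.ofReal_div_of_pos (by norm_num), ENNReal.ofReal_ofNat, ENNReal.ofReal_ofNat]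
  obtain ⟨h1, h2⟩ := sbl_holder (show Real.HolderConjugate (6 / 5) 6 from
    ⟨by norm_num, by norm_num, by norm_num⟩) (e ▸ hw) h6
  refine ⟨h1, ?_⟩
  simp only [Real.rpow_ofNat, (show Even 6 by decide).pow_abs] at h2
  have h3 : |∫ x, w x * a.f x| ≤ ∫ x, |w x| * |a.f x| := by
    simpa only [abs_mul] using abs_integral_le_integral_abs (f := fun x => w x * a.f x)
  have h4 : 0 ≤ ∫ x, |w x| ^ (6 / 5 : ℝ) := integral_nonneg fun x => by positivity
  have h5 : 0 ≤ ∫ x, a.f x ^ 6 := integral_nonneg fun x => by positivity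
  rw [← sq_abs]
  refine (pow_le_pow_left₀ (abs_nonneg _) (h3.trans h2) 2).trans ?_
  rw [mul_pow, ← Real.rpow_mul_natCast h4, ← Real.rpow_mul_natCast h5, mul_comm (C ^ _), mul_assoc,
    show (1 / (6 / 5) * (2 : ℕ) : ℝ) = 5 / 3 by norm_num,
    show (1 / 6 * (2 : ℕ) : ℝ) = 1 / 3 by norm_num]
  exact mul_le_mul_of_nonneg_left (sbl_third h5 hC (kin_nonneg a) (h a).2) (Real.rpow_nonneg h4 _)
theorem sob_supp : ∃ C : ℝ, 0 < C ∧ ∀ (a : S e3) (A : Set E3), MeasurableSet A → volume A ≠ ⊤ →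
    (∀ᵐ x, x ∉ A → a.f x = 0) → ip a a ≤ C * volume.real A ^ (2 / 3 : ℝ) * kin a a := by
  obtain ⟨C, hC, h⟩ := holder32
  refine ⟨C, hC, fun a A hA hv ha => ?_⟩
  have h1 := (h (A.indicator fun _ => 1) a (memLp_indicator_const _ hA _ (Or.inr hv))).2
  have h2 : ∫ x, |A.indicator (fun _ => (1 : ℝ)) x| ^ (3 / 2 : ℝ) = volume.real A := by
    rw [← integral_indicator_one hA]
    refine integral_congr_ae (ae_of_all _ fun x => ?_)
    by_cases hx : x ∈ A <;> simp [hx]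
  rw [h2] at h1
  rw [ip_self]
  refine le_of_eq_of_le (integral_congr_ae (ha.mono fun x hx => ?_)) h1
  by_cases hx' : x ∈ A
  · simp [hx']
  · simp [hx hx']
theorem InV.fb {v : E3 → ℝ} (h : InV v) : FB e3 v := by
  obtain ⟨a, b, ha, hb, hv⟩ := h
  obtain rfl : v = fun x => a x + b x := funext hv
  refine FB.add ⟨ha.1, fun ε hε => ?_⟩ (fb_bdd hb.1 (C := (eLpNorm b ⊤ volume).toReal) ?_)
  · obtain ⟨C, hC, h⟩ := holder32
    obtain ⟨g, g1, g2⟩ := (sbl_32 ▸ ha).exists_boundedContinuous_integral_rpow_sub_le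
      (by norm_num) (Real.rpow_pos_of_pos (div_pos hε hC) (3 / 2))
    refine ⟨‖g‖, norm_nonneg _, fun u => ⟨(h a u ha).1, ?_⟩⟩
    obtain ⟨h1, h2⟩ := h (fun x => a x - g x) u (ha.sub (sbl_32 ▸ g2))
    have h3 := Real.rpow_le_rpow (integral_nonneg fun x => by positivity) g1
      (show (0 : ℝ) ≤ 2 / 3 by norm_num)
    rw [← Real.rpow_mul (div_pos hε hC).le, show (3 / 2 * (2 / 3) : ℝ) = 1 by norm_num,
      Real.rpow_one, le_div_iff₀' hC] at h3
    have h4 : Integrable fun x => |a x - g x| * u.f x ^ 2 := by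
      simpa only [abs_mul, abs_sq] using h1.abs
    have h5 : ∫ x, |a x| * u.f x ^ 2 ≤ ∫ x, (|a x - g x| * u.f x ^ 2 + ‖g‖ * u.f x ^ 2) := by
      refine integral_mono_of_nonneg (ae_of_all _ fun x => by positivity)
        (h4.add (u.int_sq.const_mul _)) (ae_of_all _ fun x => ?_)
      have := abs_sub_abs_le_abs_sub (a x) (g x)
      have h6 : |g x| ≤ ‖g‖ := g.norm_coe_le_norm x
      have h7 : |a x| * u.f x ^ 2 ≤ (|a x - g x| + ‖g‖) * u.f x ^ 2 :=
        mul_le_mul_of_nonneg_right (by linarith) (sq_nonneg _)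
      exact h7.trans_eq (add_mul _ _ _)
    rw [integral_add h4 (u.int_sq.const_mul _), integral_const_mul, ← ip_self] at h5
    exact h5.trans (add_le_add_left (h2.trans
      (mul_le_mul_of_nonneg_right h3 (kin_nonneg u))) _)
  · filter_upwards [ae_le_eLpNormEssSup (f := b) (μ := volume)] with x hx
    rw [← eLpNorm_exponent_top] at hx
    simpa using ENNReal.toReal_mono hb.2.ne hx

end Vale.Agent.P363
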